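import Vale.Agent.P179.R2.H12.Nor

/-!
# Blocks of a subgroup `H` below a functional
-/

namespace P179H12

open Subgroup Finset P179H524 P179C P179A P179P P179Y

open scoped Classical

universe u

section Defs

variable {k : Type u} [Field k] {G : Type} [Group G] [Fintype G]

/-- multiplicative functionals on the functions invariant under `H` and supported on `H` -/
structure MulH (H : Subgroup G) (m : (G → k) → k) : Prop where
  add : ∀ a b, m (a + b) = m a + m b
  smul : ∀ (c : k) a, m (c • a) = c * m a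
  one : m (fun g => if g = 1 then 1 else 0) = 1
  mul : ∀ a b, InvOn H a → InvOn H b → m (conv a b) = m a * m b

/-- the function on `G` given by an element of `kH` -/
noncomputable def bF (H : Subgroup G) (b : MonoidAlgebra k H) : G → k := ext H fun h => b.coeff h

/-- the block `b` of `H` lies below the functional `l` -/
def Low (H : Subgroup G) (l : (G → k) → k) (b : MonoidAlgebra k H) : Prop :=
  ∀ z : G → k, InvOn H z → l z = centralChar b (mkF fun h : H => z h)

variable {H : Subgroup G}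

omit [Fintype G] in
theorem invOn_ext0 {a : H → k} (ha : IsCF a) : InvOn H (ext H a) := by
  constructor
  · intro c hc x
    by_cases hx : x ∈ H
    · rw [ext_of_mem H _ hx, ext_of_mem H _ (mul_mem (mul_mem hc hx) (inv_mem hc))]
      exact ha ⟨c, hc⟩ ⟨x, hx⟩
    · rw [ext_of_not_mem H _ hx, ext_of_not_mem]
      intro h
      apply hx
      have := mul_mem (mul_mem (inv_mem hc) h) hc
      have e1 : c⁻¹ * (c * x * c⁻¹) * c = x := by group
      rwa [e1] at this
  · intro x hx
    exact ext_of_not_mem H _ hx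

omit [Fintype G] in
theorem invOn_bF {b : MonoidAlgebra k H} (hb : b ∈ Subalgebra.center k (MonoidAlgebra k H)) :
    InvOn H (bF H b) := invOn_ext0 ((P179C.mem_center_iff _).1 hb)

omit [Fintype G] in
theorem isCF_of_invOn {z : G → k} (hz : InvOn H z) : IsCF (fun h : H => z h) :=
  fun c x => hz.1 c c.2 x

omit [Fintype G] in
theorem ext_of_supp {z : G → k} (hz : ∀ x, x ∉ H → z x = 0) : ext H (fun h : H => z h) = z :=
  ext_restr' hz

omit [Fintype G] in
theorem bF_coe (b : MonoidAlgebra k H) : (fun h : H => bF H b h) = fun h => b.coeff h :=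
  funext fun h => ext_coe H _ h

theorem mkF_bF (b : MonoidAlgebra k H) : mkF (fun h : H => bF H b h) = b := by
  rw [bF_coe, mkF_coeff]

theorem bF_mul (a b : MonoidAlgebra k H) : bF H (a * b) = conv (bF H a) (bF H b) := by
  unfold bF
  rw [← ext_conv]
  congr 1
  funext h
  exact coeff_mul_eq_conv a b h

theorem bF_inj {a b : MonoidAlgebra k H} (h : bF H a = bF H b) : a = b := by
  rw [← mkF_bF a, ← mkF_bF b, h]

theorem bF_mkF (z : G → k) (hz : ∀ x, x ∉ H → z x = 0) : bF H (mkF fun h : H => z h) = z := by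
  unfold bF
  simp only [coeff_mkF]
  exact ext_of_supp hz

omit [Fintype G] in
theorem bF_zero : bF H (0 : MonoidAlgebra k H) = 0 := by
  funext g
  unfold bF
  by_cases h : g ∈ H
  · rw [ext_of_mem H _ h]
    rfl
  · rw [ext_of_not_mem H _ h]
    rfl

theorem MulH.isHomCF {m : (G → k) → k} (hm : MulH H m) : IsHomCF (lres H m) where
  add a b := by
    unfold lres
    rw [P179Y.ext_add, hm.add]
  smul c a := by
    unfold lres
    rw [ext_smul, hm.smul]
  one := by
    unfold lres
    refine (congrArg m ?_).trans hm.one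
    exact ext_one _ _ (if_pos rfl) fun g hg => if_neg hg
  mul a b ha hb := by
    unfold lres
    rw [ext_conv, hm.mul _ _ (invOn_ext0 ha) (invOn_ext0 hb)]

theorem MulH.zero {m : (G → k) → k} (hm : MulH H m) : m 0 = 0 := by
  have := hm.smul 0 0
  rwa [zero_smul, zero_mul] at this

theorem MulH.sum {m : (G → k) → k} (hm : MulH H m) {ι : Type*} (s : Finset ι)
    (f : ι → G → k) : m (∑ i ∈ s, f i) = ∑ i ∈ s, m (f i) := by
  induction s using Finset.induction_on with
  | empty => simp [hm.zero]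
  | insert i s hi ih => rw [Finset.sum_insert hi, Finset.sum_insert hi, hm.add, ih]

end Defs

section Blocks

variable {k : Type u} [Field k] [IsAlgClosed k] {G : Type} [Group G] [Fintype G] {H : Subgroup G}

theorem exists_blk {m : (G → k) → k} (hm : MulH H m) :
    ∃ b : MonoidAlgebra k H, IsBlock b ∧ Low H m b := by
  obtain ⟨b, hb, hlb⟩ := homBlockStmt (k := k) (G := H) hm.isHomCF.toAlgHom
  refine ⟨b, hb, fun z hz => ?_⟩
  have h1 := hlb ⟨mkF (fun h : H => z h), mkF_mem (isCF_of_invOn hz)⟩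
  rw [hm.isHomCF.toAlgHom_mkF (isCF_of_invOn hz)] at h1
  change _ = centralChar b (mkF (fun h : H => z h)) at h1
  rw [← h1]
  unfold lres
  rw [ext_of_supp hz.2]

theorem Low.one {m : (G → k) → k} {b : MonoidAlgebra k H} (hb : IsBlock b) (h : Low H m b) :
    m (bF H b) = 1 := by
  rw [h _ (invOn_bF hb.1), mkF_bF, centralChar_self b hb]

theorem Low.eq_of_ne {m m' : (G → k) → k} (hm : MulH H m) {b : MonoidAlgebra k H}
    (hb : IsBlock b) (h : Low H m' b) (hne : m (bF H b) ≠ 0) :
    ∀ z : G → k, InvOn H z → m z = m' z := by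
  obtain ⟨b', hb', h'⟩ := exists_blk hm
  have h1 : b' = b := by
    by_contra hcon
    apply hne
    rw [h' _ (invOn_bF hb.1), mkF_bF, charBlockStmt b' b hb' hb, if_neg hcon]
  intro z hz
  rw [h' z hz, h z hz, h1]

theorem Low.unique {m : (G → k) → k} {b b' : MonoidAlgebra k H}
    (hb : IsBlock b) (h : Low H m b) (hb' : IsBlock b') (hne : m (bF H b') ≠ 0) : b' = b := by
  by_contra hcon
  apply hne
  rw [h _ (invOn_bF hb'.1), mkF_bF, charBlockStmt b b' hb hb', if_neg fun h => hcon h.symm]

/-! ### Conjugation -/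

omit [IsAlgClosed k] [Fintype G] in
theorem invOn_cjH {n : G} (hn : n ∈ normalizer (H : Set G)) {z : G → k} (hz : InvOn H z) :
    InvOn H (cj n z) := by
  have key : ∀ x, n⁻¹ * x * n ∈ H ↔ x ∈ H := by
    intro x
    have h1 := (mem_normalizer_iff.1 (inv_mem hn)) x
    rw [inv_inv] at h1
    exact h1.symm
  constructor
  · intro h hh x
    unfold cj
    have h1 := hz.1 _ ((key h).2 hh) (n⁻¹ * x * n)
    rw [← h1]
    congr 1
    group
  · intro x hx
    exact hz.2 _ fun h => hx ((key x).1 h)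

omit [IsAlgClosed k] in
theorem MulH.cj {m : (G → k) → k} (hm : MulH H m) {n : G} (hn : n ∈ normalizer (H : Set G)) :
    MulH H fun z => m (cj n z) where
  add a b := by
    rw [cj_add, hm.add]
  smul r a := by
    rw [cj_smul, hm.smul]
  one := by
    rw [cj_delta, hm.one]
  mul a b ha hb := by
    rw [cj_conv, hm.mul _ _ (invOn_cjH hn ha) (invOn_cjH hn hb)]

omit [Fintype G] [IsAlgClosed k] [Field k] in
/-- conjugation as an automorphism -/
def cjEquiv {n : G} (hn : n ∈ normalizer (H : Set G)) : H ≃* H where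
  toFun x := ⟨n * x * n⁻¹, (mem_normalizer_iff.1 hn _).1 x.2⟩
  invFun x := ⟨n⁻¹ * x * n, by
    have h1 := (mem_normalizer_iff.1 (inv_mem hn) (x : G)).1 x.2
    rwa [inv_inv] at h1⟩
  left_inv x := Subtype.ext (by
    change n⁻¹ * (n * x * n⁻¹) * n = x
    group)
  right_inv x := Subtype.ext (by
    change n * (n⁻¹ * x * n) * n⁻¹ = x
    group)
  map_mul' x y := Subtype.ext (by
    change n * (x * y) * n⁻¹ = n * x * n⁻¹ * (n * y * n⁻¹)
    group)

omit [IsAlgClosed k] in
/-- the conjugate of a block is a block -/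
theorem isBlock_cj {n : G} (hn : n ∈ normalizer (H : Set G)) {b : MonoidAlgebra k H}
    (hb : IsBlock b) : ∃ b' : MonoidAlgebra k H, IsBlock b' ∧ bF H b' = cj n (bF H b) := by
  refine ⟨MonoidAlgebra.domCongr k k (cjEquiv hn) b, isBlock_map _ hb, ?_⟩
  have h1 : MonoidAlgebra.domCongr k k (cjEquiv hn) b =
      mkF fun h : H => cj n (bF H b) h := by
    ext y
    rw [coeff_mkF]
    refine (MonoidAlgebra.coeff_domCongr _ _ _).trans ?_
    unfold cj
    exact (ext_coe H (fun h => b.coeff h) ((cjEquiv hn).symm y)).symm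
  rw [h1]
  exact bF_mkF _ (invOn_cjH hn (invOn_bF hb.1)).2

omit [IsAlgClosed k] [Fintype G] in
/-- different blocks are orthogonal -/
theorem block_mul_eq_zero {b b' : MonoidAlgebra k H} (hb : IsBlock b) (hb' : IsBlock b')
    (hne : b ≠ b') : b * b' = 0 := by
  have hc : b * b' = b' * b := (Subalgebra.mem_center_iff.1 hb.1 b').symm
  have hmem : b * b' ∈ Subalgebra.center k (MonoidAlgebra k H) := mul_mem hb.1 hb'.1
  have hid : b * b' * (b * b') = b * b' := by
    rw [mul_assoc, ← mul_assoc b' b b', ← hc, mul_assoc b b' b', hb'.2.1, ← mul_assoc, hb.2.1]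
  rcases hb.2.2.2 _ hmem hid (by rw [mul_assoc, ← hc, ← mul_assoc, hb.2.1]) with h | h
  · exact h
  · rcases hb'.2.2.2 _ hmem hid (by rw [mul_assoc, hb'.2.1]) with h' | h'
    · exact h'
    · exact absurd (h.symm.trans h') hne

/-- the stabiliser of `l` on `kH` -/
def stH (H : Subgroup G) (l : (G → k) → k) : Subgroup G where
  carrier := {n | n ∈ normalizer (H : Set G) ∧ ∀ z, InvOn H z → l (cj n z) = l z}
  mul_mem' := by
    rintro a b ⟨ha, ha'⟩ ⟨hb, hb'⟩
    refine ⟨mul_mem ha hb, fun z hz => ?_⟩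
    rw [cj_mul, ha' _ (invOn_cjH hb hz), hb' z hz]
  one_mem' := ⟨one_mem _, fun z _ => by rw [cj_one]⟩
  inv_mem' := by
    rintro a ⟨ha, ha'⟩
    refine ⟨inv_mem ha, fun z hz => ?_⟩
    rw [← ha' _ (invOn_cjH (inv_mem ha) hz), ← cj_mul, mul_inv_cancel, cj_one]

omit [Fintype G] [IsAlgClosed k] in
theorem mem_stH {l : (G → k) → k} {n : G} : n ∈ stH H l ↔ n ∈ normalizer (H : Set G) ∧
    ∀ z, InvOn H z → l (cj n z) = l z := Iff.rfl

theorem mem_stH_iff {l : (G → k) → k} {b : MonoidAlgebra k H} (hl : MulH H l) (hb : IsBlock b)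
    (h : Low H l b) {n : G} (hn : n ∈ normalizer (H : Set G)) :
    n ∈ stH H l ↔ cj n (bF H b) = bF H b := by
  constructor
  · intro h1
    obtain ⟨b', hb', he⟩ := isBlock_cj hn hb
    rw [← he, h.unique hb hb']
    rw [he, h1.2 _ (invOn_bF hb.1), h.one hb]
    exact one_ne_zero
  · intro h1
    refine ⟨hn, fun z hz => ?_⟩
    refine h.eq_of_ne (hl.cj hn) hb ?_ z hz
    rw [h1, h.one hb]
    exact one_ne_zero

theorem conv_cj_eq_zero {l : (G → k) → k} {b : MonoidAlgebra k H} (hl : MulH H l)
    (hb : IsBlock b) (h : Low H l b) {n : G} (hn : n ∈ normalizer (H : Set G))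
    (hn' : n ∉ stH H l) : conv (bF H b) (cj n (bF H b)) = 0 := by
  obtain ⟨b', hb', he⟩ := isBlock_cj hn hb
  rw [← he, ← bF_mul, block_mul_eq_zero hb hb', bF_zero]
  rintro rfl
  exact hn' ((mem_stH_iff hl hb h hn).2 he.symm)

omit [IsAlgClosed k] in
theorem conv_bF_self {b : MonoidAlgebra k H} (hb : IsBlock b) :
    conv (bF H b) (bF H b) = bF H b := by
  rw [← bF_mul, hb.2.1]

end Blocks

end P179H12
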