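import Vale.Agent.P179.R2.H12.Blk

/-!
# The block of `G` covering a block of the centraliser of a normal `p`-subgroup
-/

namespace P179H12

open Subgroup Finset P179H524 P179C P179A P179P P179Y

open scoped Classical

universe u

section

variable {p : ℕ} [hp : Fact p.Prime] {k : Type u} [Field k] [IsAlgClosed k] [CharP k p]
  {G : Type} [Group G] [Fintype G]

omit [IsAlgClosed k] [CharP k p] hp [Group G] in
theorem mkF_sum {ι : Type*} (s : Finset ι) (f : ι → G → k) :
    mkF (∑ i ∈ s, f i) = ∑ i ∈ s, mkF (f i) := by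
  ext g
  rw [coeff_mkF, MonoidAlgebra.coeff_sum, Finsupp.finsetSum_apply, Finset.sum_apply]
  exact Finset.sum_congr rfl fun i _ => (coeff_mkF _ _).symm

omit [CharP k p] hp in
/-- **the covering block** -/
theorem cover (H : Subgroup G) [hHn : H.Normal] {B : MonoidAlgebra k G}
    (hB : IsBlock B) (hBH : ∀ x, x ∉ H → B.coeff x = 0) {l : (G → k) → k} (hl : MulH H l)
    (hlB : ∀ z, IsCF z → l z = centralChar B (mkF z))
    {b : MonoidAlgebra k H} (hb : IsBlock b) (hlb : Low H l b) :
    (fun g => B.coeff g) = trG (stH H l) (bF H b) := by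
  have hN : ∀ g : G, g ∈ normalizer (H : Set G) := by
    intro g
    rw [normalizer_eq_top]
    exact mem_top g
  set T := stH H l with hT
  set e : G → k := bF H b with he
  have heT : ∀ t ∈ T, ∀ x, e (t * x * t⁻¹) = e x := by
    intro t ht x
    have h1 := (mem_stH_iff hl hb hlb (hN t⁻¹)).1 (inv_mem ht)
    have h2 := congrFun h1 x
    unfold cj at h2
    rwa [inv_inv] at h2
  -- the sum of the conjugates
  set S : G → k := trG T e with hS
  have hScf : IsCF S := isCF_trG T heT
  have hSsum : S = ∑ c : G ⧸ T, cj c.out e := by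
    funext x
    rw [Finset.sum_apply]
    rfl
  have horth : ∀ c d : G, c⁻¹ * d ∉ T → conv (cj c e) (cj d e) = 0 := by
    intro c d hcd
    have h1 : cj d e = cj c (cj (c⁻¹ * d) e) := by
      rw [← cj_mul]
      congr 1
      group
    rw [h1, ← cj_conv, conv_cj_eq_zero hl hb hlb (hN _) hcd]
    rfl
  have hidem : ∀ c : G, conv (cj c e) (cj c e) = cj c e := by
    intro c
    rw [← cj_conv, he, conv_bF_self hb]
  have hout : ∀ c d : G ⧸ T, c ≠ d → c.out⁻¹ * d.out ∉ T := by
    intro c d hcd h
    apply hcd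
    rw [← QuotientGroup.out_eq' c, ← QuotientGroup.out_eq' d]
    exact QuotientGroup.eq.2 h
  have hSS : mkF S * mkF S = mkF S := by
    rw [hSsum, mkF_sum, Finset.sum_mul_sum]
    refine Finset.sum_congr rfl fun c _ => ?_
    rw [Finset.sum_eq_single c]
    · rw [← mkF_conv, hidem]
    · intro d _ hd
      rw [← mkF_conv, horth _ _ (hout c d (Ne.symm hd))]
      ext g
      rw [coeff_mkF]
      rfl
    · intro h
      exact absurd (Finset.mem_univ _) h
  have hlcj : ∀ c : G, l (cj c e) = if c ∈ T then 1 else 0 := by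
    intro c
    by_cases hc : c ∈ T
    · rw [if_pos hc, he, hc.2 _ (invOn_bF hb.1), hlb.one hb]
    · rw [if_neg hc]
      have h1 := hl.mul e (cj c e) (invOn_bF hb.1) (invOn_cjH (hN c) (invOn_bF hb.1))
      rw [conv_cj_eq_zero hl hb hlb (hN c) hc, hl.zero, he, hlb.one hb, one_mul] at h1
      exact h1.symm
  have hlS : l S = 1 := by
    rw [hSsum, hl.sum, Finset.sum_eq_single ((1 : G) : G ⧸ T)]
    · rw [hlcj, if_pos]
      obtain ⟨t, ht⟩ := QuotientGroup.mk_out_eq_mul T 1
      rw [ht, one_mul]
      exact t.2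
    · intro c _ hc
      rw [hlcj, if_neg]
      intro h
      apply hc
      rw [← QuotientGroup.out_eq' c]
      exact (QuotientGroup.eq.2 (by simpa using inv_mem h))
    · intro h
      exact absurd (Finset.mem_univ _) h
  -- the block
  have hbcf : IsCF (fun g => B.coeff g) := (P179C.mem_center_iff _).1 hB.1
  have hbb : conv (fun g => B.coeff g) (fun g => B.coeff g) = fun g => B.coeff g := by
    funext g
    rw [← coeff_mul_eq_conv, hB.2.1]
  have hbH : InvOn H (fun g => B.coeff g) :=
    ⟨fun c _ x => hbcf c x, hBH⟩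
  obtain ⟨L, hL⟩ := blockHomStmt B hB
  have hLB : L ⟨B, hB.1⟩ = 1 := by rw [hL]; exact centralChar_self B hB
  have hLS : L ⟨mkF S, mkF_mem hScf⟩ = 1 := by rw [hL, ← hlB S hScf, hlS]
  set bH : MonoidAlgebra k H := mkF fun h : H => B.coeff h with hbHdef
  have hbHF : bF H bH = fun g => B.coeff g := bF_mkF _ hbH.2
  have hbHc : bH ∈ Subalgebra.center k (MonoidAlgebra k H) := mkF_mem (isCF_of_invOn hbH)
  have hbHbH : bH * bH = bH := by
    apply bF_inj (H := H)
    rw [bF_mul, hbHF, hbb]
  have hBcj : ∀ c : G, mkF (cj c e) = conjBy c (mkF e) := by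
    intro c
    ext x
    rw [coeff_mkF]
    unfold conjBy cj
    rw [MonoidAlgebra.coeff_mul_single_apply, MonoidAlgebra.coeff_single_mul_apply, coeff_mkF]
    simp [mul_assoc]
  have hcase : B * mkF e = 0 ∨ B * mkF e = mkF e := by
    have h1 : (bH * b) * (bH * b) = bH * b := by
      have hc : bH * b = b * bH := Subalgebra.mem_center_iff.1 hb.1 bH
      rw [mul_assoc, ← mul_assoc b bH b, ← hc, mul_assoc bH b b, hb.2.1, ← mul_assoc, hbHbH]
    have h3 : B * mkF e = mkF (bF H (bH * b)) := by
      rw [bF_mul, mkF_conv, hbHF, mkF_coeff]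
    rcases hb.2.2.2 _ (mul_mem hbHc hb.1) h1 (by rw [mul_assoc, hb.2.1]) with h | h
    · left
      rw [h3, h, bF_zero]
      ext g
      rw [coeff_mkF]
      rfl
    · right
      rw [h3, h]
  have hBc : ∀ c : G, B * mkF (cj c e) = conjBy c (B * mkF e) := by
    intro c
    rw [conjBy_mul, conjBy_central c hB.1, hBcj]
  have hne : B * mkF e ≠ 0 := by
    intro h0
    have h1 : B * mkF S = 0 := by
      rw [hSsum, mkF_sum, Finset.mul_sum]
      refine Finset.sum_eq_zero fun c _ => ?_
      rw [hBc, h0]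
      unfold conjBy
      rw [mul_zero, zero_mul]
    have h2 : L (⟨B, hB.1⟩ * ⟨mkF S, mkF_mem hScf⟩) = 0 := by
      rw [← map_zero L]
      congr 1
      exact Subtype.ext h1
    rw [map_mul, hLB, hLS, mul_one] at h2
    exact one_ne_zero h2
  have hBe := hcase.resolve_left hne
  have hBS : B * mkF S = mkF S := by
    rw [hSsum, mkF_sum, Finset.mul_sum]
    refine Finset.sum_congr rfl fun c _ => ?_
    rw [hBc, hBe, hBcj]
  have hfin : mkF S = B := by
    rcases hB.2.2.2 (mkF S) (mkF_mem hScf) hSS
      ((Subalgebra.mem_center_iff.1 (mkF_mem hScf) B).symm.trans hBS) with h | h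
    · exfalso
      apply hne
      have h4 : L ⟨mkF S, mkF_mem hScf⟩ = 0 := by
        rw [← map_zero L]
        congr 1
        exact Subtype.ext h
      rw [hLS] at h4
      exact absurd h4 one_ne_zero
    · exact h
  rw [← hfin]
  funext g
  exact coeff_mkF S g

end

end P179H12
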