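import Vale.Agent.P179.R2.H12.Half
import Vale.Agent.P179.R2.H450.W1

/-!
# `l = w` for blocks of groups with a normal `p`-subgroup `R` on which the inertial quotient acts
faithfully, and commuting elements of the inertial quotient generate cyclic groups
-/

namespace P179H12

open Subgroup Finset P179H524 P179C P179A P179P P179Y P179H872

open P179B (inertialGroup inertialIndex regularElements)

open scoped Classical

universe u

section Grp

theorem card_conj_quot {G G' : Type*} [Group G] [Group G'] [Finite G] [Finite G'] (f : G' →* G)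
    (hf : Function.Injective f) (S' C' : Subgroup G') (S C : Subgroup G)
    [(C'.subgroupOf S').Normal] [(C.subgroupOf S).Normal]
    (hS : ∀ x, x ∈ S' ↔ f x ∈ S) (hsurj : ∀ y ∈ S, ∃ x, f x = y)
    (hC : ∀ x ∈ S', x ∈ C' ↔ f x ∈ C) :
    Nat.card (ConjClasses (S' ⧸ C'.subgroupOf S')) =
      Nat.card (ConjClasses (S ⧸ C.subgroupOf S)) := by
  let g : S' →* S :=
    { toFun := fun x => ⟨f x, (hS x).1 x.2⟩
      map_one' := Subtype.ext (map_one f)
      map_mul' := fun x y => Subtype.ext (map_mul f (x : G') (y : G')) }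
  have hg : Function.Bijective g := by
    constructor
    · intro x y hxy
      exact Subtype.ext (hf (congrArg Subtype.val hxy))
    · intro y
      obtain ⟨x, hx⟩ := hsurj y y.2
      exact ⟨⟨x, (hS x).2 (by rw [hx]; exact y.2)⟩, Subtype.ext hx⟩
  let e : S' ≃* S := MulEquiv.ofBijective g hg
  refine card_conj_equiv (QuotientGroup.congr _ _ e ?_)
  ext y
  constructor
  · rintro ⟨x, hx, rfl⟩
    exact mem_subgroupOf.2 ((hC x x.2).1 (mem_subgroupOf.1 hx))
  · intro hy
    obtain ⟨x, rfl⟩ := e.surjective y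
    exact ⟨x, mem_subgroupOf.2 ((hC x x.2).2 (mem_subgroupOf.1 hy)), rfl⟩

end Grp

section

variable {p : ℕ} [hp : Fact p.Prime] {k : Type u} [Field k] [IsAlgClosed k] [CharP k p]
  {G : Type} [Group G] [Fintype G] {D : Subgroup G} {l : (G → k) → k}

omit [IsAlgClosed k] [CharP k p] hp [Fintype G] in
theorem cent_subgroupOf_eq {N : Subgroup G} (hDN : D ≤ N) :
    centralizer ((D.subgroupOf N : Subgroup N) : Set N) = (centralizer (D : Set G)).subgroupOf N := by
  ext x
  rw [mem_cent_subgroupOf hDN, mem_subgroupOf]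

/-- **`l = w`** for the pair `(D, l)`, cyclic form -/
theorem eq_of_cyc (red : integralClosure ℤ ℂ →+* k) (R : Subgroup G) [hRn : R.Normal]
    (hR : IsPGroup p R) {B : MonoidAlgebra k G} (hB : IsBlock B) (hDB : IsDefectGroup B D)
    (hab : ∀ a ∈ D, ∀ b ∈ D, a * b = b * a) (hl : BP p D l)
    (hlB : ∀ z, IsCF z → l z = centralChar B (mkF z))
    (hnil : ∀ n ∈ stabT D l, n ∈ centralizer (R : Set G) → n ∈ centralizer (D : Set G))
    (hcyc : ∀ x ∈ stabT D l, ∀ t ∈ stabT D l, t * x * t⁻¹ * x⁻¹ ∈ centralizer (D : Set G) →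
      ∃ z ∈ stabT D l, x ∈ centralizer (D : Set G) ⊔ zpowers z ∧
        t ∈ centralizer (D : Set G) ⊔ zpowers z) :
    numSimpleIn B = numWeightsIn p red B := by
  have hD : IsPGroup p D := (exists_BP_of_block (p := p) B hB D hDB).1
  have hab' : D ≤ centralizer (D : Set G) := by
    intro x hx
    rw [mem_centralizer_iff]
    intro y hy
    exact hab y hy x hx
  have hT := hT_of_block hB hDB hD hab hl hlB
  have hRD : R ≤ D := P179H725.le_defect (p := p) hB hDB R hR
  have hCC : centralizer (D : Set G) ≤ centralizer (R : Set G) := centralizer_le hRD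
  have hDC : D ≤ centralizer (R : Set G) := hab'.trans hCC
  have hcf : ∀ {K : Type} [Group K] [Fintype K] {b : MonoidAlgebra k K}, IsBlock b →
      IsCF (fun g => b.coeff g) ∧ conv (fun g => b.coeff g) (fun g => b.coeff g) =
        fun g => b.coeff g := by
    intro K _ _ b hb
    refine ⟨(P179C.mem_center_iff _).1 hb.1, ?_⟩
    funext g
    rw [← coeff_mul_eq_conv, hb.2.1]
  -- `G`
  have h1 := numSimple_cover (p := p) (H := centralizer (R : Set G)) red hB
    (fun x hx => idem_supp (p := p) R hR (hcf hB).1 (hcf hB).2 hx) hl hD hab' hlB hT hDC hCC hnil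
    hcyc
  -- `N_G(D)`
  have hDN : D ≤ normalizer (D : Set G) := le_normalizer
  have hCN : centralizer (D : Set G) ≤ normalizer (D : Set G) := cent_le_norm D
  obtain ⟨b, hb, hbz, hbB, huniq⟩ := P179H450.exists_corr hl hD hab hT hlB
  obtain ⟨b', hb', hbB', -, hw, -⟩ := P179H450.W1_corr p red hB hDB hab
  have hbb := huniq b' hb' hbB'
  subst hbb
  rw [← hw, h1]
  set N : Subgroup G := normalizer (D : Set G) with hN
  have hDn : (D.subgroupOf N).Normal := ⟨fun x hx g => by
    rw [mem_subgroupOf] at hx ⊢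
    exact (mem_normalizer_iff.1 g.2 _).1 hx⟩
  have hl' := hl.restrict hDN hCN
  have hD' : IsPGroup p (D.subgroupOf N) := hD.comap_subtype
  have hab'' : D.subgroupOf N ≤ centralizer ((D.subgroupOf N : Subgroup N) : Set N) := by
    intro x hx
    rw [mem_cent_subgroupOf hDN]
    exact hab' (by simpa [Subgroup.mem_subgroupOf] using hx)
  have hT' : ¬ p ∣ (centralizer ((D.subgroupOf N : Subgroup N) : Set N)).relIndex
      (stabT (D.subgroupOf N) (lres N l)) :=
    fun h => hT (h.trans (relIndex_stabT_lres_dvd hDN hCN))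
  have h2 := numSimple_cover (p := p) (H := centralizer ((D.subgroupOf N : Subgroup N) : Set N))
    red hb' (fun x hx => idem_supp (p := p) (D.subgroupOf N) hD' (hcf hb').1 (hcf hb').2 hx) hl' hD'
    hab'' (fun z hz => (hbz z hz).symm) hT' hab'' le_rfl (fun n _ h => h) (by
      intro x hx t ht hxt
      obtain ⟨z, hz, hz1, hz2⟩ := hcyc x ((mem_stabT_lres hDN hCN x).1 hx) t
        ((mem_stabT_lres hDN hCN t).1 ht) ((mem_cent_subgroupOf hDN _).1 hxt)
      have hzN : z ∈ N := hz.1
      refine ⟨⟨z, hzN⟩, (mem_stabT_lres hDN hCN ⟨z, hzN⟩).2 hz, ?_, ?_⟩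
      · rw [cent_subgroupOf_eq hDN]
        exact mem_sup_aux hCN le_rfl hzN x.2 (one_mem _) (by group) hz1
      · rw [cent_subgroupOf_eq hDN]
        exact mem_sup_aux hCN le_rfl hzN t.2 (one_mem _) (by group) hz2)
  rw [h2]
  symm
  refine card_conj_quot N.subtype N.subtype_injective _ _ _ _
    (fun x => mem_stabT_lres hDN hCN x) (fun y hy => ⟨⟨y, hy.1⟩, rfl⟩) fun x hx => ?_
  rw [mem_cent_subgroupOf hDN]
  exact ⟨fun h => hCC h, fun h => hnil x ((mem_stabT_lres hDN hCN x).1 hx) h⟩

end

end P179H12
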