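import Vale.Agent.P179.R2.H12.RegH

/-!
# The numerics of the height-refined bound at the level one
-/

namespace P179H12

open Subgroup

section Comm

variable {A : Type*} [CommGroup A] [Finite A]

omit [Finite A] in
theorem card_om_mul (n : ℕ) :
    Nat.card {x : A // x ^ n = 1} * Nat.card {y : A // ∃ d : A, d ^ n = y} = Nat.card A := by
  have h1 : Nat.card {x : A // x ^ n = 1} = Nat.card (powMonoidHom n : A →* A).ker :=
    Nat.card_congr (Equiv.subtypeEquivRight fun x => Iff.rfl)
  have h2 : Nat.card {y : A // ∃ d : A, d ^ n = y} = Nat.card (powMonoidHom n : A →* A).range :=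
    Nat.card_congr (Equiv.subtypeEquivRight fun x => Iff.rfl)
  rw [h1, h2, ← Subgroup.index_ker, Subgroup.card_mul_index]

theorem card_om_succ (p j : ℕ) :
    Nat.card {x : A // x ^ p ^ (j + 1) = 1} ≤
      Nat.card {x : A // x ^ p = 1} * Nat.card {x : A // x ^ p ^ j = 1} := by
  let K : Subgroup A := (powMonoidHom (p ^ (j + 1)) : A →* A).ker
  let f : K →* A := (powMonoidHom p : A →* A).comp K.subtype
  have hf : ∀ x : K, f x = (x : A) ^ p := fun _ => rfl
  have h0 : Nat.card {x : A // x ^ p ^ (j + 1) = 1} = Nat.card K :=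
    Nat.card_congr (Equiv.subtypeEquivRight fun x => Iff.rfl)
  have h1 : Nat.card f.ker * Nat.card f.range = Nat.card K := by
    rw [← Subgroup.index_ker, Subgroup.card_mul_index]
  have h2 : Nat.card f.ker ≤ Nat.card {x : A // x ^ p = 1} := by
    refine Nat.card_le_card_of_injective
      (fun x : f.ker => (⟨((x : K) : A), x.2⟩ : {x : A // x ^ p = 1})) ?_
    intro x y hxy
    exact Subtype.ext (Subtype.ext (Subtype.mk.inj hxy))
  have h3 : Nat.card f.range ≤ Nat.card {x : A // x ^ p ^ j = 1} := by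
    refine Nat.card_le_card_of_injective
      (fun y : f.range => (⟨(y : A), ?_⟩ : {x : A // x ^ p ^ j = 1})) ?_
    · obtain ⟨x, hx⟩ := y.2
      rw [← hx, hf, ← pow_mul, ← pow_succ']
      exact x.2
    · intro x y hxy
      exact Subtype.ext (Subtype.mk.inj hxy)
  rw [h0, ← h1]
  exact Nat.mul_le_mul h2 h3

theorem card_om_le (p j : ℕ) :
    Nat.card {x : A // x ^ p ^ j = 1} ≤ Nat.card {x : A // x ^ p = 1} ^ j := by
  induction j with
  | zero =>
    rw [pow_zero, pow_zero]
    have h1 : Nat.card {x : A // x ^ 1 = 1} = Nat.card ({1} : Set A) :=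
      Nat.card_congr (Equiv.subtypeEquivRight fun x => by rw [pow_one]; rfl)
    rw [h1]
    simp
  | succ j ih =>
    refine (card_om_succ p j).trans ?_
    rw [pow_succ']
    exact Nat.mul_le_mul_left _ ih

end Comm

/-- a sum of powers -/
theorem sum_pow_le {p c d : ℕ} (hp : 2 ≤ p) (hd : 1 ≤ d) (J : ℕ) :
    ∑ h ∈ Finset.range (J + 1), p ^ (c + d * h) ≤ p ^ (1 + c + d * J) := by
  induction J with
  | zero =>
    rw [Finset.sum_range_one, mul_zero, add_zero, add_zero, add_comm 1 c]
    exact Nat.pow_le_pow_right (by omega) (by omega)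
  | succ J ih =>
    rw [Finset.sum_range_succ]
    have h1 : p ^ (1 + c + d * J) ≤ p ^ (c + d * (J + 1)) := by
      refine Nat.pow_le_pow_right (by omega) ?_
      rw [mul_add]
      omega
    have h2 : p ^ (1 + c + d * (J + 1)) = p * p ^ (c + d * (J + 1)) := by
      rw [← pow_succ']
      congr 1
      omega
    rw [h2]
    calc _ ≤ p ^ (c + d * (J + 1)) + p ^ (c + d * (J + 1)) := Nat.add_le_add_right (ih.trans h1) _
      _ = 2 * p ^ (c + d * (J + 1)) := by ring
      _ ≤ _ := Nat.mul_le_mul_right _ hp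

variable {p : ℕ} [hp : Fact p.Prime] {G : Type*} [Group G] [Finite G] {D T : Subgroup G}

omit hp in
/-- `|D|` and the powers -/
theorem card_D_le (hab : ∀ a ∈ D, ∀ b ∈ D, a * b = b * a) {r m : ℕ}
    (hr : Nat.card {x : G // x ∈ D ∧ x ^ p = 1} = p ^ r) (hm : ∀ d ∈ D, d ^ p ^ (m + 1) = 1)
    (j : ℕ) : Nat.card D ≤ Nat.card {y : G // ∃ d ∈ D, d ^ p ^ j = y} *
      p ^ (r * min (m + 1) j) := by
  let _ : CommGroup D := { (inferInstance : Group D) with
    mul_comm := fun a b => Subtype.ext (hab a a.2 b b.2) }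
  have e1 : Nat.card {x : D // x ^ p = 1} = p ^ r := by
    rw [← hr]
    exact Nat.card_congr
      { toFun := fun x => ⟨(x.1 : G), x.1.2, by
          have := congrArg Subtype.val x.2
          exact this⟩
        invFun := fun x => ⟨⟨x.1, x.2.1⟩, Subtype.ext x.2.2⟩
        left_inv := fun x => rfl
        right_inv := fun x => rfl }
  have e2 : ∀ j, Nat.card {y : G // ∃ d ∈ D, d ^ p ^ j = y} =
      Nat.card {y : D // ∃ d : D, d ^ p ^ j = y} := by
    intro j
    exact Nat.card_congr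
      { toFun := fun y => ⟨⟨y.1, by
          obtain ⟨d, hd, e⟩ := y.2
          rw [← e]
          exact D.pow_mem hd _⟩, by
          obtain ⟨d, hd, e⟩ := y.2
          exact ⟨⟨d, hd⟩, Subtype.ext e⟩⟩
        invFun := fun y => ⟨(y.1 : G), by
          obtain ⟨d, e⟩ := y.2
          exact ⟨d, d.2, congrArg Subtype.val e⟩⟩
        left_inv := fun y => rfl
        right_inv := fun y => rfl }
  rw [e2]
  rcases le_total j (m + 1) with h | h
  · rw [min_eq_right h, pow_mul, ← e1]
    calc Nat.card D = Nat.card {x : D // x ^ p ^ j = 1} *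
          Nat.card {y : D // ∃ d : D, d ^ p ^ j = y} := (card_om_mul _).symm
      _ ≤ Nat.card {x : D // x ^ p = 1} ^ j * Nat.card {y : D // ∃ d : D, d ^ p ^ j = y} :=
          Nat.mul_le_mul_right _ (card_om_le p j)
      _ = _ := mul_comm _ _
  · rw [min_eq_left h, pow_mul, ← e1]
    have h1 : Nat.card D = Nat.card {x : D // x ^ p ^ (m + 1) = 1} := by
      refine Nat.card_congr ⟨fun x => ⟨x, Subtype.ext (hm x x.2)⟩, fun x => x.1, fun _ => rfl,
        fun _ => rfl⟩
    have h2 : 0 < Nat.card {y : D // ∃ d : D, d ^ p ^ j = y} := by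
      rw [Nat.card_pos_iff]
      exact ⟨⟨1, 1, one_pow _⟩, inferInstance⟩
    calc Nat.card D = Nat.card {x : D // x ^ p ^ (m + 1) = 1} := h1
      _ ≤ Nat.card {x : D // x ^ p = 1} ^ (m + 1) := card_om_le p (m + 1)
      _ ≤ _ := Nat.le_mul_of_pos_left _ h2

omit [Finite G] in
/-- the order of an element of full order modulo `D ^ (p ^ j)` -/
theorem dvd_of_full {m : ℕ} (hm : ∀ d ∈ D, d ^ p ^ (m + 1) = 1) {w : G} (hw : w ∈ D)
    (hwm : w ^ p ^ m ≠ 1) (j i : ℕ) (h : ∃ d ∈ D, w ^ i = d ^ p ^ j) :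
    p ^ min (m + 1) j ∣ i := by
  obtain ⟨d, hd, hwd⟩ := h
  have key : ∀ s ≤ min (m + 1) j, p ^ s ∣ i := by
    intro s
    induction s with
    | zero => intro _; rw [pow_zero]; exact one_dvd _
    | succ s ih =>
      intro hs
      obtain ⟨i', rfl⟩ := ih (by omega)
      rw [pow_succ]
      refine Nat.mul_dvd_mul_left _ ?_
      by_contra hpi
      apply hwm
      have h1 : (w ^ p ^ m) ^ i' = 1 := by
        have h2 : (w ^ (p ^ s * i')) ^ p ^ (m - s) = 1 := by
          rw [hwd, ← pow_mul, ← pow_add]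
          have h3 : j + (m - s) = (m + 1) + (j + (m - s) - (m + 1)) := by omega
          rw [h3, pow_add, pow_mul, hm d hd, one_pow]
        rw [← pow_mul] at h2 ⊢
        have h4 : p ^ s * i' * p ^ (m - s) = p ^ m * i' := by
          have h5 : p ^ m = p ^ s * p ^ (m - s) := by
            rw [← pow_add]
            congr 1
            omega
          rw [h5]
          ring
        rwa [h4] at h2
      have h2 : (w ^ p ^ m) ^ p = 1 := by
        rw [← pow_mul, ← pow_succ]
        exact hm w hw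
      have h3 := pow_gcd_eq_one.2 ⟨h1, h2⟩
      rwa [(Nat.Coprime.symm ((Nat.Prime.coprime_iff_not_dvd hp.out).2 hpi) : Nat.Coprime i' p),
        pow_one] at h3
  exact key _ le_rfl

/-- **the numerics**: a regular element of full order modulo the `p`-th powers, and the bound for
the index -/
theorem hasRegCosetH_of (hp2 : 2 < p) (hab : ∀ a ∈ D, ∀ b ∈ D, a * b = b * a) {r m : ℕ}
    (hr : Nat.card {x : G // x ∈ D ∧ x ^ p = 1} = p ^ r) (hr3 : 3 ≤ r)
    (hm : ∀ d ∈ D, d ^ p ^ (m + 1) = 1) (hmr : r + (r - 3) * ((r - 1) / 2) ≤ m) {w : G}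
    (hw : w ∈ D) (hwm : w ^ p ^ m ≠ 1)
    (hreg : ∀ n ∈ T, (∃ d ∈ D, n * w * n⁻¹ * w⁻¹ = d ^ p) → n ∈ centralizer (D : Set G))
    (he : (centralizer (D : Set G)).relIndex T * Nat.card D < p ^ r *
      Nat.card {u : G // u ∈ D ∧ ∀ n ∈ T, n * u * n⁻¹ = u → n ∈ centralizer (D : Set G)})
    (he' : (centralizer (D : Set G)).relIndex T ≤ p ^ r) : HasRegCosetH p D T := by
  have hp1 : 1 ≤ p := by omega
  have hp0 : 0 < p := by omega
  have hJ1 : 1 ≤ (r + 1) / 2 := by omega
  have hYpos : ∀ j, 0 < Nat.card {y : G // ∃ d ∈ D, d ^ p ^ j = y} := by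
    intro j
    rw [Nat.card_pos_iff]
    exact ⟨⟨1, 1, one_mem D, one_pow _⟩, inferInstance⟩
  -- the bound for the level `j`
  have hlev : ∀ j, 1 ≤ j → Nat.card D * p ≤ p ^ (1 + (r - 1) * j) *
      (Nat.card {y : G // ∃ d ∈ D, d ^ p ^ j = y} * p ^ min (m + 1) j) := by
    intro j hj
    have h1 := card_D_le hab hr hm j
    have h2 : r * min (m + 1) j ≤ (r - 1) * j + min (m + 1) j := by
      have h3 : r * min (m + 1) j = (r - 1) * min (m + 1) j + min (m + 1) j := by
        obtain ⟨r', rfl⟩ : ∃ r', r = r' + 1 := ⟨r - 1, by omega⟩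
        rw [Nat.add_sub_cancel]
        ring
      rw [h3]
      exact Nat.add_le_add_right (Nat.mul_le_mul_left _ (min_le_right _ _)) _
    calc Nat.card D * p ≤ (Nat.card {y : G // ∃ d ∈ D, d ^ p ^ j = y} *
          p ^ (r * min (m + 1) j)) * p := Nat.mul_le_mul_right _ h1
      _ ≤ (Nat.card {y : G // ∃ d ∈ D, d ^ p ^ j = y} *
          p ^ ((r - 1) * j + min (m + 1) j)) * p :=
          Nat.mul_le_mul_right _ (Nat.mul_le_mul_left _ (Nat.pow_le_pow_right hp0 h2))
      _ = _ := by
          rw [pow_add, pow_add, pow_one]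
          ring
  refine ⟨m, 1, (r + 1) / 2, fun j => p ^ min (m + 1) j, w, ⟨w, hw, hwm⟩, hJ1, hw,
    fun j _ i h => dvd_of_full hm hw hwm j i h, fun n hn h => hreg n hn ?_, ?_, ?_, ?_⟩
  · rwa [pow_one] at h
  · refine he.trans_le (Nat.mul_le_mul_right _ (Nat.pow_le_pow_right hp0 (by omega)))
  · -- the sum
    have h1 : Nat.card D * p / (Nat.card {y : G // ∃ d ∈ D, d ^ p ^ 1 = y} *
        p ^ min (m + 1) 1) ≤ p ^ (r + (r - 3) * 0) := by
      refine Nat.div_le_of_le_mul ?_
      rw [mul_comm (_ * _) (p ^ _)]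
      refine (hlev 1 le_rfl).trans (Nat.mul_le_mul_right _ (Nat.pow_le_pow_right hp0 ?_))
      omega
    have h2 : ∀ h ∈ Finset.Ico 1 ((r + 1) / 2), Nat.card D * p /
        (p ^ (2 * h) * (Nat.card {y : G // ∃ d ∈ D, d ^ p ^ (h + 1) = y} *
          p ^ min (m + 1) (h + 1))) ≤ p ^ (r + (r - 3) * h) := by
      intro h _
      refine Nat.div_le_of_le_mul ?_
      refine (hlev (h + 1) (by omega)).trans (le_of_eq ?_)
      have h3 : 1 + (r - 1) * (h + 1) = 2 * h + (r + (r - 3) * h) := by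
        obtain ⟨r', rfl⟩ : ∃ r', r = r' + 3 := ⟨r - 3, by omega⟩
        have : r' + 3 - 1 = r' + 2 := by omega
        rw [this, Nat.add_sub_cancel]
        ring
      rw [h3, pow_add]
      ring
    have h4 : ∑ h ∈ Finset.range ((r + 1) / 2), p ^ (r + (r - 3) * h) ≤ p ^ (m + 1) := by
      obtain ⟨J, hJ⟩ : ∃ J, (r + 1) / 2 = J + 1 := ⟨(r + 1) / 2 - 1, by omega⟩
      have hJr : J = (r - 1) / 2 := by omega
      rw [hJ]
      rcases Nat.eq_or_lt_of_le hr3 with h5 | h5
      · subst h5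
        have hJ1 : J = 1 := by omega
        subst hJ1
        rw [Finset.sum_range_succ, Finset.sum_range_one]
        have h6 : (3 : ℕ) - 3 = 0 := rfl
        rw [h6, zero_mul, zero_mul, add_zero, ← two_mul]
        calc 2 * p ^ 3 ≤ p * p ^ 3 := Nat.mul_le_mul_right _ (by omega)
          _ = p ^ 4 := by ring
          _ ≤ p ^ (m + 1) := Nat.pow_le_pow_right hp0 (by omega)
      · refine (sum_pow_le (by omega) (by omega) J).trans (Nat.pow_le_pow_right hp0 ?_)
        rw [hJr]
        omega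
    refine le_trans ?_ h4
    rw [Finset.range_eq_Ico, Finset.sum_eq_sum_Ico_succ_bot (by omega : 0 < (r + 1) / 2)]
    exact Nat.add_le_add h1 (Finset.sum_le_sum h2)
  · refine he'.trans (Nat.pow_le_pow_right hp0 ?_)
    omega

end P179H12
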