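import Vale.Agent.P179.R2.H12.Tst
import Vale.Agent.P179.R2.H872.FR
import Vale.Agent.P179.R2.H872.Count
import Vale.Agent.P179.R2.H854.Kr1

/-!
# The number of simple modules of a block which covers a nilpotent block of `C_G(R)`
-/

namespace P179H12

open Subgroup Finset P179H524 P179C P179A P179P P179Y P179H872

open scoped Classical

universe u

section Grp

variable {G : Type*} [Group G]

theorem card_conj_le {A B : Type*} [Group A] [Group B] [Finite A] (f : A →* B)
    (hf : Function.Surjective f) : Nat.card (ConjClasses B) ≤ Nat.card (ConjClasses A) := by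
  refine Nat.card_le_card_of_surjective (ConjClasses.map f) fun c => ?_
  obtain ⟨b, rfl⟩ := ConjClasses.exists_rep c
  obtain ⟨a, rfl⟩ := hf b
  exact ⟨ConjClasses.mk a, rfl⟩

theorem card_conj_equiv {A B : Type*} [Group A] [Group B] [Finite A] [Finite B] (f : A ≃* B) :
    Nat.card (ConjClasses A) = Nat.card (ConjClasses B) :=
  le_antisymm (card_conj_le f.symm.toMonoidHom f.symm.surjective)
    (card_conj_le f.toMonoidHom f.surjective)

theorem card_conj_sup [Finite G] (S N T : Subgroup G) [N.Normal] (hT : T = S ⊔ N) :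
    Nat.card (ConjClasses (T ⧸ N.subgroupOf T)) = Nat.card (ConjClasses (S ⧸ N.subgroupOf S)) := by
  subst hT
  exact (card_conj_equiv (QuotientGroup.quotientInfEquivProdNormalQuotient S N)).symm

end Grp

section

theorem mem_sup_aux {G : Type*} [Group G] {H T C : Subgroup G} (hHT : H ≤ T) (hCH : C ≤ H)
    {z x a n : G} (hz : z ∈ T) (hx : x ∈ T) (ha : a ∈ H) (hn : n = a⁻¹ * x)
    (h : n ∈ C ⊔ zpowers z) :
    (⟨x, hx⟩ : T) ∈ H.subgroupOf T ⊔ zpowers (⟨z, hz⟩ : T) := by
  have h1 : (C ⊔ zpowers z) ≤ (H.subgroupOf T ⊔ zpowers (⟨z, hz⟩ : T)).map T.subtype := by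
    rw [sup_le_iff, zpowers_le]
    refine ⟨fun c hc => ?_, ?_⟩
    · exact ⟨⟨c, hHT (hCH hc)⟩, mem_sup_left (mem_subgroupOf.2 (hCH hc)), rfl⟩
    · exact ⟨⟨z, hz⟩, mem_sup_right (mem_zpowers _), rfl⟩
  obtain ⟨m, hm, hmn⟩ := h1 h
  have h2 : (⟨x, hx⟩ : T) = ⟨a, hHT ha⟩ * m := by
    apply Subtype.ext
    change x = a * (m : G)
    have h3 : (m : G) = n := hmn
    rw [h3, hn]
    group
  rw [h2]
  exact mul_mem (mem_sup_left (mem_subgroupOf.2 ha)) hm

variable {p : ℕ} [hp : Fact p.Prime] {k : Type u} [Field k] [IsAlgClosed k] [CharP k p]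
  {G : Type} [Group G] [Fintype G] {D H : Subgroup G} {l : (G → k) → k}

omit [IsAlgClosed k] [CharP k p] hp in
theorem inc_mkF (T : Subgroup G) (z : G → k) (hz : ∀ x, x ∉ T → z x = 0) :
    inc T (mkF fun t : T => z t) = mkF z := by
  unfold mkF
  rw [map_sum]
  rw [← Finset.sum_subset (Finset.subset_univ ((Finset.univ : Finset T).map
    ⟨Subtype.val, Subtype.val_injective⟩)), Finset.sum_map]
  · exact Finset.sum_congr rfl fun t _ => inc_single T t _
  · intro x _ hx
    rw [hz x, MonoidAlgebra.single_zero]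
    intro h
    exact hx (Finset.mem_map.2 ⟨⟨x, h⟩, Finset.mem_univ _, rfl⟩)

/-- **the number of simple modules** of a block which covers a nilpotent block (with abelian
defect groups) of the normal subgroup `H` -/
theorem numSimple_cover (red : integralClosure ℤ ℂ →+* k) [hHn : H.Normal]
    {B : MonoidAlgebra k G} (hB : IsBlock B) (hBH : ∀ x, x ∉ H → B.coeff x = 0)
    (hl : BP p D l) (hD : IsPGroup p D) (hab : D ≤ centralizer (D : Set G))
    (hlB : ∀ z, IsCF z → l z = centralChar B (mkF z))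
    (hT : ¬ p ∣ (centralizer (D : Set G)).relIndex (stabT D l)) (hDH : D ≤ H)
    (hCH : centralizer (D : Set G) ≤ H)
    (hnil : ∀ n ∈ stabT D l, n ∈ H → n ∈ centralizer (D : Set G))
    (hcyc : ∀ x ∈ stabT D l, ∀ t ∈ stabT D l, t * x * t⁻¹ * x⁻¹ ∈ centralizer (D : Set G) →
      ∃ z ∈ stabT D l, x ∈ centralizer (D : Set G) ⊔ zpowers z ∧
        t ∈ centralizer (D : Set G) ⊔ zpowers z) :
    numSimpleIn B = Nat.card (ConjClasses (stabT D l ⧸ H.subgroupOf (stabT D l))) := by
  have hml : MulH H l := BP.mulH hl hD hab hCH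
  obtain ⟨b, hb, hlb⟩ := exists_blk hml
  have hcov := cover H hB hBH hml hlB hb hlb
  have hb1 := numSimple_low red hl hD hab hDH hCH hnil hb hlb
  have hsup := stH_eq_sup hl hD hab hT hDH hCH
  have hidx := relIndex_stH hl hD hab hT hDH hCH hnil
  have hstab : ∀ g ∈ stH H l, ∃ c ∈ H, c⁻¹ * g ∈ stabT D l := fun g hg =>
    exists_stab hl hD hab hT hDH hCH hg
  have hN : ∀ g : G, g ∈ normalizer (H : Set G) := by
    intro g
    rw [normalizer_eq_top]
    exact mem_top g
  have hHT : H ≤ stH H l := le_stH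
  rw [← card_conj_sup _ _ _ hsup]
  have hsT : stabT D l ≤ stH H l := by
    rw [hsup]
    exact le_sup_left
  have heT : ∀ t ∈ stH H l, ∀ x, bF H b (t * x * t⁻¹) = bF H b x := by
    intro t ht x
    have h1 := (mem_stH_iff hml hb hlb (hN t⁻¹)).1 (inv_mem ht)
    have h2 := congrFun h1 x
    unfold cj at h2
    rwa [inv_inv] at h2
  have horth : ∀ g, g ∉ stH H l → conv (bF H b) (cj g (bF H b)) = 0 := fun g hg =>
    conv_cj_eq_zero hml hb hlb (hN g) hg
  have heH : ∀ x, x ∉ H → bF H b x = 0 := (invOn_bF hb.1).2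
  have hee : conv (bF H b) (bF H b) = bF H b := conv_bF_self hb
  generalize hTdef : stH H l = T at *
  generalize hedef : bF H b = e at *
  have heTs : ∀ x, x ∉ T → e x = 0 := fun x hx => heH x fun h => hx (hHT h)
  -- the element of `kT`
  set cT : MonoidAlgebra k T := mkF fun t : T => e t with hcT
  have hcTc : cT ∈ Subalgebra.center k (MonoidAlgebra k T) := mkF_mem fun t x => heT t t.2 x
  have hincT : inc T cT = mkF e := inc_mkF T e heTs
  have hcT2 : cT * cT = cT := by
    apply inc_injective T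
    rw [map_mul, hincT, ← mkF_conv, hee]
  have hfr : numSimpleIn B = numSimpleIn cT := by
    refine fong_reynolds p hcTc hcT2 hB.1 hB.2.1 (fun g hg => ?_) ?_
    · rw [hincT]
      have h1 : mkF e * MonoidAlgebra.single g 1 * mkF e =
          mkF e * conjBy g (mkF e) * MonoidAlgebra.single g 1 := by
        unfold conjBy
        simp only [mul_assoc]
        rw [MonoidAlgebra.single_mul_single, inv_mul_cancel, one_mul, ← MonoidAlgebra.one_def,
          mul_one]
      have h2 : conjBy g (mkF e) = mkF (cj g e) := by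
        ext x
        rw [coeff_mkF]
        unfold conjBy cj
        rw [MonoidAlgebra.coeff_mul_single_apply, MonoidAlgebra.coeff_single_mul_apply, coeff_mkF]
        simp [mul_assoc]
      rw [h1, h2, ← mkF_conv, horth g hg]
      have h3 : mkF (0 : G → k) = 0 := by
        ext x
        rw [coeff_mkF]
        rfl
      rw [h3, zero_mul]
    · rw [finsum_eq_sum_of_fintype, hincT]
      ext x
      rw [MonoidAlgebra.coeff_sum, Finsupp.finsetSum_apply]
      refine (congrFun hcov x).trans ?_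
      unfold trG
      refine Finset.sum_congr rfl fun c _ => ?_
      unfold conjBy
      rw [MonoidAlgebra.coeff_mul_single_apply, MonoidAlgebra.coeff_single_mul_apply, coeff_mkF]
      simp [mul_assoc]
  rw [hfr]
  -- the element of `kH`
  set N : Subgroup T := H.subgroupOf T with hNdef
  set c : MonoidAlgebra k N := mkF fun x : N => e (x : T) with hc
  have hincN : inc N c = cT := by
    refine inc_mkF N (fun t : T => e t) fun x hx => ?_
    exact heH _ fun h => hx (mem_subgroupOf.2 h)
  have hcc : c ∈ Subalgebra.center k (MonoidAlgebra k N) :=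
    mkF_mem fun t x => heT _ (t : T).2 _
  have hc2 : c * c = c := by
    apply inc_injective N
    rw [map_mul, hincN, hcT2]
  have hc1 : numSimpleIn c = 1 := by
    rw [← hb1]
    refine P179H854.numSimpleIn_of_equiv (subgroupOfEquivOfLe hHT).symm _ _ ?_
    ext y
    obtain ⟨x, rfl⟩ := (subgroupOfEquivOfLe hHT).symm.surjective y
    rw [P179H854.coeff_mapDomain_equiv, hc, coeff_mkF, ← hedef]
    exact (ext_coe H (fun h => b.coeff h) x).symm
  have hgoal := clifford_count p (N := N) (c := c) (by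
    have : N.index = H.relIndex T := rfl
    rw [this, hidx]
    exact hT) hcc hc2 (by rw [hincN]; exact hcTc) hc1 (by
    intro x t hxt
    have hxt' : (t : G) * x * (t : G)⁻¹ * (x : G)⁻¹ ∈ H := mem_subgroupOf.1 hxt
    obtain ⟨a1, ha1, hn1⟩ := hstab x x.2
    obtain ⟨a2, ha2, hn2⟩ := hstab t t.2
    set n1 := a1⁻¹ * (x : G) with hn1def
    set n2 := a2⁻¹ * (t : G) with hn2def
    have hcomm : n2 * n1 * n2⁻¹ * n1⁻¹ ∈ H := by
      have h1 : (QuotientGroup.mk (n2 * n1 * n2⁻¹ * n1⁻¹) : G ⧸ H) =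
          QuotientGroup.mk ((t : G) * x * (t : G)⁻¹ * (x : G)⁻¹) := by
        have e1 : (QuotientGroup.mk n1 : G ⧸ H) = QuotientGroup.mk (x : G) := by
          rw [hn1def, QuotientGroup.mk_mul, (QuotientGroup.eq_one_iff _).2 (inv_mem ha1), one_mul]
        have e2 : (QuotientGroup.mk n2 : G ⧸ H) = QuotientGroup.mk (t : G) := by
          rw [hn2def, QuotientGroup.mk_mul, (QuotientGroup.eq_one_iff _).2 (inv_mem ha2), one_mul]
        simp only [QuotientGroup.mk_mul, QuotientGroup.mk_inv, e1, e2]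
      rw [(QuotientGroup.eq_one_iff _).2 hxt'] at h1
      exact (QuotientGroup.eq_one_iff _).1 h1
    have hcommD := hnil _ (mul_mem (mul_mem (mul_mem hn2 hn1) (inv_mem hn2)) (inv_mem hn1)) hcomm
    obtain ⟨z, hz, h1, h2⟩ := hcyc n1 hn1 n2 hn2 hcommD
    refine ⟨⟨z, hsT hz⟩, ?_, ?_⟩
    · exact mem_sup_aux hHT hCH (hsT hz) x.2 ha1 hn1def h1
    · exact mem_sup_aux hHT hCH (hsT hz) t.2 ha2 hn2def h2)
  rw [← hincN, hgoal]

end

end P179H12
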