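import Vale.Agent.P179.R2.H452.M7

/-!
# The sums over regular cosets are divisible by the height
-/

namespace P179H12

open Finset P179P P179C P179Y Subgroup P179H524 P179I P179H452 P179H46

open P179X (pp SameSec)

open scoped Classical IsMulCommutative

universe v

set_option linter.unusedSectionVars false

section

variable {p : ℕ} [hp : Fact p.Prime] {k : Type v} [Field k] [CharP k p] {red : AA →+* k}
  {G : Type} [Group G] [Fintype G] {D : Subgroup G} {l : (G → k) → k}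
  {Φ : ∀ H : Subgroup G, Irr H} {aH bH : Subgroup G → ℕ} {ε : Subgroup G → ℤ} {κ₀ : k}

omit [CharP k p] in
theorem mean_mem {A : Type} [AddCommGroup A] [Fintype A] (hp2 : p ≠ 2) {a : ℕ}
    (hA : Fintype.card A = p ^ a) {F g : A → AA} (hF : RI F) {j n h : ℕ} (hhj : h ≤ j)
    (hK : ∀ i : ℕ, i ≡ 1 [MOD p] → ∀ b : A, F (i • b) - F b ∈ QN p red (j + n + a + a))
    (Y : AddSubgroup A) (hY : Nat.card Y = p ^ n)
    (hYj : ∀ y ∈ Y, ∃ x : A, p ^ j • x = y) (w : A) {κ : AA} (hκ : red κ ≠ 0)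
    (hg : ∀ y ∈ Y, F (w + y) - κ * g (w + y) ∈ QN p red (j + n + a + a))
    (h0 : g w ∈ QN p red h) : ∑ y : Y, g (w + y) ∈ QN p red (n + h) := by
  have hY' : Fintype.card Y = p ^ n := by
    rw [← hY, Nat.card_eq_fintype_card]
  have hmean := RI_mean (red := red) hp2 hA hF (K := j + n) (j := j) hK (by omega) Y hY' hYj w
  have h3 := hg 0 Y.zero_mem
  rw [add_zero] at h3
  have h1 : F w ∈ QN p red h := by
    have h4 := add_mem (QN_mono (show h ≤ j + n + a + a by omega) h3)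
      (Ideal.mul_mem_left _ κ h0)
    rwa [sub_add_cancel] at h4
  have h2 : (p : AA) ^ n * F w ∈ QN p red (n + h) :=
    mul_mem_QN (mem_QN_of_dvd dvd_rfl) h1
  have h5 : ∑ y : Y, F (w + y) ∈ QN p red (n + h) := by
    have h6 := sub_mem h2 (QN_mono (show n + h ≤ n + j by omega) hmean)
    rwa [sub_sub_cancel] at h6
  refine mem_of_unit_mul hκ ?_
  have h7 : κ * ∑ y : Y, g (w + y) =
      ∑ y : Y, F (w + y) - ∑ y : Y, (F (w + y) - κ * g (w + y)) := by
    rw [Finset.sum_sub_distrib, Finset.mul_sum]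
    ring
  rw [h7]
  refine sub_mem h5 (Ideal.sum_mem _ fun y _ => ?_)
  exact QN_mono (by omega) (hg _ y.2)

include hp in
theorem sum_coset_mem_aux [IsAlgClosed k] [IsMulCommutative D]
    (h : LocR p red D l Φ aH bH ε κ₀)
    (hl : BP p D l) (hD : IsPGroup p D) (hab : D ≤ centralizer (D : Set G)) (hp2 : p ≠ 2)
    (he : ((centralizer (D : Set G)).relIndex (stabT D l) : k) ≠ 0) {m : ℕ}
    (hmc : m.Coprime (Nat.card G)) (hm1 : m ≡ 1 [MOD ordCompl[p] (Nat.card G)])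
    (hgen : ∀ i : ℕ, i ≡ 1 [MOD p] → ∃ t : ℕ, m ^ t ≡ i [MOD ordProj[p] (Nat.card G)])
    {χ : Irr G} (hχm : ∀ g, χ.1 (g ^ m) = χ.1 g) (Y : Subgroup D) {n j r : ℕ} (hrj : r ≤ j)
    (hY : Nat.card Y = p ^ n) (hYj : ∀ y ∈ Y, ∃ d : D, d ^ p ^ j = y) (w : D)
    (hW : ∀ y ∈ Y, RegT D l ((w * y : D) : G) ∧ ((w * y : D) : G) ≠ 1)
    (g : D → AA) (hg : ∀ d, g d = Ad p D Φ ε (d : G) χ)
    (hr : g w ∈ QN p red r) : ∑ y : Y, g (w * y) ∈ QN p red (n + r) := by
  obtain ⟨a, ha⟩ := (IsPGroup.iff_card (p := p)).1 hD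
  have hw : RegT D l (w : G) ∧ (w : G) ≠ 1 := by
    have := hW 1 Y.one_mem
    rwa [mul_one] at this
  have hcardA : Fintype.card (Additive D) = p ^ a := by
    rw [← ha, Nat.card_eq_fintype_card, Fintype.card_congr (Additive.toMul (α := D))]
  obtain ⟨f, κ, hf, hκ, hfe, hfi⟩ := exists_ext h hl hD hab hp2 he ha hmc hm1 hgen hχm
    (j + n + a + a) ⟨Additive.ofMul w, hw⟩
  let Y' : AddSubgroup (Additive D) := Subgroup.toAddSubgroup Y
  let e : Y' ≃ Y := ⟨fun y => ⟨(y : Additive D).toMul, y.2⟩, fun y =>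
      ⟨Additive.ofMul (y : D), y.2⟩, fun _ => rfl, fun _ => rfl⟩
  have key := mean_mem (red := red) hp2 hcardA (F := f) (g := fun b => g b.toMul) hf hrj hfi Y'
    ((Nat.card_congr e).trans hY) (fun y hy => by
      obtain ⟨d, hd⟩ := hYj y.toMul hy
      exact ⟨Additive.ofMul d, by rw [← ofMul_pow, hd]; rfl⟩) (Additive.ofMul w) hκ
    (fun y hy => by
      have := hfe (Additive.ofMul w + y) (hW _ hy)
      rwa [← hg] at this) hr
  have e2 : ∑ y : Y, g (w * y) = ∑ y : Y', g (Additive.ofMul w + (y : Additive D)).toMul :=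
    (Fintype.sum_equiv e _ _ fun y => rfl).symm
  rw [e2]
  exact key

include hp in
/-- **the sum over a regular coset of `D ^ (p ^ j)` is divisible by `|Y| p ^ r` if the generalised
decomposition number is divisible by `p ^ r`, `r ≤ j`** -/
theorem sY_mem_height [IsAlgClosed k] [IsMulCommutative D] (h : LocR p red D l Φ aH bH ε κ₀)
    (hl : BP p D l) (hD : IsPGroup p D) (hab : D ≤ centralizer (D : Set G)) (hp2 : p ≠ 2)
    (he : ((centralizer (D : Set G)).relIndex (stabT D l) : k) ≠ 0) {m : ℕ}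
    (hmc : m.Coprime (Nat.card G)) (hm1 : m ≡ 1 [MOD ordCompl[p] (Nat.card G)])
    (hgen : ∀ i : ℕ, i ≡ 1 [MOD p] → ∃ t : ℕ, m ^ t ≡ i [MOD ordProj[p] (Nat.card G)])
    {χ : Irr G} (hχm : ∀ g, χ.1 (g ^ m) = χ.1 g) (Y : Subgroup D) {n j r : ℕ} (hrj : r ≤ j)
    (hY : Nat.card Y = p ^ n) (hYj : ∀ y ∈ Y, ∃ d : D, d ^ p ^ j = y) (w : D)
    (hW : ∀ y ∈ Y, RegT D l ((w * y : D) : G) ∧ ((w * y : D) : G) ≠ 1)
    (hr : Ad p D Φ ε (w : G) χ ∈ QN p red r) : sY p D Φ ε Y w χ ∈ QN p red (n + r) :=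
  sum_coset_mem_aux h hl hD hab hp2 he hmc hm1 hgen hχm Y hrj hY hYj w hW
    (fun d => Ad p D Φ ε (d : G) χ) (fun _ => rfl) hr

include hp in
/-- the sum does not vanish if the generalised decomposition number is not divisible by `p ^ j` -/
theorem sY_ne_zero_height [IsAlgClosed k] [IsMulCommutative D] (h : LocR p red D l Φ aH bH ε κ₀)
    (hl : BP p D l) (hD : IsPGroup p D) (hab : D ≤ centralizer (D : Set G)) (hp2 : p ≠ 2)
    (he : ((centralizer (D : Set G)).relIndex (stabT D l) : k) ≠ 0) {m : ℕ}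
    (hmc : m.Coprime (Nat.card G)) (hm1 : m ≡ 1 [MOD ordCompl[p] (Nat.card G)])
    (hgen : ∀ i : ℕ, i ≡ 1 [MOD p] → ∃ t : ℕ, m ^ t ≡ i [MOD ordProj[p] (Nat.card G)])
    {χ : Irr G} (hχm : ∀ g, χ.1 (g ^ m) = χ.1 g) (Y : Subgroup D) {n j : ℕ}
    (hY : Nat.card Y = p ^ n) (hYj : ∀ y ∈ Y, ∃ d : D, d ^ p ^ j = y) (w : D)
    (hW : ∀ y ∈ Y, RegT D l ((w * y : D) : G) ∧ ((w * y : D) : G) ≠ 1)
    (hr : Ad p D Φ ε (w : G) χ ∉ QN p red j) : sY p D Φ ε Y w χ ≠ 0 := fun hs =>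
  hr (sY_ne_zero_aux h hl hD hab hp2 he hmc hm1 hgen hχm Y hY hYj w hW
    (fun d => Ad p D Φ ε (d : G) χ) (fun _ => rfl) hs)

include hp in
/-- the membership of `Ad` does not depend on the regular element -/
theorem Ad_transfer [IsAlgClosed k] (h : LocR p red D l Φ aH bH ε κ₀) (hl : BP p D l)
    (hD : IsPGroup p D) (hab : D ≤ centralizer (D : Set G))
    (he : ((centralizer (D : Set G)).relIndex (stabT D l) : k) ≠ 0)
    {u u' : G} (hu : RegT D l u) (hu1 : u ≠ 1) (hu' : RegT D l u') (hu1' : u' ≠ 1) (χ : Irr G)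
    (hχ : InL red l χ.1) {j : ℕ} (hdj : Ad p D Φ ε u χ ∈ QN p red j) :
    Ad p D Φ ε u' χ ∈ QN p red j := by
  have h6 : dnA p (centralizer {(u : G)}) (Nat.card D) (Φ (centralizer {(u : G)})).1 (u : G) χ.1 =
      (ε (centralizer {(u : G)}) : AA) * Ad p D Φ ε (u : G) χ := by
    unfold Ad
    have h4 := congrArg (fun n : ℤ => (n : AA)) (h.sq hu hu1)
    push_cast at h4
    linear_combination (-(dnA p (centralizer {(u : G)}) (Nat.card D)
      (Φ (centralizer {(u : G)})).1 (u : G) χ.1)) * h4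
  have h7 := QN_transfer h hl hD hab he hu hu1 hu' hu1' χ hχ (by
    rw [h6]
    exact Ideal.mul_mem_left _ _ hdj)
  unfold Ad
  exact Ideal.mul_mem_left _ _ h7

end

end P179H12
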