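import Vale.Agent.P179.R2.H12.Hb1

/-!
# The weighted number of `m`-rational characters
-/

namespace P179H12

open Finset P179P P179C P179Y Subgroup P179H524 P179I P179H452 P179H46 P179H666

open P179X (pp SameSec)

open scoped Classical IsMulCommutative

universe v

set_option linter.unusedSectionVars false

section

variable {p : ℕ} [hp : Fact p.Prime] {k : Type v} [Field k] [CharP k p] {red : AA →+* k}
  {G : Type} [Group G] [Fintype G] {D : Subgroup G} {l : (G → k) → k}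
  {Φ : ∀ H : Subgroup G, Irr H} {aH bH : Subgroup G → ℕ} {ε : Subgroup G → ℤ} {κ₀ : k}

include hp in
/-- **the norm of the sums over the cosets**, with the divisibility as a hypothesis -/
theorem sY_norm_gen [IsAlgClosed k] [IsMulCommutative D] (h : LocR p red D l Φ aH bH ε κ₀)
    (hD : IsPGroup p D) (hp2 : p ≠ 2) (Y : Subgroup D) {J : ℕ} (w : D)
    (hW : ∀ y ∈ Y, RegT D l ((w * y : D) : G) ∧ ((w * y : D) : G) ≠ 1) (χ : Irr G)
    (hmem : ∀ i : ℕ, (Nat.card D).Coprime i → sY p D Φ ε Y (w ^ i) χ ∈ QN p red J)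
    (hne : sY p D Φ ε Y w χ ≠ 0) [NeZero (ordProj[p] (Nat.card G))] :
    (Fintype.card (ZMod (ordProj[p] (Nat.card G)))ˣ : ℝ) * (p : ℝ) ^ (2 * J) ≤
      ∑ δ : (ZMod (ordProj[p] (Nat.card G)))ˣ,
        ‖(sY p D Φ ε Y (w ^ (δ : ZMod (ordProj[p] (Nat.card G))).val) χ : ℂ)‖ ^ 2 := by
  set q := Nat.card D with hqdef
  have hq : q ≠ 0 := Nat.card_pos.ne'
  set N := ordProj[p] (Nat.card G) with hN
  have hN0 : N ≠ 0 := pow_ne_zero _ hp.out.ne_zero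
  have huN : ∀ u ∈ D, u ^ N = 1 := fun u hu => pow_ordProj_eq_one hD hu
  set ζ : ℂ := Complex.exp (2 * Real.pi * Complex.I / N) with hζdef
  have hζ : IsPrimitiveRoot ζ N := Complex.isPrimitiveRoot_exp N hN0
  obtain ⟨m₀, hm₀, -, hgen₀⟩ := P179P.exists_exponent (p := p) hp2 (Nat.card G) Nat.card_pos.ne'
  have hm₀N : m₀.Coprime N := Nat.Coprime.coprime_dvd_right (Nat.ordProj_dvd _ _) hm₀
  have hgen₀' : ∀ j : ℕ, j.Coprime N → ∃ i : ℕ, m₀ ^ i ≡ j [MOD N] := by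
    intro j hj
    by_cases hf : (Nat.card G).factorization p = 0
    · refine ⟨0, ?_⟩
      have : N = 1 := by rw [hN, hf, pow_zero]
      rw [this]
      exact Nat.modEq_one
    · apply hgen₀
      intro hpj
      have h1 : p ∣ Nat.gcd j N := Nat.dvd_gcd hpj (dvd_pow_self p hf)
      rw [hj] at h1
      exact hp.out.one_lt.ne' (Nat.dvd_one.1 h1)
  -- coprimality
  have hcopD : ∀ δ : (ZMod N)ˣ, (Nat.card D).Coprime (δ : ZMod N).val := by
    intro δ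
    obtain ⟨a, ha⟩ := IsPGroup.iff_card.1 hD
    have h1 := ZMod.val_coe_unit_coprime δ
    have hdvd : Nat.card D ∣ N := by
      rw [ha, hN]
      refine pow_dvd_pow _ ?_
      have h2 : p ^ a ∣ Nat.card G := by rw [← ha]; exact Subgroup.card_subgroup_dvd_card D
      exact (hp.out.pow_dvd_iff_le_factorization Nat.card_pos.ne').1 h2
    exact Nat.Coprime.coprime_dvd_left hdvd h1.symm
  -- the values
  have hP : ∀ y : Y, ∃ P : Polynomial ℤ, ∀ δ : (ZMod N)ˣ,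
      (Ad p D Φ ε (((w * (y : D)) : D) ^ (δ : ZMod N).val : D) χ : ℂ) =
        Polynomial.aeval (ζ ^ (δ : ZMod N).val) P := by
    intro y
    have hy := hW y y.2
    set u : G := ((w * (y : D) : D) : G) with hu
    obtain ⟨P, hP⟩ := dn_poly p red _ hq (h.nd u hy.1 hy.2) u (huN _ hy.1.1) hN0 (mem_cz _) χ hζ
    refine ⟨Polynomial.C (ε (centralizer {u})) * P, fun δ => ?_⟩
    have hcop : (orderOf u).Coprime (δ : ZMod N).val := coprime_val (huN _ hy.1.1) δ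
    have e1 : ((((w * (y : D)) : D) ^ (δ : ZMod N).val : D) : G) = u ^ (δ : ZMod N).val := rfl
    have hr := RegT.pow' hy.1 hcop
    have hr1 := ne_one_of_coprime hcop hy.2
    rw [e1]
    unfold Ad
    push_cast
    rw [h.dn_coe hr hr1, cz_pow hcop, map_mul, Polynomial.aeval_C, ← hP]
    simp [hqdef]
  choose P hP using hP
  have hsum : ∀ δ : (ZMod N)ˣ, (sY p D Φ ε Y (w ^ (δ : ZMod N).val) χ : ℂ) =
      Polynomial.aeval (ζ ^ (δ : ZMod N).val) (∑ y, P y) := by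
    intro δ
    rw [map_sum]
    unfold sY
    push_cast
    have hi' : (Nat.card Y).Coprime (δ : ZMod N).val :=
      Nat.Coprime.coprime_dvd_left (Subgroup.card_subgroup_dvd_card Y) (hcopD δ)
    rw [← Equiv.sum_comp (powCoprime hi')]
    refine Finset.sum_congr rfl fun y _ => ?_
    rw [← hP y δ]
    congr 2
    change ((w ^ (δ : ZMod N).val * (y : D) ^ (δ : ZMod N).val : D) : G) = _
    rw [← mul_pow]
  have hval1 : (sY p D Φ ε Y w χ : ℂ) = Polynomial.aeval ζ (∑ y, P y) := by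
    have h1 := hsum 1
    have hv : ((1 : (ZMod N)ˣ) : ZMod N).val ≡ 1 [MOD N] := by
      rw [← ZMod.natCast_eq_natCast_iff]
      simp
    have e1 : ζ ^ ((1 : (ZMod N)ˣ) : ZMod N).val = ζ := by
      conv_rhs => rw [← pow_one ζ]
      exact pow_eq_pow_of_modEq hv hζ.pow_eq_one
    have e2 : w ^ ((1 : (ZMod N)ˣ) : ZMod N).val = w := by
      conv_rhs => rw [← pow_one w]
      refine pow_eq_pow_of_modEq hv (Subtype.ext ?_)
      exact huN _ w.2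
    rw [e1, e2] at h1
    exact h1
  have h1 := sum_norm_ge (p := p) (red := red) hζ (∑ y, P y) hm₀N hgen₀'
    (fun δ => sY p D Φ ε Y (w ^ (δ : ZMod N).val) χ) (fun δ => hsum δ) (J := J)
    (fun δ => hmem _ (hcopD δ)) (by
      rw [← hval1]
      intro h0
      exact hne (Subtype.ext h0))
  set φ : ℝ := (Fintype.card (ZMod N)ˣ : ℝ) with hφ
  have hφ0 : 0 < φ := by
    rw [hφ]
    exact_mod_cast Fintype.card_pos
  have h2 := sq_sum_le_card_mul_sum_sq (s := (univ : Finset (ZMod N)ˣ))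
    (f := fun δ => ‖(sY p D Φ ε Y (w ^ (δ : ZMod N).val) χ : ℂ)‖)
  have h3 : (φ * (p : ℝ) ^ J) ^ 2 ≤
      φ * ∑ δ : (ZMod N)ˣ, ‖(sY p D Φ ε Y (w ^ (δ : ZMod N).val) χ : ℂ)‖ ^ 2 := by
    refine le_trans ?_ h2
    exact pow_le_pow_left₀ (by positivity) h1 2
  have h4 : φ * (φ * (p : ℝ) ^ (2 * J)) ≤
      φ * ∑ δ : (ZMod N)ˣ, ‖(sY p D Φ ε Y (w ^ (δ : ZMod N).val) χ : ℂ)‖ ^ 2 := by
    refine le_trans (le_of_eq ?_) h3
    rw [mul_comm 2 J, pow_mul]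
    ring
  exact le_of_mul_le_mul_left h4 hφ0

include hp in
/-- **the weighted number of `m`-rational characters** -/
theorem count_height [IsAlgClosed k] [IsMulCommutative D] (h : LocR p red D l Φ aH bH ε κ₀)
    (hl : BP p D l) (hD : IsPGroup p D) (hab : D ≤ centralizer (D : Set G)) (hp2 : p ≠ 2) {m : ℕ}
    (hm : m.Coprime (Nat.card G)) (hm1 : m ≡ 1 [MOD ordCompl[p] (Nat.card G)])
    (hgen : ∀ i : ℕ, i ≡ 1 [MOD p] → ∃ t : ℕ, m ^ t ≡ i [MOD ordProj[p] (Nat.card G)])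
    (X : Finset (Irr G)) (hX : ∀ χ ∈ X, ∀ g, χ.1 (g ^ m) = χ.1 g)
    (Y : Subgroup D) (w : D) {o : ℕ}
    (hW : ∀ y ∈ Y, RegT D l ((w * y : D) : G) ∧ ((w * y : D) : G) ≠ 1)
    (hYT : ∀ t ∈ stabT D l, ∀ y ∈ Y, ∃ y' ∈ Y, t * (y : G) * t⁻¹ = (y' : G))
    (hcos : ∀ t ∈ stabT D l, ∀ a b : ℕ, ¬ p ∣ a → a ≡ b [MOD p] →
      (∃ y ∈ Y, t * (w : G) ^ a * t⁻¹ * ((w : G) ^ b)⁻¹ = (y : G)) →
        t ∈ centralizer (D : Set G) ∧ w ^ a * (w ^ b)⁻¹ ∈ Y)
    (ho : ∀ i : ℕ, w ^ i ∈ Y → o ∣ i) {n : ℕ} (hn : Nat.card Y = p ^ n)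
    (ht : Irr G → ℕ)
    (hmem : ∀ χ ∈ X, ∀ i : ℕ, (Nat.card D).Coprime i →
      sY p D Φ ε Y (w ^ i) χ ∈ QN p red (n + ht χ))
    (hne : ∀ χ ∈ X, sY p D Φ ε Y w χ ≠ 0) :
    (∑ χ ∈ X, p ^ (2 * ht χ)) * Nat.card Y * o ≤ Nat.card D * p := by
  obtain ⟨a, ha⟩ := IsPGroup.iff_card.1 hD
  have hpos := hp.out.pos
  -- the number `s`
  have hopow : o ∣ p ^ a := by
    refine ho _ ?_
    have h1 : w ^ p ^ a = 1 := by rw [← ha]; exact pow_card_eq_one'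
    rw [h1]
    exact one_mem Y
  obtain ⟨t₀, -, ht₀⟩ := (Nat.dvd_prime_pow hp.out).1 hopow
  obtain ⟨s, hs1, hso, hos⟩ : ∃ s : ℕ, 1 ≤ s ∧ (s = 1 ∨ o = p * s) ∧ o ≤ p * s := by
    rcases Nat.eq_zero_or_pos t₀ with h0 | h0
    · refine ⟨1, le_rfl, Or.inl rfl, ?_⟩
      rw [ht₀, h0, pow_zero]
      omega
    · refine ⟨p ^ (t₀ - 1), Nat.one_le_pow _ _ hpos, Or.inr ?_, le_of_eq ?_⟩
      · rw [ht₀, ← pow_succ', Nat.sub_add_cancel h0]
      · rw [ht₀, ← pow_succ', Nat.sub_add_cancel h0]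
  -- `p` divides `N`
  have hD1 : Nat.card D ≠ 1 := by
    intro h1
    have h2 := (hW 1 (one_mem _)).2
    apply h2
    have h3 : Subsingleton D := (Nat.card_eq_one_iff_unique.1 h1).1
    have h4 : (w * 1 : D) = 1 := Subsingleton.elim _ _
    rw [h4]
    rfl
  have hpG : p ∣ ordProj[p] (Nat.card G) := by
    have h1 : p ∣ Nat.card G := by
      have h2 : p ∣ Nat.card D := by
        rw [ha]
        refine dvd_pow_self p ?_
        rintro rfl
        exact hD1 (by rw [ha, pow_zero])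
      exact h2.trans (Subgroup.card_subgroup_dvd_card D)
    have h3 : (Nat.card G).factorization p ≠ 0 :=
      (hp.out.factorization_pos_of_dvd Nat.card_pos.ne' h1).ne'
    exact dvd_pow_self p h3
  set N := ordProj[p] (Nat.card G) with hN
  have hN0 : N ≠ 0 := pow_ne_zero _ hp.out.ne_zero
  have hNe : NeZero N := ⟨hN0⟩
  have hδp : ∀ δ : (ZMod N)ˣ, p.Coprime (δ : ZMod N).val := fun δ =>
    Nat.Coprime.coprime_dvd_left hpG (ZMod.val_coe_unit_coprime δ).symm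
  have hδD : ∀ δ : (ZMod N)ˣ, (Nat.card D).Coprime (δ : ZMod N).val := by
    intro δ
    rw [ha]
    exact Nat.Coprime.pow_left a (hδp δ)
  -- the bound for one `δ`
  have key : ∀ δ : (ZMod N)ˣ, (s : ℝ) * ∑ χ ∈ X,
      ‖(sY p D Φ ε Y (w ^ (δ : ZMod N).val) χ : ℂ)‖ ^ 2 ≤ (Nat.card Y : ℝ) * Nat.card D := by
    intro δ
    set d := (δ : ZMod N).val with hd
    refine count_core h hl hD hab hm hm1 hgen X hX Y (w ^ d) (coset_reg hW (hδD δ)) ?_
    intro i hi i' hi' y hy y' hy' t ht heq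
    obtain ⟨y₂, hy₂, hty⟩ := hYT t ht y hy
    set A := d * (1 + p * i) with hA
    set B := d * (1 + p * i') with hB
    have hpowA : (w ^ d) ^ (1 + p * i) = w ^ A := (pow_mul w _ _).symm
    have hpowB : (w ^ d) ^ (1 + p * i') = w ^ B := (pow_mul w _ _).symm
    rw [hpowA, hpowB] at heq
    have hpA : ¬ p ∣ A := by
      rw [hA]
      refine (Nat.Prime.coprime_iff_not_dvd hp.out).1 (Nat.Coprime.mul_right (hδp δ) ?_)
      exact coprime_of_modEq_one ((Nat.ModEq.refl 1).add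
        (Nat.modEq_zero_iff_dvd.2 (dvd_mul_right p i)))
    have hAB : A ≡ B [MOD p] := by
      refine Nat.ModEq.mul_left d ?_
      refine (Nat.ModEq.refl 1).add ?_
      exact ((Nat.modEq_zero_iff_dvd.2 (dvd_mul_right p i))).trans
        ((Nat.modEq_zero_iff_dvd.2 (dvd_mul_right p i'))).symm
    have hmem : ∃ y ∈ Y, t * (w : G) ^ A * t⁻¹ * ((w : G) ^ B)⁻¹ = (y : G) := by
      refine ⟨y' * y₂⁻¹, mul_mem hy' (inv_mem hy₂), ?_⟩
      have h1 : t * (w : G) ^ A * t⁻¹ = (w : G) ^ B * (y' : G) * (y₂ : G)⁻¹ := by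
        have h2 : t * (w : G) ^ A * t⁻¹ = (t * ((w : G) ^ A * (y : G)) * t⁻¹) *
            (t * (y : G) * t⁻¹)⁻¹ := by group
        have h3 : t * ((w : G) ^ A * (y : G)) * t⁻¹ = (w : G) ^ B * (y' : G) := heq
        rw [h2, hty, h3]
      have h4 : w ^ B * y' * y₂⁻¹ * (w ^ B)⁻¹ = y' * y₂⁻¹ := by
        rw [mul_assoc (w ^ B), mul_comm (w ^ B) (y' * y₂⁻¹), mul_inv_cancel_right]
      rw [h1]
      have h5 := congrArg (fun x : D => (x : G)) h4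
      push_cast at h5 ⊢
      exact h5
    obtain ⟨htC, hww⟩ := hcos t ht A B hpA hAB hmem
    -- `i = i'`
    have hii : i = i' := by
      rcases hso with h1 | h1
      · omega
      · have h2 := modEq_of_mem ho hww
        have hcop : Nat.gcd o d = 1 := by
          rw [ht₀]
          exact Nat.Coprime.pow_left t₀ (hδp δ)
        have h3 : 1 + p * i ≡ 1 + p * i' [MOD o] := Nat.ModEq.cancel_left_of_coprime hcop h2
        have h4 : p * i ≡ p * i' [MOD p * s] := by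
          rw [← h1]
          exact Nat.ModEq.add_left_cancel' 1 h3
        have h5 : i ≡ i' [MOD s] := Nat.ModEq.mul_left_cancel' hpos.ne' h4
        exact h5.eq_of_lt_of_lt hi hi'
    refine ⟨hii, ?_⟩
    have h6 : t * ((w ^ A * y : D) : G) * t⁻¹ = ((w ^ A * y : D) : G) := by
      have h7 := mem_centralizer_iff.1 htC _ (w ^ A * y).2
      rw [← h7, mul_inv_cancel_right]
    rw [h6] at heq
    have h8 : w ^ A * y = w ^ B * y' := Subtype.ext heq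
    have h9 : A = B := by rw [hA, hB, hii]
    rw [h9] at h8
    exact mul_left_cancel h8
  -- the sum over all `δ`
  have hlow : ∀ χ ∈ X, (Fintype.card (ZMod N)ˣ : ℝ) * (p : ℝ) ^ (2 * (n + ht χ)) ≤
      ∑ δ : (ZMod N)ˣ, ‖(sY p D Φ ε Y (w ^ (δ : ZMod N).val) χ : ℂ)‖ ^ 2 := fun χ hχ =>
    sY_norm_gen h hD hp2 Y w hW χ (hmem χ hχ) (hne χ hχ)
  have hφ0 : (0 : ℝ) < Fintype.card (ZMod N)ˣ := by exact_mod_cast Fintype.card_pos
  have h1 : ∑ χ ∈ X, ((Fintype.card (ZMod N)ˣ : ℝ) * (p : ℝ) ^ (2 * (n + ht χ))) ≤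
      ∑ χ ∈ X, ∑ δ : (ZMod N)ˣ, ‖(sY p D Φ ε Y (w ^ (δ : ZMod N).val) χ : ℂ)‖ ^ 2 :=
    Finset.sum_le_sum hlow
  have h2 : (s : ℝ) * ∑ χ ∈ X, ∑ δ : (ZMod N)ˣ,
      ‖(sY p D Φ ε Y (w ^ (δ : ZMod N).val) χ : ℂ)‖ ^ 2 ≤
      (Fintype.card (ZMod N)ˣ : ℝ) * ((Nat.card Y : ℝ) * Nat.card D) := by
    rw [Finset.sum_comm, Finset.mul_sum, ← nsmul_eq_mul, ← card_univ, ← Finset.sum_const]
    exact Finset.sum_le_sum fun δ _ => key δ
  have hs0 : (0 : ℝ) < s := by exact_mod_cast hs1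
  have h3 : (s : ℝ) * ∑ χ ∈ X, ((Fintype.card (ZMod N)ˣ : ℝ) * (p : ℝ) ^ (2 * (n + ht χ))) ≤
      (Fintype.card (ZMod N)ˣ : ℝ) * ((Nat.card Y : ℝ) * Nat.card D) :=
    (mul_le_mul_of_nonneg_left h1 hs0.le).trans h2
  have hpn : (0 : ℝ) < (p : ℝ) ^ n := by
    have : (0 : ℝ) < p := by exact_mod_cast hpos
    positivity
  set S : ℝ := ∑ χ ∈ X, (p : ℝ) ^ (2 * ht χ) with hS
  have hSS : ∑ χ ∈ X, ((Fintype.card (ZMod N)ˣ : ℝ) * (p : ℝ) ^ (2 * (n + ht χ))) =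
      (Fintype.card (ZMod N)ˣ : ℝ) * (p : ℝ) ^ n * (p : ℝ) ^ n * S := by
    rw [hS, Finset.mul_sum]
    refine Finset.sum_congr rfl fun χ _ => ?_
    rw [mul_add, pow_add, two_mul, pow_add]
    ring
  have h4 : (s : ℝ) * S * (p : ℝ) ^ n ≤ Nat.card D := by
    rw [hn, hSS] at h3
    push_cast at h3
    have h5 : ((Fintype.card (ZMod N)ˣ : ℝ) * (p : ℝ) ^ n) * ((s : ℝ) * S * (p : ℝ) ^ n) ≤
        ((Fintype.card (ZMod N)ˣ : ℝ) * (p : ℝ) ^ n) * Nat.card D := by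
      refine le_trans (le_of_eq ?_) (h3.trans (le_of_eq ?_))
      · ring
      · ring
    exact le_of_mul_le_mul_left h5 (mul_pos hφ0 hpn)
  have h5 : s * (∑ χ ∈ X, p ^ (2 * ht χ)) * p ^ n ≤ Nat.card D := by
    rw [hS] at h4
    exact_mod_cast h4
  calc (∑ χ ∈ X, p ^ (2 * ht χ)) * Nat.card Y * o ≤
      (∑ χ ∈ X, p ^ (2 * ht χ)) * Nat.card Y * (p * s) := Nat.mul_le_mul_left _ hos
    _ = (s * (∑ χ ∈ X, p ^ (2 * ht χ)) * p ^ n) * p := by rw [hn]; ring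
    _ ≤ Nat.card D * p := Nat.mul_le_mul_right p h5

include hp in
/-- **the weighted number of `m`-rational characters**, for a regular coset -/
theorem count_reg_height [IsAlgClosed k] [IsMulCommutative D] (h : LocR p red D l Φ aH bH ε κ₀)
    (hl : BP p D l) (hD : IsPGroup p D) (hab : D ≤ centralizer (D : Set G)) (hp2 : p ≠ 2)
    (he : ¬ p ∣ (centralizer (D : Set G)).relIndex (stabT D l)) {m : ℕ}
    (hm : m.Coprime (Nat.card G)) (hm1 : m ≡ 1 [MOD ordCompl[p] (Nat.card G)])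
    (hgen : ∀ i : ℕ, i ≡ 1 [MOD p] → ∃ t : ℕ, m ^ t ≡ i [MOD ordProj[p] (Nat.card G)])
    (X : Finset (Irr G)) (hX : ∀ χ ∈ X, ∀ g, χ.1 (g ^ m) = χ.1 g)
    (Y : Subgroup D) (w : D) {o : ℕ}
    (hW : ∀ y ∈ Y, RegT D l ((w * y : D) : G) ∧ ((w * y : D) : G) ≠ 1)
    (hYT : ∀ t ∈ stabT D l, ∀ y ∈ Y, ∃ y' ∈ Y, t * (y : G) * t⁻¹ = (y' : G))
    (hreg : ∀ n ∈ stabT D l, (∃ y ∈ Y, n * (w : G) * n⁻¹ * (w : G)⁻¹ = (y : G)) →
      n ∈ centralizer (D : Set G))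
    (ho : ∀ i : ℕ, w ^ i ∈ Y → o ∣ i) {n : ℕ} (hn : Nat.card Y = p ^ n)
    (ht : Irr G → ℕ)
    (hmem : ∀ χ ∈ X, ∀ i : ℕ, (Nat.card D).Coprime i →
      sY p D Φ ε Y (w ^ i) χ ∈ QN p red (n + ht χ))
    (hne : ∀ χ ∈ X, sY p D Φ ε Y w χ ≠ 0) :
    (∑ χ ∈ X, p ^ (2 * ht χ)) * Nat.card Y * o ≤ Nat.card D * p := by
  refine count_height h hl hD hab hp2 hm hm1 hgen X hX Y w hW hYT ?_ ho hn ht hmem hne
  intro t ht a b ha hab2 hmem
  have hmap : ∀ x : G, x ∈ Y.map D.subtype ↔ ∃ y ∈ Y, x = (y : G) := by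
    intro x
    constructor
    · rintro ⟨y, hy, rfl⟩
      exact ⟨y, hy, rfl⟩
    · rintro ⟨y, hy, rfl⟩
      exact ⟨y, hy, rfl⟩
  obtain ⟨h1, h2⟩ := P179H967.cos_reg hD (fun x hx y hy => (mem_centralizer_iff.1 (hab hy) x hx))
    (stabT_le_norm D l) he (Y := Y.map D.subtype) (by
      intro n hn y hy
      obtain ⟨y₁, hy₁, rfl⟩ := (hmap y).1 hy
      exact (hmap _).2 (hYT n hn y₁ hy₁)) w.2 (by
      intro n hn hmem
      exact hreg n hn ((hmap _).1 hmem)) ha hab2 ht ((hmap _).2 hmem)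
  refine ⟨h1, ?_⟩
  obtain ⟨y, hy, hyeq⟩ := (hmap _).1 h2
  have h3 : w ^ a * (w ^ b)⁻¹ = y := Subtype.ext (by
    rw [← hyeq]
    push_cast
    rfl)
  rw [h3]
  exact hy

end

end P179H12
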