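import Vale.Agent.P179.R2.H12.Hb2

/-!
# The height-refined bound for the number of simple modules
-/

namespace P179H12

open Finset P179P P179C P179Y Subgroup P179H524 P179I P179H452 P179H46 P179H666 P179A

open P179X (pp SameSec)

open P179B (inertialGroup inertialIndex regularElements)

open scoped Classical IsMulCommutative

universe v

set_option linter.unusedSectionVars false

section

variable {p : ℕ} [hp : Fact p.Prime] {k : Type v} [Field k] [IsAlgClosed k] [CharP k p]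
  (red : integralClosure ℤ ℂ →+* k)

/-- **the weighted bounds for the `m`-rational characters, and the bound for the heights** -/
theorem X1_heights {G : Type} [Group G] [Fintype G] {D : Subgroup G} {l : (G → k) → k}
    (hl : BP p D l) (hD : IsPGroup p D) (hab : D ≤ centralizer (D : Set G)) (hp2 : p ≠ 2)
    (hT : ¬ p ∣ (centralizer (D : Set G)).relIndex (stabT D l)) {m : ℕ}
    (hmc : m.Coprime (Nat.card G)) (hm1 : m ≡ 1 [MOD ordCompl[p] (Nat.card G)])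
    (hgen : ∀ i : ℕ, i ≡ 1 [MOD p] → ∃ t : ℕ, m ^ t ≡ i [MOD ordProj[p] (Nat.card G)])
    {j₀ J : ℕ} (o : ℕ → ℕ) (Y : ℕ → Subgroup D)
    (hYj : ∀ j, ∀ y : D, y ∈ Y j ↔ ∃ d : D, d ^ p ^ j = y) (w : D)
    (hreg : ∀ t ∈ stabT D l, (∃ y : D, y ∈ Y j₀ ∧ t * w * t⁻¹ * (w : G)⁻¹ = y) →
      t ∈ centralizer (D : Set G)) (hwY : w ∉ Y j₀)
    (ho : ∀ j, j₀ ≤ j → ∀ i : ℕ, w ^ i ∈ Y j → o j ∣ i)
    (hJ : (centralizer (D : Set G)).relIndex (stabT D l) * Nat.card D <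
      p ^ (2 * J) * Nat.card (Wr D l)) :
    ∃ ht : Irr G → ℕ, (∀ χ ∈ X1 red l m, ht χ < J) ∧ ∀ j, j₀ ≤ j → j ≤ J →
      (∑ χ ∈ (X1 red l m).filter (fun χ => ht χ < j), p ^ (2 * ht χ)) * Nat.card (Y j) * o j ≤
        Nat.card D * p := by
  obtain ⟨Φ, aH, bH, ε, κ₀, h⟩ := exists_LocR (red := red) hl hD hab
  have he : ((centralizer (D : Set G)).relIndex (stabT D l) : k) ≠ 0 := by
    rwa [Ne, CharP.cast_eq_zero_iff k p]
  have hTN : stabT D l ≤ normalizer (D : Set G) := stabT_le_norm D l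
  have hYle : ∀ j, j₀ ≤ j → Y j ≤ Y j₀ := by
    intro j hj y hy
    obtain ⟨d, hd⟩ := (hYj j y).1 hy
    refine (hYj j₀ y).2 ⟨d ^ p ^ (j - j₀), ?_⟩
    rw [← pow_mul, ← pow_add, Nat.sub_add_cancel hj, hd]
  have hYT : ∀ j, ∀ t ∈ stabT D l, ∀ y : D, y ∈ Y j → ∃ y' : D, y' ∈ Y j ∧
      (y' : G) = t * y * t⁻¹ := by
    intro j t ht y hy
    obtain ⟨d, hd⟩ := (hYj j y).1 hy
    have h1 : t * (d : G) * t⁻¹ ∈ D := (mem_normalizer_iff.1 (hTN ht) d).1 d.2
    refine ⟨⟨t * (d : G) * t⁻¹, h1⟩ ^ p ^ j, (hYj j _).2 ⟨_, rfl⟩, ?_⟩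
    rw [Subgroup.coe_pow, conj_pow, ← hd, Subgroup.coe_pow]
  have hW₀ : ∀ y ∈ Y j₀, RegT D l ((w * y : D) : G) ∧ ((w * y : D) : G) ≠ 1 := by
    intro y hy
    refine ⟨⟨(w * y).2, fun t ht hty => ?_⟩, fun h1 => hwY ?_⟩
    · refine hreg t ht ?_
      obtain ⟨y', hy', e⟩ := hYT j₀ t ht y hy
      refine ⟨y * y'⁻¹, (Y j₀).mul_mem hy ((Y j₀).inv_mem hy'), ?_⟩
      rw [Subgroup.coe_mul, Subgroup.coe_inv, e]
      have h2 : t * (w : G) * t⁻¹ * (t * (y : G) * t⁻¹) = (w : G) * y := by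
        rw [Subgroup.coe_mul] at hty
        rw [← hty]
        group
      have h3 : t * (w : G) * t⁻¹ = (w : G) * y * (t * (y : G) * t⁻¹)⁻¹ := by
        rw [← h2]
        group
      rw [h3]
      have hc : ∀ a b : G, a ∈ D → b ∈ D → a * b = b * a := fun a b ha hb =>
        (mem_centralizer_iff.1 (hab ha) b hb).symm
      have h4 : (t * (y : G) * t⁻¹) ∈ D := (mem_normalizer_iff.1 (hTN ht) y).1 y.2
      have h5 : (y : G) * (t * (y : G) * t⁻¹)⁻¹ ∈ D := D.mul_mem y.2 (D.inv_mem h4)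
      calc (w : G) * y * (t * (y : G) * t⁻¹)⁻¹ * (w : G)⁻¹ =
          (w : G) * (y * (t * (y : G) * t⁻¹)⁻¹) * (w : G)⁻¹ := by group
        _ = (y * (t * (y : G) * t⁻¹)⁻¹) * w * (w : G)⁻¹ := by rw [hc _ _ w.2 h5]
        _ = _ := by group
    · have h2 : w * y = 1 := Subtype.ext h1
      have h3 : w = y⁻¹ := eq_inv_of_mul_eq_one_left h2
      rw [h3]
      exact (Y j₀).inv_mem hy
  have hw : RegT D l (w : G) ∧ (w : G) ≠ 1 := by
    have := hW₀ 1 (Y j₀).one_mem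
    rwa [mul_one] at this
  have hcomm : IsMulCommutative D := ⟨⟨fun a b => Subtype.ext
    (mem_centralizer_iff.1 (hab b.2) a a.2)⟩⟩
  have hNot : ∀ χ : Irr G, InL red l χ.1 → Ad p D Φ ε (w : G) χ ∉ QN p red J := by
    intro χ hχ hmem
    refine notMem_QN h hl hD hab hp2 he hJ hw.1 hw.2 χ hχ ?_
    have h6 : dnA p (centralizer {(w : G)}) (Nat.card D) (Φ (centralizer {(w : G)})).1
        (w : G) χ.1 = (ε (centralizer {(w : G)}) : AA) * Ad p D Φ ε (w : G) χ := by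
      unfold Ad
      have h4 := congrArg (fun n : ℤ => (n : AA)) (h.sq hw.1 hw.2)
      push_cast at h4
      linear_combination (-(dnA p (centralizer {(w : G)}) (Nat.card D)
        (Φ (centralizer {(w : G)})).1 (w : G) χ.1)) * h4
    rw [h6]
    exact Ideal.mul_mem_left _ _ hmem
  refine ⟨fun χ => Nat.findGreatest (fun r => Ad p D Φ ε (w : G) χ ∈ QN p red r) J,
    fun χ hχ => ?_, fun j hj hjJ => ?_⟩
  · refine lt_of_le_of_ne (Nat.findGreatest_le J) fun h1 => ?_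
    rcases Nat.eq_zero_or_pos J with h2 | h2
    · refine hNot χ ((mem_X1 red).1 hχ).1 ?_
      rw [h2]
      exact mem_QN_of_dvd (by rw [pow_zero]; exact one_dvd _)
    · have h3 := Nat.findGreatest_of_ne_zero (P := fun r => Ad p D Φ ε (w : G) χ ∈ QN p red r)
        h1 h2.ne'
      exact hNot χ ((mem_X1 red).1 hχ).1 h3
  · obtain ⟨n, hn⟩ := IsPGroup.iff_card.1 (hD.to_subgroup (Y j))
    have hspec : ∀ χ : Irr G, Ad p D Φ ε (w : G) χ ∈ QN p red
        (Nat.findGreatest (fun r => Ad p D Φ ε (w : G) χ ∈ QN p red r) J) := fun χ =>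
      Nat.findGreatest_spec (P := fun r => Ad p D Φ ε (w : G) χ ∈ QN p red r) (Nat.zero_le J)
        (mem_QN_of_dvd (by rw [pow_zero]; exact one_dvd _))
    have hW : ∀ y ∈ Y j, RegT D l ((w * y : D) : G) ∧ ((w * y : D) : G) ≠ 1 := fun y hy =>
      hW₀ y (hYle j hj hy)
    refine count_reg_height h hl hD hab hp2 hT hmc hm1 hgen _
      (fun χ hχ => ((mem_X1 red).1 (mem_filter.1 hχ).1).2) (Y j) w hW
      (fun t ht y hy => ?_) (fun t ht hh => ?_) (ho j hj) hn _ (fun χ hχ i hi => ?_)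
      fun χ hχ => ?_
    · obtain ⟨y', hy', e⟩ := hYT j t ht y hy
      exact ⟨y', hy', e.symm⟩
    · obtain ⟨y, hy, e⟩ := hh
      exact hreg t ht ⟨y, hYle j hj hy, e⟩
    · obtain ⟨h1, h2⟩ := mem_filter.1 hχ
      have hX := (mem_X1 red).1 h1
      have hWi := coset_reg (w := w) hW hi
      have hwi : RegT D l ((w ^ i : D) : G) ∧ ((w ^ i : D) : G) ≠ 1 := by
        have := hWi 1 (Y j).one_mem
        rwa [mul_one] at this
      exact sY_mem_height h hl hD hab hp2 he hmc hm1 hgen hX.2 (Y j) h2.le hn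
        (fun y hy => (hYj j y).1 hy) (w ^ i) hWi
        (Ad_transfer h hl hD hab he hw.1 hw.2 hwi.1 hwi.2 χ hX.1 (hspec χ))
    · obtain ⟨h1, h2⟩ := mem_filter.1 hχ
      have hX := (mem_X1 red).1 h1
      refine sY_ne_zero_height h hl hD hab hp2 he hmc hm1 hgen hX.2 (Y j) hn
        (fun y hy => (hYj j y).1 hy) w hW fun h3 => ?_
      exact Nat.findGreatest_is_greatest
        (P := fun r => Ad p D Φ ε (w : G) χ ∈ QN p red r) h2 hjJ h3

/-- **the height-refined bound for the number of `m`-rational characters** -/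
theorem X1_card_le_height {G : Type} [Group G] [Fintype G] {D : Subgroup G} {l : (G → k) → k}
    (hl : BP p D l) (hD : IsPGroup p D) (hab : D ≤ centralizer (D : Set G)) (hp2 : p ≠ 2)
    (hT : ¬ p ∣ (centralizer (D : Set G)).relIndex (stabT D l)) {m : ℕ}
    (hmc : m.Coprime (Nat.card G)) (hm1 : m ≡ 1 [MOD ordCompl[p] (Nat.card G)])
    (hgen : ∀ i : ℕ, i ≡ 1 [MOD p] → ∃ t : ℕ, m ^ t ≡ i [MOD ordProj[p] (Nat.card G)])
    {j₀ J : ℕ} (hj₀ : j₀ ≤ J) (o : ℕ → ℕ) (Y : ℕ → Subgroup D)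
    (hYj : ∀ j, ∀ y : D, y ∈ Y j ↔ ∃ d : D, d ^ p ^ j = y) (w : D)
    (hreg : ∀ t ∈ stabT D l, (∃ y : D, y ∈ Y j₀ ∧ t * w * t⁻¹ * (w : G)⁻¹ = y) →
      t ∈ centralizer (D : Set G)) (hwY : w ∉ Y j₀)
    (ho : ∀ j, j₀ ≤ j → ∀ i : ℕ, w ^ i ∈ Y j → o j ∣ i)
    (hJ : (centralizer (D : Set G)).relIndex (stabT D l) * Nat.card D <
      p ^ (2 * J) * Nat.card (Wr D l)) :
    (X1 red l m).card ≤ Nat.card D * p / (Nat.card (Y j₀) * o j₀) +
      ∑ h ∈ Finset.Ico j₀ J, Nat.card D * p / (p ^ (2 * h) * (Nat.card (Y (h + 1)) * o (h + 1))) := by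
  obtain ⟨ht, hlt, hb⟩ := X1_heights red hl hD hab hp2 hT hmc hm1 hgen o Y hYj w hreg hwY ho hJ
  have hopos : ∀ j, j₀ ≤ j → 0 < o j := by
    intro j hj
    refine Nat.pos_of_dvd_of_pos (ho j hj (Nat.card D) ?_) Nat.card_pos
    rw [pow_card_eq_one']
    exact (Y j).one_mem
  have hYpos : ∀ j, 0 < Nat.card (Y j) := fun j => Nat.card_pos
  -- the characters of small height
  have h1 : ((X1 red l m).filter (fun χ => ht χ < j₀)).card ≤
      Nat.card D * p / (Nat.card (Y j₀) * o j₀) := by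
    rw [Nat.le_div_iff_mul_le (Nat.mul_pos (hYpos _) (hopos _ le_rfl)), ← mul_assoc]
    refine le_trans ?_ (hb j₀ le_rfl hj₀)
    refine Nat.mul_le_mul_right _ (Nat.mul_le_mul_right _ ?_)
    rw [Finset.card_eq_sum_ones]
    exact Finset.sum_le_sum fun χ _ => Nat.one_le_pow _ _ hp.out.pos
  have h2 : ∀ h ∈ Finset.Ico j₀ J, ((X1 red l m).filter (fun χ => ht χ = h)).card ≤
      Nat.card D * p / (p ^ (2 * h) * (Nat.card (Y (h + 1)) * o (h + 1))) := by
    intro h hh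
    obtain ⟨ha, hb'⟩ := Finset.mem_Ico.1 hh
    have hle : j₀ ≤ h + 1 := by omega
    rw [Nat.le_div_iff_mul_le (Nat.mul_pos (pow_pos hp.out.pos _)
      (Nat.mul_pos (hYpos _) (hopos _ hle))), ← mul_assoc, ← mul_assoc]
    refine le_trans ?_ (hb (h + 1) hle (by omega))
    refine Nat.mul_le_mul_right _ (Nat.mul_le_mul_right _ ?_)
    rw [← smul_eq_mul, ← Finset.sum_const]
    have e1 : ∑ _χ ∈ (X1 red l m).filter (fun χ => ht χ = h), p ^ (2 * h) =
        ∑ χ ∈ (X1 red l m).filter (fun χ => ht χ = h), p ^ (2 * ht χ) :=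
      Finset.sum_congr rfl fun χ hχ => by rw [(mem_filter.1 hχ).2]
    rw [e1]
    refine Finset.sum_le_sum_of_subset fun χ hχ => ?_
    obtain ⟨ha, hb'⟩ := mem_filter.1 hχ
    exact mem_filter.2 ⟨ha, by omega⟩
  refine le_trans ?_ (Nat.add_le_add h1 (Finset.sum_le_sum h2))
  have h3 : X1 red l m ⊆ (X1 red l m).filter (fun χ => ht χ < j₀) ∪
      (Finset.Ico j₀ J).biUnion fun h => (X1 red l m).filter (fun χ => ht χ = h) := by
    intro χ hχ
    have h4 := hlt χ hχ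
    rcases lt_or_ge (ht χ) j₀ with h5 | h5
    · exact mem_union_left _ (mem_filter.2 ⟨hχ, h5⟩)
    · exact mem_union_right _ (mem_biUnion.2 ⟨ht χ, Finset.mem_Ico.2 ⟨h5, h4⟩,
        mem_filter.2 ⟨hχ, rfl⟩⟩)
  refine (Finset.card_le_card h3).trans ((Finset.card_union_le _ _).trans ?_)
  exact Nat.add_le_add_left Finset.card_biUnion_le _

end

end P179H12
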