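import Vale.Agent.P179.R2.H12.Hb3

/-!
# The height-refined bound for the number of simple modules of a block
-/

namespace P179H12

open Finset P179P P179C P179Y Subgroup P179H524 P179I P179H452 P179A

open P179B (inertialGroup inertialIndex regularElements)

open scoped Classical

universe v

section

variable {p : ℕ} [hp : Fact p.Prime] {k : Type v} [Field k] [IsAlgClosed k] [CharP k p]

/-- the height-refined bound for the number of simple modules -/
def M7hStmt (p : ℕ) (k : Type v) [Field k] : Prop :=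
  ∀ (G : Type) [Group G] [Finite G] (B : MonoidAlgebra k G) (D : Subgroup G)
    (β : MonoidAlgebra k (centralizer (D : Set G))) (j₀ J : ℕ) (o : ℕ → ℕ) (w : G),
    P179B.IsBlock B → P179B.IsDefectGroup B D → (∀ x ∈ D, ∀ y ∈ D, x * y = y * x) →
    P179B.IsBlock β → P179B.InducesTo β B → j₀ ≤ J → w ∈ D →
    (∀ j, j₀ ≤ j → ∀ i : ℕ, (∃ d ∈ D, w ^ i = d ^ p ^ j) → o j ∣ i) →
    (∀ n ∈ inertialGroup D β, (∃ d ∈ D, n * w * n⁻¹ * w⁻¹ = d ^ p ^ j₀) →
      n ∈ centralizer (D : Set G)) →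
    inertialIndex D β * Nat.card D < p ^ (2 * J) * Nat.card (regularElements D β) →
    P179B.numSimpleIn B ≤
      Nat.card D * p / (Nat.card {y : G // ∃ d ∈ D, d ^ p ^ j₀ = y} * o j₀) +
      ∑ h ∈ Finset.Ico j₀ J, Nat.card D * p /
        (p ^ (2 * h) * (Nat.card {y : G // ∃ d ∈ D, d ^ p ^ (h + 1) = y} * o (h + 1)))

variable (red : integralClosure ℤ ℂ →+* k)

include red in
/-- **the height-refined bound** -/
theorem m7hStmt (hp2 : p ≠ 2) : M7hStmt p k := by
  intro G _ _ B D β j₀ J o w hB hD hab hβ hβB hjJ hw ho hreg hii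
  have := Fintype.ofFinite G
  have hβB' := (P179B.inducesTo_iff β B).1 hβB
  rw [P179B.numSimpleIn_eq]
  obtain ⟨hDp, -⟩ := exists_BP_of_block (p := p) B hB D hD
  obtain ⟨l, hl, hlz, hlb⟩ := exists_BP_of_subblock (p := p) hB hD hab hβ hβB'
  have hT := stabT_eq_inertialGroup hβ hlb
  have hpT := hT_of_block hB hD hDp hab hl hlz
  have hab' : D ≤ centralizer (D : Set G) := by
    intro x hx
    rw [mem_centralizer_iff]
    intro y hy
    exact hab y hy x hx
  have he : inertialIndex D β = (centralizer (D : Set G)).relIndex (stabT D l) := by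
    rw [hT]
    rfl
  have hcomm : IsMulCommutative D := ⟨⟨fun a b => Subtype.ext (hab a a.2 b b.2)⟩⟩
  let Y : ℕ → Subgroup D := fun j =>
    { carrier := {y | ∃ d : D, d ^ p ^ j = y}
      one_mem' := ⟨1, one_pow _⟩
      mul_mem' := by
        rintro _ _ ⟨a, rfl⟩ ⟨b, rfl⟩
        have hcab : Commute a b := Subtype.ext (hab a a.2 b b.2)
        exact ⟨a * b, hcab.mul_pow _⟩
      inv_mem' := by
        rintro _ ⟨a, rfl⟩
        exact ⟨a⁻¹, inv_pow _ _⟩ }
  have hYj : ∀ j, ∀ y : D, y ∈ Y j ↔ ∃ d : D, d ^ p ^ j = y := fun j y => Iff.rfl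
  have hYcard : ∀ j, Nat.card {y : G // ∃ d ∈ D, d ^ p ^ j = y} = Nat.card (Y j) := by
    intro j
    refine Nat.card_congr
      { toFun := fun y => ⟨⟨y.1, by
          obtain ⟨d, hd, e⟩ := y.2
          rw [← e]
          exact D.pow_mem hd _⟩, by
          obtain ⟨d, hd, e⟩ := y.2
          exact ⟨⟨d, hd⟩, Subtype.ext e⟩⟩
        invFun := fun y => ⟨(y : D), by
          obtain ⟨d, e⟩ := y.2
          exact ⟨d, d.2, congrArg Subtype.val e⟩⟩
        left_inv := fun y => rfl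
        right_inv := fun y => rfl }
  have ho' : ∀ j, j₀ ≤ j → ∀ i : ℕ, (⟨w, hw⟩ : D) ^ i ∈ Y j → o j ∣ i := by
    rintro j hj i ⟨d, e⟩
    exact ho j hj i ⟨d, d.2, (congrArg Subtype.val e).symm⟩
  simp only [hYcard]
  have hopos : 0 < o j₀ := by
    refine Nat.pos_of_dvd_of_pos (ho' j₀ le_rfl (Nat.card D) ?_) Nat.card_pos
    rw [pow_card_eq_one']
    exact (Y j₀).one_mem
  by_cases hTC : ∀ n ∈ inertialGroup D β, n ∈ centralizer (D : Set G)
  · -- the nilpotent case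
    have h1 : inertialIndex D β = 1 := relIndex_eq_one.2 hTC
    have h2 := P179I.equality_half red hB hD hab hβ hβB' (by rw [h1]; exact hp.out.two_le)
    have h3 := numWeightsIn_le red hB hD hab hβ hβB'
    rw [h1, ← h2] at h3
    have hYn : (Y j₀).Normal := by
      refine ⟨fun y hy g => ?_⟩
      have : g * y * g⁻¹ = y := by
        have : g * y = y * g := Subtype.ext (hab g g.2 y y.2)
        rw [this]
        group
      rwa [this]
    have h4 : o j₀ ∣ (Y j₀).index := ho' j₀ le_rfl _ (Subgroup.pow_index_mem (Y j₀) _)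
    have h5 : o j₀ ≤ (Y j₀).index :=
      Nat.le_of_dvd (Nat.pos_of_ne_zero Subgroup.index_ne_zero_of_finite) h4
    have h6 : Nat.card (Y j₀) * (Y j₀).index = Nat.card D := Subgroup.card_mul_index (Y j₀)
    refine le_trans h3 (le_trans ?_ (Nat.le_add_right _ _))
    rw [Nat.le_div_iff_mul_le (Nat.mul_pos Nat.card_pos hopos), one_mul]
    calc Nat.card (Y j₀) * o j₀ ≤ Nat.card (Y j₀) * (Y j₀).index := Nat.mul_le_mul_left _ h5
      _ = Nat.card D := h6
      _ ≤ Nat.card D * p := Nat.le_mul_of_pos_right _ hp.out.pos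
  have hreg' : ∀ t ∈ stabT D l,
      (∃ y : D, y ∈ Y j₀ ∧ t * ((⟨w, hw⟩ : D) : G) * t⁻¹ * ((⟨w, hw⟩ : D) : G)⁻¹ = y) →
      t ∈ centralizer (D : Set G) := by
    rintro t ht ⟨y, ⟨d, hd⟩, e⟩
    rw [hT] at ht
    refine hreg t ht ⟨d, d.2, ?_⟩
    rw [e, ← hd]
    rfl
  have hTN : stabT D l ≤ normalizer (D : Set G) := stabT_le_norm D l
  have hwY : (⟨w, hw⟩ : D) ∉ Y j₀ := by
    rintro ⟨d, hd⟩
    apply hTC
    intro t ht
    rw [← hT] at ht
    refine hreg' t ht ?_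
    have hd' : (d : G) ^ p ^ j₀ = w := congrArg Subtype.val hd
    have h1 : t * (d : G) * t⁻¹ ∈ D := (mem_normalizer_iff.1 (hTN ht) d).1 d.2
    refine ⟨(⟨t * (d : G) * t⁻¹, h1⟩ * d⁻¹) ^ p ^ j₀, ⟨_, rfl⟩, ?_⟩
    have hcab : Commute (⟨t * (d : G) * t⁻¹, h1⟩ : D) d⁻¹ := Subtype.ext (hab _ h1 _ (d⁻¹).2)
    rw [hcab.mul_pow, Subgroup.coe_mul, Subgroup.coe_pow, Subgroup.coe_pow]
    change t * w * t⁻¹ * w⁻¹ = (t * (d : G) * t⁻¹) ^ p ^ j₀ * ((d : G)⁻¹) ^ p ^ j₀
    rw [conj_pow, inv_pow, hd']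
  have hWr : Nat.card (regularElements D β) = Nat.card (Wr D l) := by
    have h1 : ∀ u : G, u ∈ regularElements D β ↔ RegT D l u ∧ u ≠ 1 := by
      intro u
      constructor
      · rintro ⟨hu, hu2⟩
        refine ⟨⟨hu, fun n hn => hu2 n (hT ▸ hn)⟩, ?_⟩
        rintro rfl
        exact hTC fun n hn => hu2 n hn (by group)
      · rintro ⟨⟨hu, hu2⟩, -⟩
        exact ⟨hu, fun n hn => hu2 n (hT.symm ▸ hn)⟩
    exact Nat.card_congr (Equiv.subtypeEquivRight h1)
  rw [he, hWr] at hii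
  obtain ⟨m, hmc, hm1, hmp, hgen⟩ := P179Y.exists_exp1 (p := p) hp2 (Nat.card G) Nat.card_pos.ne'
  have h1 := numSimpleIn_le_X1 red hB hD hDp hab hl hlz hmc hm1 hmp
  exact h1.trans (X1_card_le_height red hl hDp hab' hp2 hpT hmc hm1 hgen hjJ o Y hYj ⟨w, hw⟩
    hreg' hwY ho' hii)

end

end P179H12
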