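import Vale.Agent.P179.R2.H12.Free
import Vale.Agent.P179.R2.H854.Euc
import Vale.Agent.P179.R2.H292.Free

/-!
# The equality for groups with a nontrivial normal `p`-subgroup, free inertial action
-/

namespace P179H12

open Subgroup Finset P179H524 P179C P179A P179P P179Y P179H872

open P179B (inertialGroup inertialIndex regularElements)

open scoped Classical

universe u

/-- **(M4, free case)** -/
theorem m4free (p : ℕ) [hp : Fact p.Prime] (k : Type u) [Field k] [IsAlgClosed k] [CharP k p]
    (red : integralClosure ℤ ℂ →+* k) : P179H292.M4FreeStmt p k red := by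
  intro G _ _ R hRn hR hR1 B hB D hDB hab β hβ hβB hfree
  have := Fintype.ofFinite G
  have hB' : IsBlock B := hB
  have hDB' : IsDefectGroup B D := hDB
  have hβ' : IsBlock β := hβ
  have hβB' : InducesTo β B := (P179B.inducesTo_iff β B).1 hβB
  obtain ⟨l, hl, hlz, hlβ⟩ := exists_BP_of_subblock (p := p) hB' hDB' hab hβ' hβB'
  have hST : stabT D l = inertialGroup D β := stabT_eq_inertialGroup hβ' hlβ
  have hRD : R ≤ D := P179H725.le_defect (p := p) hB' hDB' R hR
  have hab' : D ≤ centralizer (D : Set G) := by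
    intro x hx
    rw [mem_centralizer_iff]
    intro y hy
    exact hab y hy x hx
  have hfree' : ∀ s ∈ stabT D l, ∀ u ∈ D, u ≠ 1 → s * u * s⁻¹ = u →
      s ∈ centralizer (D : Set G) := by
    intro s hs u hu hu1 hsu
    rw [hST] at hs
    exact (hfree u hu hu1).2 s hs hsu
  have hD1 : D ≠ ⊥ := fun h => hR1 (le_bot_iff.1 (h ▸ hRD))
  rw [P179B.numSimpleIn_eq]
  refine (eq_of_cyc red R hR hB' hDB' hab hl hlz (fun n hn hnR => ?_) ?_).trans
    (P179B.numWeightsIn_eq ..).symm
  · obtain ⟨u, hu, hu1⟩ := R.bot_or_exists_ne_one.resolve_left hR1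
    refine hfree' n hn u (hRD hu) hu1 ?_
    have := mem_centralizer_iff.1 hnR u hu
    rw [← this]
    group
  · intro x hx t ht hxt
    obtain ⟨w, hw, h1, h2⟩ := P179H854.free_cyc_aux hD1 hab' (stabT_le_norm D l) hfree' t ht x hx hxt
    exact ⟨w, hw, h2, h1⟩

end P179H12
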