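import Mathlib

/-!
# Monotonicity of the mass inequality
-/

namespace P179H12

/-- the mass inequality is preserved if `e` decreases and `v` increases -/
theorem mass_mono {p M e q v e' v' : ℕ} (he : e' ≤ e) (hv : v ≤ v')
    (h1 : q * e < (p - 1) * v)
    (h2 : (p - 2) ^ 2 * (q * e * v) ≤ M * ((p - 1) * v - q * e) ^ 2) :
    q * e' < (p - 1) * v' ∧
      (p - 2) ^ 2 * (q * e' * v') ≤ M * ((p - 1) * v' - q * e') ^ 2 := by
  obtain ⟨d, rfl⟩ := Nat.exists_eq_add_of_le hv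
  obtain ⟨f, rfl⟩ := Nat.exists_eq_add_of_le he
  set c := p - 1 with hc
  set b := (p - 2) ^ 2 with hb
  obtain ⟨X, hX⟩ := Nat.exists_eq_add_of_lt h1
  have h3 : c * v - q * (e' + f) = X + 1 := by omega
  rw [h3] at h2
  have h4 : c * (v + d) - q * e' = (X + 1) + c * d + q * f := by
    rw [mul_add, hX, mul_add]
    omega
  have h5 : q * e' < c * (v + d) := by
    rw [mul_add, hX, mul_add]
    omega
  refine ⟨h5, ?_⟩
  rw [h4]
  have hv0 : 0 < v := by
    rcases Nat.eq_zero_or_pos v with h | h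
    · rw [h, mul_zero] at h1
      omega
    · exact h
  refine Nat.le_of_mul_le_mul_left ?_ hv0
  -- `v' X ^ 2 ≤ v Z ^ 2` with `X = c v - s`, `Z = c v' - s`
  have h6 : (v + d) * (X + 1) ^ 2 ≤ v * ((X + 1) + c * d) ^ 2 := by
    have h7 : X + 1 ≤ c * v := by omega
    have h8 : d * (X + 1) * (X + 1) ≤ d * (X + 1) * (c * v) := Nat.mul_le_mul_left _ h7
    nlinarith [Nat.zero_le (v * (c * d) ^ 2), Nat.zero_le (d * (X + 1) * (c * v))]
  calc v * (b * (q * e' * (v + d))) = b * (q * v) * (v + d) * e' := by ring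
    _ ≤ b * (q * v) * (v + d) * (e' + f) := Nat.mul_le_mul_left _ he
    _ = (v + d) * (b * (q * (e' + f) * v)) := by ring
    _ ≤ (v + d) * (M * (X + 1) ^ 2) := Nat.mul_le_mul_left _ h2
    _ = M * ((v + d) * (X + 1) ^ 2) := by ring
    _ ≤ M * (v * ((X + 1) + c * d) ^ 2) := Nat.mul_le_mul_left _ h6
    _ ≤ M * (v * ((X + 1) + c * d + q * f) ^ 2) := Nat.mul_le_mul_left _ (Nat.mul_le_mul_left _
        (Nat.pow_le_pow_left (Nat.le_add_right _ _) 2))
    _ = v * (M * ((X + 1) + c * d + q * f) ^ 2) := by ring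

end P179H12
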