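import Vale.Agent.P179.R2.H725.Below
import Vale.Agent.P179.H905.I23

/-!
# Central idempotents and normal `p`-subgroups; blocks of subgroups `H ≥ C_G(D)` below a pair
-/

namespace P179H12

open Subgroup Finset P179H524 P179C P179A P179P P179Y

open scoped Classical

universe u

theorem idem_sub {Z : Type*} [CommRing Z] {B E : Z} (hB : B * B = B) (hE : E * E = E) :
    (B - B * E) * (B - B * E) = B - B * E := by
  have h1 : (B - B * E) * (B - B * E) = B * B - B * B * E - B * B * E + B * B * (E * E) := by
    ring
  rw [h1, hB, hE]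
  ring

section Idem

variable {p : ℕ} [hp : Fact p.Prime] {k : Type u} [Field k] [IsAlgClosed k] [CharP k p]
  {G : Type} [Group G] [Fintype G]

omit [CharP k p] hp in
/-- idempotents of the centre are determined by the homomorphisms -/
theorem idem_eq (B E : Subalgebra.center k (MonoidAlgebra k G)) (hB : B * B = B) (hE : E * E = E)
    (h : ∀ ν : Subalgebra.center k (MonoidAlgebra k G) →ₐ[k] k, ν B = ν E) : B = E := by
  have key : ∀ B E : Subalgebra.center k (MonoidAlgebra k G), B * B = B → E * E = E →
      (∀ ν : Subalgebra.center k (MonoidAlgebra k G) →ₐ[k] k, ν B = ν E) → B = B * E := by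
    intro B E hB hE h
    by_contra hne
    obtain ⟨ν, hν⟩ := exists_hom_of_idem (B - B * E) (idem_sub hB hE) (sub_ne_zero.2 hne)
    have h2 : ν B * ν B = ν B := by rw [← map_mul, hB]
    rw [map_sub, map_mul, ← h ν, h2, sub_self] at hν
    exact zero_ne_one hν
  have h1 := key B E hB hE h
  have h2 := key E B hE hB fun ν => (h ν).symm
  rw [h1, mul_comm, ← h2]

omit [IsAlgClosed k] in
/-- `pushR` of class functions vanishing on the centraliser of a normal `p`-subgroup -/
theorem pushR_eq_zero (R : Subgroup G) [hRn : R.Normal] (hR : IsPGroup p R) {z : G → k}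
    (hz : IsCF z) (h0 : ∀ x ∈ centralizer (R : Set G), z x = 0) :
    pushR (QuotientGroup.mk' R) z = 0 := by
  funext c
  rw [Pi.zero_apply]
  unfold pushR
  refine sum_eq_zero_of_perm p hR (conjPerm R) _ ?_ ?_
  · intro r h
    rw [conjPerm_apply, hz (r : G) h]
    have h2 : QuotientGroup.mk' R ((r : G) * h * (r : G)⁻¹) = QuotientGroup.mk' R h := by
      have h3 : QuotientGroup.mk' R (r : G) = 1 := by
        rw [QuotientGroup.mk'_apply, QuotientGroup.eq_one_iff]
        exact r.2
      rw [map_mul, map_mul, map_inv, h3, one_mul, inv_one, mul_one]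
    rw [h2]
  · intro h hfix
    rw [h0 h ((mem_cent_iff R h).2 fun d hd => hfix ⟨d, hd⟩), ite_self]

omit [IsAlgClosed k] [Fintype G] in
theorem cutC_normal (R : Subgroup G) [hRn : R.Normal] {b : G → k} (hb : IsCF b) :
    IsCF (cutC R b) := by
  intro g x
  unfold cutC
  rw [conj_mem_cent (normalizer_eq_top (H := R) ▸ mem_top g) x, hb g x]

/-- **central idempotents are supported on the centraliser of a normal `p`-subgroup** -/
theorem idem_supp (R : Subgroup G) [hRn : R.Normal] (hR : IsPGroup p R) {b : G → k}
    (hb : IsCF b) (hbb : conv b b = b) {g : G} (hg : g ∉ centralizer (R : Set G)) : b g = 0 := by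
  have hc : IsCF (cutC R b) := cutC_normal R hb
  have hcc : conv (cutC R b) (cutC R b) = cutC R b := by
    funext x
    by_cases hx : x ∈ centralizer (R : Set G)
    · rw [← conv_cut p R hR (fun d _ => hb d) (fun d _ => hb d) hx, hbb]
      simp [cutC, hx]
    · have h1 : cutC R b x = 0 := by simp [cutC, hx]
      rw [h1]
      unfold conv
      refine Finset.sum_eq_zero fun y _ => ?_
      by_cases hy : y ∈ centralizer (R : Set G)
      · have h2 : y⁻¹ * x ∉ centralizer (R : Set G) := fun h => hx (by simpa using mul_mem hy h)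
        have h3 : cutC R b (y⁻¹ * x) = 0 := by simp [cutC, h2]
        rw [h3, mul_zero]
      · have h3 : cutC R b y = 0 := by simp [cutC, hy]
        rw [h3, zero_mul]
  have h1 := idem_eq (k := k) ⟨mkF b, mkF_mem hb⟩ ⟨mkF (cutC R b), mkF_mem hc⟩
    (Subtype.ext (by change mkF b * mkF b = mkF b; rw [← mkF_conv, hbb]))
    (Subtype.ext (by
      change mkF (cutC R b) * mkF (cutC R b) = mkF (cutC R b)
      rw [← mkF_conv, hcc]))
    (fun ν => by
      rw [← sub_eq_zero, ← map_sub]
      refine P179N.hom_eq_zero (p := p) R hR ν _ ?_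
      have h2 : (fun h => (((⟨mkF b, mkF_mem hb⟩ : Subalgebra.center k (MonoidAlgebra k G)) -
          ⟨mkF (cutC R b), mkF_mem hc⟩ : Subalgebra.center k (MonoidAlgebra k G)) :
            MonoidAlgebra k G).coeff h) = fun h => b h - cutC R b h := by
        funext h
        change (mkF b - mkF (cutC R b)).coeff h = _
        rw [MonoidAlgebra.coeff_sub, Finsupp.sub_apply, coeff_mkF, coeff_mkF]
      rw [h2]
      refine pushR_eq_zero (p := p) R hR (fun g x => ?_) fun x hx => ?_
      · rw [hb g x, hc g x]
      · simp [cutC, hx])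
  have h2 : (mkF b).coeff g = (mkF (cutC R b)).coeff g :=
    congrArg (fun y : Subalgebra.center k (MonoidAlgebra k G) => y.1.coeff g) h1
  rw [coeff_mkF, coeff_mkF] at h2
  rw [h2]
  simp [cutC, hg]

end Idem

end P179H12
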