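import Vale.Agent.P179.R2.H450.Ab1
import Vale.Agent.P179.R2.H292.Cop
import Vale.Agent.P179.R2.H12.Gab

/-!
# Regular cosets modulo the `p`-th powers

If `w` is regular modulo the `p`-th powers, then some element of maximal order is so, and some
element which is not of maximal order is regular in the ordinary sense.
-/

namespace P179H12

open Subgroup P179H292 P179H92

variable {G : Type*} [Group G] {D T S : Subgroup G} {p : ℕ}

/-- the elements centralised by `S` modulo `P` -/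
def cenM (hab : ∀ a ∈ D, ∀ b ∈ D, a * b = b * a) (hS : ∀ s ∈ S, ∀ d ∈ D, s * d * s⁻¹ ∈ D)
    {P : Subgroup G} (hPD : P ≤ D) : Subgroup G where
  carrier := {d | d ∈ D ∧ ∀ s ∈ S, s * d * s⁻¹ * d⁻¹ ∈ P}
  one_mem' := ⟨one_mem _, fun s _ => by
    have : s * 1 * s⁻¹ * 1⁻¹ = 1 := by group
    rw [this]
    exact one_mem _⟩
  mul_mem' := by
    rintro a b ⟨ha, ha'⟩ ⟨hb, hb'⟩
    refine ⟨mul_mem ha hb, fun s hs => ?_⟩
    have h1 : s * (a * b) * s⁻¹ * (a * b)⁻¹ = (s * a * s⁻¹) * (s * b * s⁻¹ * b⁻¹) * a⁻¹ := by group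
    rw [h1, hab _ (hS s hs a ha) _ (hPD (hb' s hs)), mul_assoc]
    exact mul_mem (hb' s hs) (ha' s hs)
  inv_mem' := by
    rintro a ⟨ha, ha'⟩
    refine ⟨inv_mem ha, fun s hs => ?_⟩
    have h1 : s * a⁻¹ * s⁻¹ * a⁻¹⁻¹ = (s * a * s⁻¹)⁻¹ * a := by group
    rw [h1, hab _ (inv_mem (hS s hs a ha)) _ ha]
    have h2 := inv_mem (ha' s hs)
    have h3 : (s * a * s⁻¹ * a⁻¹)⁻¹ = a * (s * a * s⁻¹)⁻¹ := by group
    rwa [h3] at h2

/-- **a coset of `P` which is invariant under a `p'`-group contains a fixed element** -/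
theorem exists_fix [Finite G] [hp : Fact p.Prime] (hD : IsPGroup p D)
    (hab : ∀ a ∈ D, ∀ b ∈ D, a * b = b * a)
    (hS : ∀ s ∈ S, ∀ d ∈ D, s * d * s⁻¹ ∈ D) (hn : ¬ p ∣ (centralizer (D : Set G)).relIndex S)
    {P : Subgroup G} (hPD : P ≤ D) (hP : ∀ s ∈ S, ∀ y ∈ P, s * y * s⁻¹ ∈ P) {x : G} (hx : x ∈ D)
    (h : ∀ s ∈ S, s * x * s⁻¹ * x⁻¹ ∈ P) :
    ∃ y ∈ D, x⁻¹ * y ∈ P ∧ ∀ s ∈ S, s * y * s⁻¹ = y := by
  set Q := cenM hab hS hPD with hQ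
  have hQD : Q ≤ D := fun y hy => hy.1
  have hPQ : P ≤ Q := by
    intro y hy
    exact ⟨hPD hy, fun s hs => mul_mem (hP s hs y hy) (inv_mem hy)⟩
  have hSQ : ∀ s ∈ S, ∀ y ∈ Q, s * y * s⁻¹ ∈ Q := by
    intro s hs y hy
    have h1 : s * y * s⁻¹ = (s * y * s⁻¹ * y⁻¹) * y := by group
    rw [h1]
    exact mul_mem (hPQ (hy.2 s hs)) hy
  have hSN : S ≤ normalizer (Q : Set G) := by
    intro s hs
    rw [mem_normalizer_iff]
    intro y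
    refine ⟨fun hy => hSQ s hs y hy, fun hy => ?_⟩
    have h1 := hSQ s⁻¹ (inv_mem hs) _ hy
    have e : s⁻¹ * (s * y * s⁻¹) * s⁻¹⁻¹ = y := by group
    rwa [e] at h1
  have hn' : ¬ p ∣ (centralizer (Q : Set G)).relIndex S := fun h1 =>
    hn (h1.trans (Subgroup.relIndex_dvd_of_le_left S (centralizer_le hQD)))
  have hxQ : x ∈ Q := ⟨hx, h⟩
  obtain ⟨y, hy, hfix, z, hz, e⟩ := mem_fix_mul (hD.to_le hQD)
    (fun a ha b hb => hab a (hQD ha) b (hQD hb)) hSN hn' hxQ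
  have hle : (⁅S, Q⁆ : Subgroup G) ≤ P := by
    rw [commutator_le]
    intro s hs d hd
    exact hd.2 s hs
  refine ⟨y, hQD hy, ?_, hfix⟩
  have h1 : x⁻¹ * y = z⁻¹ := by
    have h2 : y = x * z⁻¹ := by rw [e, mul_inv_cancel_right]
    rw [h2, inv_mul_cancel_left]
  rw [h1]
  exact inv_mem (hle hz)

/-- the stabiliser in `T` of a coset of `P` -/
def stC {P : Subgroup G} (hP : ∀ s ∈ T, ∀ y ∈ P, s * y * s⁻¹ ∈ P) (x : G) : Subgroup G where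
  carrier := {t | t ∈ T ∧ t * x * t⁻¹ * x⁻¹ ∈ P}
  one_mem' := ⟨one_mem _, by
    have : 1 * x * 1⁻¹ * x⁻¹ = 1 := by group
    rw [this]
    exact one_mem _⟩
  mul_mem' := by
    rintro s t ⟨hs, hs'⟩ ⟨ht, ht'⟩
    refine ⟨mul_mem hs ht, ?_⟩
    have h1 : s * t * x * (s * t)⁻¹ * x⁻¹ = (s * (t * x * t⁻¹ * x⁻¹) * s⁻¹) *
        (s * x * s⁻¹ * x⁻¹) := by group
    rw [h1]
    exact mul_mem (hP s hs _ ht') hs'
  inv_mem' := by
    rintro s ⟨hs, hs'⟩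
    refine ⟨inv_mem hs, ?_⟩
    have h1 : s⁻¹ * x * s⁻¹⁻¹ * x⁻¹ = (s⁻¹ * (s * x * s⁻¹ * x⁻¹) * s⁻¹⁻¹)⁻¹ := by group
    rw [h1]
    exact inv_mem (hP s⁻¹ (inv_mem hs) _ hs')

variable [Finite G] [hp : Fact p.Prime]

/-- **full order** -/
theorem exists_full (hD : IsPGroup p D) (hab : ∀ a ∈ D, ∀ b ∈ D, a * b = b * a)
    (hTN : T ≤ normalizer (D : Set G)) (hT : ¬ p ∣ (centralizer (D : Set G)).relIndex T) {m : ℕ}
    (hexp : ∀ x ∈ D, x ^ p ^ (m + 1) = 1) (hm : ∃ x ∈ D, x ^ p ^ m ≠ 1) {w : G} (hw : w ∈ D)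
    (hreg : ∀ n ∈ T, (∃ d ∈ D, n * w * n⁻¹ * w⁻¹ = d ^ p) → n ∈ centralizer (D : Set G)) :
    ∃ w' ∈ D, w' ^ p ^ m ≠ 1 ∧
      ∀ n ∈ T, (∃ d ∈ D, n * w' * n⁻¹ * w'⁻¹ = d ^ p) → n ∈ centralizer (D : Set G) := by
  by_cases hwm : w ^ p ^ m = 1
  swap
  · exact ⟨w, hw, hwm, hreg⟩
  obtain ⟨x, hx, hxm⟩ := hm
  have hTD : ∀ t ∈ T, ∀ d ∈ D, t * d * t⁻¹ ∈ D := fun t ht d hd =>
    (mem_normalizer_iff.1 (hTN ht) d).1 hd
  have hPD : omS hab (p ^ m) ≤ D := fun y hy => hy.1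
  have hP : ∀ s ∈ T, ∀ y ∈ omS hab (p ^ m), s * y * s⁻¹ ∈ omS hab (p ^ m) := by
    rintro s hs y ⟨hy, hy1⟩
    refine ⟨hTD s hs y hy, ?_⟩
    rw [conj_pow, hy1]
    group
  set S := stC hP x with hS
  have hST : S ≤ T := fun s hs => hs.1
  obtain ⟨y, hy, hyx, hfix⟩ := exists_fix (S := S) hD hab (fun s hs => hTD s (hST hs))
    (fun h => hT (h.trans (relIndex_dvd hTN hST))) hPD (fun s hs => hP s (hST hs)) hx
    (fun s hs => hs.2)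
  have hyP : y = x * (x⁻¹ * y) := by group
  refine ⟨w * y, mul_mem hw hy, ?_, ?_⟩
  · have hc : Commute w y := hab w hw y hy
    have hc2 : Commute x (x⁻¹ * y) := hab x hx _ (hPD hyx)
    rw [hc.mul_pow, hwm, one_mul, hyP, hc2.mul_pow, hyx.2, mul_one]
    exact hxm
  · rintro n hn ⟨d, hd, e⟩
    have hwn : n * w * n⁻¹ ∈ D := hTD n hn w hw
    have hyn : n * y * n⁻¹ ∈ D := hTD n hn y hy
    have e1 : (n * w * n⁻¹ * w⁻¹) * (n * y * n⁻¹ * y⁻¹) = d ^ p := by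
      rw [← e]
      have h1 : n * (w * y) * n⁻¹ * (w * y)⁻¹ = (n * w * n⁻¹) * ((n * y * n⁻¹ * y⁻¹) * w⁻¹) := by
        group
      rw [h1, hab (n * y * n⁻¹ * y⁻¹) (mul_mem hyn (inv_mem hy)) w⁻¹ (inv_mem hw)]
      group
    -- `n` fixes the coset of `y`
    have hdP : d ^ p ∈ omS hab (p ^ m) := by
      refine ⟨pow_mem hd _, ?_⟩
      rw [← pow_mul, ← pow_succ']
      exact hexp d hd
    have hwP : w ∈ omS hab (p ^ m) := ⟨hw, hwm⟩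
    have hnw : n * w * n⁻¹ * w⁻¹ ∈ omS hab (p ^ m) := mul_mem (hP n hn w hwP) (inv_mem hwP)
    have hny : n * y * n⁻¹ * y⁻¹ ∈ omS hab (p ^ m) := by
      have h1 : n * y * n⁻¹ * y⁻¹ = (n * w * n⁻¹ * w⁻¹)⁻¹ * d ^ p := by
        rw [← e1]
        group
      rw [h1]
      exact mul_mem (inv_mem hnw) hdP
    have hnS : n ∈ S := by
      refine ⟨hn, ?_⟩
      have h1 : x = y * (x⁻¹ * y)⁻¹ := by group
      have h2 : n * x * n⁻¹ * x⁻¹ = (n * y * n⁻¹) * ((n * (x⁻¹ * y) * n⁻¹)⁻¹ * (x⁻¹ * y)) * y⁻¹ := by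
        conv_lhs => rw [h1]
        group
      have h3 : (n * (x⁻¹ * y) * n⁻¹)⁻¹ * (x⁻¹ * y) ∈ omS hab (p ^ m) :=
        mul_mem (inv_mem (hP n hn _ hyx)) hyx
      rw [h2, hab (n * y * n⁻¹) hyn _ (hPD h3), mul_assoc]
      exact mul_mem h3 hny
    have h4 : n * y * n⁻¹ * y⁻¹ = 1 := by
      rw [hfix n hnS, mul_inv_cancel]
    rw [h4, mul_one] at e1
    exact hreg n hn ⟨d, hd, e1⟩

/-- **an element which is regular in the ordinary sense and not of maximal order** -/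
theorem exists_low (hD : IsPGroup p D) (hab : ∀ a ∈ D, ∀ b ∈ D, a * b = b * a)
    (hTN : T ≤ normalizer (D : Set G)) (hT : ¬ p ∣ (centralizer (D : Set G)).relIndex T) {m : ℕ}
    (hexp : ∀ x ∈ D, x ^ p ^ (m + 1) = 1) (hm1 : 1 ≤ m) {w : G} (hw : w ∈ D)
    (hreg : ∀ n ∈ T, (∃ d ∈ D, n * w * n⁻¹ * w⁻¹ = d ^ p) → n ∈ centralizer (D : Set G)) :
    ∃ u ∈ D, u ^ p ^ m = 1 ∧ ∀ n ∈ T, n * u * n⁻¹ = u → n ∈ centralizer (D : Set G) := by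
  have hTD : ∀ t ∈ T, ∀ d ∈ D, t * d * t⁻¹ ∈ D := fun t ht d hd =>
    (mem_normalizer_iff.1 (hTN ht) d).1 hd
  -- the element `z`
  have hOD : omS hab p ≤ D := fun y hy => hy.1
  have hO : ∀ s ∈ T, ∀ y ∈ omS hab p, s * y * s⁻¹ ∈ omS hab p := by
    rintro s hs y ⟨hy, hy1⟩
    refine ⟨hTD s hs y hy, ?_⟩
    rw [conj_pow, hy1]
    group
  set S := stC hO w with hS
  have hST : S ≤ T := fun s hs => hs.1
  obtain ⟨c, hc, hcw, hcfix⟩ := exists_fix (S := S) hD hab (fun s hs => hTD s (hST hs))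
    (fun h => hT (h.trans (relIndex_dvd hTN hST))) hOD (fun s hs => hO s (hST hs)) hw
    (fun s hs => hs.2)
  set z := (w⁻¹ * c)⁻¹ with hz
  have hzO : z ∈ omS hab p := inv_mem hcw
  have hzD : z ∈ D := hOD hzO
  have hwcz : w = c * z := by rw [hz]; group
  -- the element `z₀`
  have hFD : pwS hab p ≤ D := by
    rintro _ ⟨d, hd, rfl⟩
    exact pow_mem hd p
  have hF : ∀ s ∈ T, ∀ y ∈ pwS hab p, s * y * s⁻¹ ∈ pwS hab p := by
    rintro s hs _ ⟨d, hd, rfl⟩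
    exact ⟨s * d * s⁻¹, hTD s hs d hd, by rw [conj_pow]⟩
  set R := stC hF z with hR
  have hRT : R ≤ T := fun s hs => hs.1
  obtain ⟨z₀, hz₀, hz₀z, hz₀fix⟩ := exists_fix (S := R) hD hab (fun s hs => hTD s (hRT hs))
    (fun h => hT (h.trans (relIndex_dvd hTN hRT))) hFD (fun s hs => hF s (hRT hs)) hzD
    (fun s hs => hs.2)
  obtain ⟨f, hf, hfz⟩ := hz₀z
  have hz₀eq : z₀ = z * f ^ p := by rw [hfz]; group
  refine ⟨z₀ * w ^ p, mul_mem hz₀ (pow_mem hw p), ?_, ?_⟩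
  · have h1 : Commute z₀ (w ^ p) := hab _ hz₀ _ (pow_mem hw p)
    have h2 : Commute z (f ^ p) := hab _ hzD _ (pow_mem hf p)
    have h3 : z ^ p ^ m = 1 := by
      obtain ⟨m', rfl⟩ : ∃ m', m = m' + 1 := ⟨m - 1, by omega⟩
      rw [pow_succ', pow_mul, hzO.2, one_pow]
    rw [h1.mul_pow, hz₀eq, h2.mul_pow, h3, one_mul, ← pow_mul, ← pow_mul, ← pow_succ',
      hexp f hf, hexp w hw, one_mul]
  · intro n hn hnu
    have hn1 : n * z₀ * n⁻¹ ∈ D := hTD n hn z₀ hz₀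
    have hn2 : n * w * n⁻¹ ∈ D := hTD n hn w hw
    have e1 : (n * z₀ * n⁻¹) * (n * w * n⁻¹) ^ p = z₀ * w ^ p := by
      rw [conj_pow]
      have h1 : n * z₀ * n⁻¹ * (n * w ^ p * n⁻¹) = n * (z₀ * w ^ p) * n⁻¹ := by group
      rw [h1, hnu]
    -- `n` is in `R`
    have hnR : n ∈ R := by
      refine ⟨hn, ?_⟩
      refine ⟨w * (n * w * n⁻¹)⁻¹ * f * (n * f * n⁻¹)⁻¹, mul_mem (mul_mem (mul_mem hw (inv_mem hn2))
        hf) (inv_mem (hTD n hn f hf)), ?_⟩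
      have hfn : n * f * n⁻¹ ∈ D := hTD n hn f hf
      have c1 : Commute (w * (n * w * n⁻¹)⁻¹ * f) (n * f * n⁻¹)⁻¹ :=
        hab _ (mul_mem (mul_mem hw (inv_mem hn2)) hf) _ (inv_mem hfn)
      have c2 : Commute (w * (n * w * n⁻¹)⁻¹) f := hab _ (mul_mem hw (inv_mem hn2)) _ hf
      have c3 : Commute w (n * w * n⁻¹)⁻¹ := hab _ hw _ (inv_mem hn2)
      rw [c1.mul_pow, c2.mul_pow, c3.mul_pow]
      have hzn : n * z * n⁻¹ ∈ D := hTD n hn z hzD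
      have e2 : (n * z₀ * n⁻¹) = (n * z * n⁻¹) * (n * f * n⁻¹) ^ p := by
        rw [hz₀eq, conj_pow]
        group
      rw [e2, hz₀eq] at e1
      -- a computation in the commutative group `D`
      let _ : CommGroup D := { (inferInstance : Group D) with
        mul_comm := fun a b => Subtype.ext (hab a a.2 b b.2) }
      have e3 : (⟨_, hzn⟩ : D) * ⟨_, hfn⟩ ^ p * ⟨_, hn2⟩ ^ p = ⟨z, hzD⟩ * ⟨f, hf⟩ ^ p * ⟨w, hw⟩ ^ p :=
        Subtype.ext e1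
      have e4 : (⟨w, hw⟩ : D) ^ p * (⟨_, hn2⟩ : D)⁻¹ ^ p * ⟨f, hf⟩ ^ p * (⟨_, hfn⟩ : D)⁻¹ ^ p =
          ⟨_, hzn⟩ * ⟨z, hzD⟩⁻¹ := by
        rw [eq_mul_inv_iff_mul_eq, inv_pow, inv_pow]
        have e5 : (⟨_, hzn⟩ : D) = ⟨z, hzD⟩ * ⟨f, hf⟩ ^ p * ⟨w, hw⟩ ^ p * (⟨_, hn2⟩ ^ p)⁻¹ *
            (⟨_, hfn⟩ ^ p)⁻¹ := by
          rw [← e3, mul_inv_cancel_right, mul_inv_cancel_right]
        rw [e5]
        ac_rfl
      exact congrArg Subtype.val e4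
    -- `n` fixes `z₀` and `w ^ p`
    have h1 := hz₀fix n hnR
    rw [h1] at e1
    have e2 : (n * w * n⁻¹) ^ p = w ^ p := mul_left_cancel e1
    have hnS : n ∈ S := by
      refine ⟨hn, mul_mem hn2 (inv_mem hw), ?_⟩
      have c1 : Commute (n * w * n⁻¹) w⁻¹ := hab _ hn2 _ (inv_mem hw)
      rw [c1.mul_pow, e2, inv_pow, mul_inv_cancel]
    have h3 := hcfix n hnS
    obtain ⟨-, d, hd, e3⟩ := hnR
    refine hreg n hn ⟨d, hd, ?_⟩
    rw [e3, hwcz]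
    have h4 : n * (c * z) * n⁻¹ * (c * z)⁻¹ = (n * c * n⁻¹) * (n * z * n⁻¹ * z⁻¹) * c⁻¹ := by group
    rw [h4, h3, hab c hc _ (mul_mem (hTD n hn z hzD) (inv_mem hzD)), mul_inv_cancel_right]

/-- **the data of the height-refined bound from a regular coset modulo the `p`-th powers** -/
theorem hasRegCosetH_of_reg (hp2 : 2 < p) (hD : IsPGroup p D)
    (hab : ∀ a ∈ D, ∀ b ∈ D, a * b = b * a) (hTN : T ≤ normalizer (D : Set G))
    (hT : ¬ p ∣ (centralizer (D : Set G)).relIndex T) {r : ℕ}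
    (hr : Nat.card {x : G // x ∈ D ∧ x ^ p = 1} = p ^ r) (hr3 : 3 ≤ r)
    (hex : ∃ x ∈ D, x ^ p ^ (r + (r - 3) * ((r - 1) / 2)) ≠ 1) {w : G} (hw : w ∈ D)
    (hreg : ∀ n ∈ T, (∃ d ∈ D, n * w * n⁻¹ * w⁻¹ = d ^ p) → n ∈ centralizer (D : Set G)) :
    HasRegCosetH p D T := by
  obtain ⟨m, hmr, hexp, hm⟩ := P179H450.exists_exp hD hex
  obtain ⟨w', hw', hwm', hreg'⟩ := exists_full hD hab hTN hT hexp hm hw hreg
  have hm1 : 1 ≤ m := by omega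
  obtain ⟨u, hu, hum, hureg⟩ := exists_low hD hab hTN hT hexp hm1 hw' hreg'
  have h1 := P179H450.orbit_count_lt hab hTN hw' hreg' (M := p ^ m)
    (fun x hx => by rw [← pow_succ']; exact hexp x hx) hwm' hu hureg hum
  have h2 : Nat.card D = Nat.card {y : G // ∃ d ∈ D, d ^ p = y} * p ^ r := by
    have h3 := card_eq_mul hab p
    have h4 : Nat.card (omS hab p) = Nat.card {x : G // x ∈ D ∧ x ^ p = 1} := rfl
    rw [h4, hr] at h3
    exact h3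
  refine hasRegCosetH_of hp2 hab hr hr3 hexp hmr hw' hwm' hreg' ?_
    (P179H450.relIndex_le hab hTN hr hw' hreg')
  rw [h2, ← mul_assoc, mul_comm (p ^ r)]
  exact Nat.mul_lt_mul_of_pos_right h1 (pow_pos hp.out.pos r)

end P179H12
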