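import Vale.Agent.P179.R2.H12.Reg1
import Vale.Agent.P179.R2.H92.RegCls
import Vale.Agent.P179.R2.H450.GrowDef

/-!
# Regular cosets for the thresholds `facB`
-/

namespace P179H12

open Subgroup P179H292 P179H92

open P179B (facJ facB GrowBy)

/-! ### Arithmetic -/

theorem facJ_eq {r : ℕ} (h : 3 ≤ r) : facJ r = (r * (r + 1) + 3) / 4 := by
  unfold facJ
  refine max_eq_right ?_
  have h1 : r * 4 ≤ r * (r + 1) := Nat.mul_le_mul_left _ (by omega)
  omega

theorem facB_eq {r : ℕ} (h : 3 ≤ r) :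
    facB r = 1 + max (1 + (r - 1) ^ 2) (3 + (r - 3) * facJ r) := by
  unfold facB
  rw [if_neg (by omega), facJ_eq h]

theorem le_facB (r : ℕ) : r ≤ facB r := by
  rcases Nat.lt_or_ge r 3 with h | h
  · unfold facB
    rw [if_pos (by omega)]
  · rw [facB_eq h]
    have h1 : 1 + (r - 1) ^ 2 ≤ max (1 + (r - 1) ^ 2) (3 + (r - 3) * facJ r) := le_max_left _ _
    have h2 : (r - 1) * 1 ≤ (r - 1) ^ 2 := by
      rw [sq]
      exact Nat.mul_le_mul_left _ (by omega)
    omega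

theorem sq_lt_facB {r : ℕ} (h : 3 ≤ r) : 2 + (r - 1) ^ 2 ≤ facB r := by
  rw [facB_eq h]
  have h1 : 1 + (r - 1) ^ 2 ≤ max (1 + (r - 1) ^ 2) (3 + (r - 3) * facJ r) := le_max_left _ _
  omega

theorem mul_lt_facB {r : ℕ} (h : 3 ≤ r) : 4 + (r - 3) * facJ r ≤ facB r := by
  rw [facB_eq h]
  have h1 : 3 + (r - 3) * facJ r ≤ max (1 + (r - 1) ^ 2) (3 + (r - 3) * facJ r) :=
    le_max_right _ _
  omega

theorem two_facJ_lt {r : ℕ} (h : 4 ≤ r) : 2 * facJ r + 1 ≤ facB r := by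
  rcases Nat.eq_or_lt_of_le h with rfl | h
  · decide
  · have h1 := mul_lt_facB (r := r) (by omega)
    have h2 : 2 * facJ r ≤ (r - 3) * facJ r := Nat.mul_le_mul_right _ (by omega)
    omega

theorem facJ_le_facB {r : ℕ} (h : 3 ≤ r) : facJ r ≤ facB r := by
  rcases Nat.eq_or_lt_of_le h with rfl | h
  · decide
  · have := two_facJ_lt (r := r) (by omega)
    omega

theorem tri_le_facB {r c : ℕ} (h : 3 ≤ r) (hc : 2 * c = r * (r + 1)) : c ≤ facB r := by
  have h1 := sq_lt_facB h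
  obtain ⟨s, rfl⟩ : ∃ s, r = s + 3 := ⟨r - 3, by omega⟩
  have h2 : s + 3 - 1 = s + 2 := by omega
  rw [h2] at h1
  nlinarith [Nat.zero_le (s * s)]

/-- a sum of powers -/
theorem sum_pow_le2 {p c d : ℕ} (hp : 2 ≤ p) (hd : 1 ≤ d) (J : ℕ) :
    ∑ h ∈ Finset.range (J + 1), p ^ (c + d * h) ≤ 2 * p ^ (c + d * J) := by
  induction J with
  | zero =>
    rw [Finset.sum_range_one]
    omega
  | succ J ih =>
    rw [Finset.sum_range_succ]
    have h1 : 2 * p ^ (c + d * J) ≤ p ^ (c + d * (J + 1)) := by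
      calc 2 * p ^ (c + d * J) ≤ p * p ^ (c + d * J) := Nat.mul_le_mul_right _ hp
        _ = p ^ (c + d * J + 1) := by rw [pow_succ']
        _ ≤ _ := by
          refine Nat.pow_le_pow_right (by omega) ?_
          rw [mul_add]
          omega
    calc _ ≤ p ^ (c + d * (J + 1)) + p ^ (c + d * (J + 1)) := Nat.add_le_add_right (ih.trans h1) _
      _ = 2 * p ^ (c + d * (J + 1)) := by ring

/-- the numerical condition -/
theorem numB {p r : ℕ} (hp : 2 < p) (hr : 3 ≤ r) :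
    p ^ (1 + (r - 1) * (r - 1)) + ∑ h ∈ Finset.Ico (r - 1) (facJ r), p ^ (r + (r - 3) * h) ≤
      p ^ facB r := by
  have hp0 : 0 < p := by omega
  rcases Nat.eq_or_lt_of_le hr with rfl | h
  · have h1 : facJ 3 = 3 := by decide
    have h2 : facB 3 = 6 := by decide
    rw [h1, h2]
    have h3 : Finset.Ico (3 - 1) 3 = {2} := by decide
    rw [h3, Finset.sum_singleton]
    have h4 : p ^ (3 + (3 - 3) * 2) ≤ p ^ (1 + (3 - 1) * (3 - 1)) :=
      Nat.pow_le_pow_right hp0 (by norm_num)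
    calc _ ≤ p ^ (1 + (3 - 1) * (3 - 1)) + p ^ (1 + (3 - 1) * (3 - 1)) := Nat.add_le_add_left h4 _
      _ = 2 * p ^ 5 := by norm_num; ring
      _ ≤ p * p ^ 5 := Nat.mul_le_mul_right _ (by omega)
      _ = p ^ 6 := by ring
  · have hJ1 : 1 ≤ facJ r := by
      have := P179H666.le_facJ r
      omega
    obtain ⟨J, hJ⟩ : ∃ J, facJ r = J + 1 := ⟨facJ r - 1, by omega⟩
    have h1 : ∑ h ∈ Finset.Ico (r - 1) (facJ r), p ^ (r + (r - 3) * h) ≤
        2 * p ^ (r + (r - 3) * J) := by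
      rw [hJ]
      refine le_trans ?_ (sum_pow_le2 (by omega) (by omega) J)
      refine Finset.sum_le_sum_of_subset ?_
      rw [Finset.range_eq_Ico]
      exact Finset.Ico_subset_Ico (Nat.zero_le _) le_rfl
    set μ := max (1 + (r - 1) ^ 2) (3 + (r - 3) * facJ r) with hμ
    have h2 : p ^ (1 + (r - 1) * (r - 1)) ≤ p ^ μ := by
      refine Nat.pow_le_pow_right hp0 ?_
      rw [← sq]
      exact le_max_left _ _
    have h3 : p ^ (r + (r - 3) * J) ≤ p ^ μ := by
      refine Nat.pow_le_pow_right hp0 ?_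
      have h4 : 3 + (r - 3) * facJ r ≤ μ := le_max_right _ _
      rw [hJ, mul_add] at h4
      omega
    have h5 : facB r = 1 + μ := facB_eq hr
    rw [h5]
    calc _ ≤ p ^ μ + 2 * p ^ μ := Nat.add_le_add h2 (h1.trans (Nat.mul_le_mul_left _ h3))
      _ = 3 * p ^ μ := by ring
      _ ≤ p * p ^ μ := Nat.mul_le_mul_right _ (by omega)
      _ = p ^ (1 + μ) := by rw [pow_add, pow_one]

variable {p : ℕ} [hp : Fact p.Prime] {G : Type*} [Group G] [Finite G] {D T : Subgroup G}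

/-- **full order**, modulo the `q`-th powers -/
theorem exists_fullq (hD : IsPGroup p D) (hab : ∀ a ∈ D, ∀ b ∈ D, a * b = b * a)
    (hTN : T ≤ normalizer (D : Set G)) (hT : ¬ p ∣ (centralizer (D : Set G)).relIndex T)
    {m q : ℕ} (hexp : ∀ x ∈ D, (x ^ q) ^ p ^ m = 1) (hm : ∃ x ∈ D, x ^ p ^ m ≠ 1) {w : G}
    (hw : w ∈ D)
    (hreg : ∀ n ∈ T, (∃ d ∈ D, n * w * n⁻¹ * w⁻¹ = d ^ q) → n ∈ centralizer (D : Set G)) :
    ∃ w' ∈ D, w' ^ p ^ m ≠ 1 ∧
      ∀ n ∈ T, (∃ d ∈ D, n * w' * n⁻¹ * w'⁻¹ = d ^ q) → n ∈ centralizer (D : Set G) := by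
  by_cases hwm : w ^ p ^ m = 1
  swap
  · exact ⟨w, hw, hwm, hreg⟩
  obtain ⟨x, hx, hxm⟩ := hm
  have hTD : ∀ t ∈ T, ∀ d ∈ D, t * d * t⁻¹ ∈ D := fun t ht d hd =>
    (mem_normalizer_iff.1 (hTN ht) d).1 hd
  have hPD : omS hab (p ^ m) ≤ D := fun y hy => hy.1
  have hP : ∀ s ∈ T, ∀ y ∈ omS hab (p ^ m), s * y * s⁻¹ ∈ omS hab (p ^ m) := by
    rintro s hs y ⟨hy, hy1⟩
    refine ⟨hTD s hs y hy, ?_⟩
    rw [conj_pow, hy1]
    group
  set S := stC hP x with hS
  have hST : S ≤ T := fun s hs => hs.1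
  obtain ⟨y, hy, hyx, hfix⟩ := exists_fix (S := S) hD hab (fun s hs => hTD s (hST hs))
    (fun h => hT (h.trans (relIndex_dvd hTN hST))) hPD (fun s hs => hP s (hST hs)) hx
    (fun s hs => hs.2)
  have hyP : y = x * (x⁻¹ * y) := by group
  refine ⟨w * y, mul_mem hw hy, ?_, ?_⟩
  · have hc : Commute w y := hab w hw y hy
    have hc2 : Commute x (x⁻¹ * y) := hab x hx _ (hPD hyx)
    rw [hc.mul_pow, hwm, one_mul, hyP, hc2.mul_pow, hyx.2, mul_one]
    exact hxm
  · rintro n hn ⟨d, hd, e⟩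
    have hwn : n * w * n⁻¹ ∈ D := hTD n hn w hw
    have hyn : n * y * n⁻¹ ∈ D := hTD n hn y hy
    have e1 : (n * w * n⁻¹ * w⁻¹) * (n * y * n⁻¹ * y⁻¹) = d ^ q := by
      rw [← e]
      have h1 : n * (w * y) * n⁻¹ * (w * y)⁻¹ = (n * w * n⁻¹) * ((n * y * n⁻¹ * y⁻¹) * w⁻¹) := by
        group
      rw [h1, hab (n * y * n⁻¹ * y⁻¹) (mul_mem hyn (inv_mem hy)) w⁻¹ (inv_mem hw)]
      group
    -- `n` fixes the coset of `y`
    have hdP : d ^ q ∈ omS hab (p ^ m) := ⟨pow_mem hd _, hexp d hd⟩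
    have hwP : w ∈ omS hab (p ^ m) := ⟨hw, hwm⟩
    have hnw : n * w * n⁻¹ * w⁻¹ ∈ omS hab (p ^ m) := mul_mem (hP n hn w hwP) (inv_mem hwP)
    have hny : n * y * n⁻¹ * y⁻¹ ∈ omS hab (p ^ m) := by
      have h1 : n * y * n⁻¹ * y⁻¹ = (n * w * n⁻¹ * w⁻¹)⁻¹ * d ^ q := by
        rw [← e1]
        group
      rw [h1]
      exact mul_mem (inv_mem hnw) hdP
    have hnS : n ∈ S := by
      refine ⟨hn, ?_⟩
      have h1 : x = y * (x⁻¹ * y)⁻¹ := by group
      have h2 : n * x * n⁻¹ * x⁻¹ = (n * y * n⁻¹) * ((n * (x⁻¹ * y) * n⁻¹)⁻¹ * (x⁻¹ * y)) * y⁻¹ := by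
        conv_lhs => rw [h1]
        group
      have h3 : (n * (x⁻¹ * y) * n⁻¹)⁻¹ * (x⁻¹ * y) ∈ omS hab (p ^ m) :=
        mul_mem (inv_mem (hP n hn _ hyx)) hyx
      rw [h2, hab (n * y * n⁻¹) hyn _ (hPD h3), mul_assoc]
      exact mul_mem h3 hny
    have h4 : n * y * n⁻¹ * y⁻¹ = 1 := by
      rw [hfix n hnS, mul_inv_cancel]
    rw [h4, mul_one] at e1
    exact hreg n hn ⟨d, hd, e1⟩

omit hp in
/-- **the numerics**: a regular element of full order modulo the `p ^ (r - 1)`-th powers, and the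
bound for the index -/
theorem hasRegCosetH_ofB (hp : Fact p.Prime) (hp2 : 2 < p)
    (hab : ∀ a ∈ D, ∀ b ∈ D, a * b = b * a) {r m : ℕ}
    (hr : Nat.card {x : G // x ∈ D ∧ x ^ p = 1} = p ^ r) (hr3 : 3 ≤ r)
    (hm : ∀ d ∈ D, d ^ p ^ (m + 1) = 1) (hmr : facB r ≤ m + 1) {w : G}
    (hw : w ∈ D) (hwm : w ^ p ^ m ≠ 1)
    (hreg : ∀ n ∈ T, (∃ d ∈ D, n * w * n⁻¹ * w⁻¹ = d ^ p ^ (r - 1)) →
      n ∈ centralizer (D : Set G))
    (he : (centralizer (D : Set G)).relIndex T * Nat.card D < p ^ (2 * facJ r) *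
      Nat.card {u : G // u ∈ D ∧ ∀ n ∈ T, n * u * n⁻¹ = u → n ∈ centralizer (D : Set G)})
    (he' : (centralizer (D : Set G)).relIndex T ≤ p ^ (m + 1)) : HasRegCosetH p D T := by
  have hp0 : 0 < p := by omega
  have hJ : r - 1 ≤ facJ r := by
    have := P179H666.le_facJ r
    omega
  have hlev : ∀ j, 1 ≤ j → Nat.card D * p ≤ p ^ (1 + (r - 1) * j) *
      (Nat.card {y : G // ∃ d ∈ D, d ^ p ^ j = y} * p ^ min (m + 1) j) := by
    intro j hj
    have h1 := card_D_le hab hr hm j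
    have h2 : r * min (m + 1) j ≤ (r - 1) * j + min (m + 1) j := by
      have h3 : r * min (m + 1) j = (r - 1) * min (m + 1) j + min (m + 1) j := by
        obtain ⟨r', rfl⟩ : ∃ r', r = r' + 1 := ⟨r - 1, by omega⟩
        rw [Nat.add_sub_cancel]
        ring
      rw [h3]
      exact Nat.add_le_add_right (Nat.mul_le_mul_left _ (min_le_right _ _)) _
    calc Nat.card D * p ≤ (Nat.card {y : G // ∃ d ∈ D, d ^ p ^ j = y} *
          p ^ (r * min (m + 1) j)) * p := Nat.mul_le_mul_right _ h1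
      _ ≤ (Nat.card {y : G // ∃ d ∈ D, d ^ p ^ j = y} *
          p ^ ((r - 1) * j + min (m + 1) j)) * p :=
          Nat.mul_le_mul_right _ (Nat.mul_le_mul_left _ (Nat.pow_le_pow_right hp0 h2))
      _ = _ := by
          rw [pow_add, pow_add, pow_one]
          ring
  refine ⟨m, r - 1, facJ r, fun j => p ^ min (m + 1) j, w, ⟨w, hw, hwm⟩, hJ, hw,
    fun j _ i h => dvd_of_full hm hw hwm j i h, hreg, he, ?_, he'⟩
  -- the sum
  have h1 : Nat.card D * p / (Nat.card {y : G // ∃ d ∈ D, d ^ p ^ (r - 1) = y} *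
      p ^ min (m + 1) (r - 1)) ≤ p ^ (1 + (r - 1) * (r - 1)) := by
    refine Nat.div_le_of_le_mul ?_
    rw [mul_comm (_ * _) (p ^ _)]
    exact hlev (r - 1) (by omega)
  have h2 : ∀ h ∈ Finset.Ico (r - 1) (facJ r), Nat.card D * p /
      (p ^ (2 * h) * (Nat.card {y : G // ∃ d ∈ D, d ^ p ^ (h + 1) = y} *
        p ^ min (m + 1) (h + 1))) ≤ p ^ (r + (r - 3) * h) := by
    intro h _
    refine Nat.div_le_of_le_mul ?_
    refine (hlev (h + 1) (by omega)).trans (le_of_eq ?_)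
    have h3 : 1 + (r - 1) * (h + 1) = 2 * h + (r + (r - 3) * h) := by
      obtain ⟨r', rfl⟩ : ∃ r', r = r' + 3 := ⟨r - 3, by omega⟩
      have : r' + 3 - 1 = r' + 2 := by omega
      rw [this, Nat.add_sub_cancel]
      ring
    rw [h3, pow_add]
    ring
  exact (Nat.add_le_add h1 (Finset.sum_le_sum h2)).trans
    ((numB hp2 hr3).trans (Nat.pow_le_pow_right hp0 hmr))

/-- **the data of the height-refined bound for the thresholds `facB`**, given the regular cosets of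
the homocyclic groups -/
theorem hasRegCosetH_of_growB (hp2 : 2 < p) {r : ℕ} (hG : GrowBy facB p D)
    (hab : ∀ a ∈ D, ∀ b ∈ D, a * b = b * a) (hD : IsPGroup p D)
    (hTN : T ≤ normalizer (D : Set G)) (hT : ¬ p ∣ (centralizer (D : Set G)).relIndex T)
    (hr : Nat.card {x : G // x ∈ D ∧ x ^ p = 1} = p ^ r) (hr3 : 3 ≤ r)
    (hhom : ∀ n, (∀ x ∈ D, x ^ p = 1 → ∃ y ∈ D, y ^ p ^ n = x) →
      (∀ d ∈ D, d ^ p ^ (n + 1) = 1) → r - 1 ≤ n + 1 →
      ∃ w ∈ D, ∀ t ∈ T, (∃ d ∈ D, t * w * t⁻¹ * w⁻¹ = d ^ p ^ (r - 1)) →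
        t ∈ centralizer (D : Set G)) : HasRegCosetH p D T := by
  obtain ⟨d, hd, hanti, hex, hne⟩ := exists_ranks hD hab
  have hd0 : d 0 = r := by
    have h1 := hd 0
    have h2 : Nat.card {x // (∃ y ∈ D, y ^ p ^ 0 = x) ∧ x ^ p = 1} =
        Nat.card {x : G // x ∈ D ∧ x ^ p = 1} := by
      refine Nat.card_congr (Equiv.subtypeEquivRight fun x => and_congr_left fun _ => ?_)
      constructor
      · rintro ⟨y, hy, rfl⟩
        exact pow_mem hy _
      · intro hx
        exact ⟨x, hx, by rw [pow_zero, pow_one]⟩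
    rw [h2, hr] at h1
    exact (Nat.pow_right_injective hp.out.two_le h1).symm
  -- the largest exponent
  classical
  obtain ⟨m, hdm, hdm1⟩ : ∃ m, 1 ≤ d m ∧ d (m + 1) = 0 := by
    have h1 := Nat.find_spec hex
    have h2 : Nat.find hex ≠ 0 := by
      intro h
      rw [h, hd0] at h1
      omega
    refine ⟨Nat.find hex - 1, ?_, ?_⟩
    · have h3 := Nat.find_min hex (m := Nat.find hex - 1) (by omega)
      omega
    · have h3 : Nat.find hex - 1 + 1 = Nat.find hex := by omega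
      rw [h3]
      exact h1
  -- the class
  have hcls : ∀ i, 1 ≤ i → r ≤ i - 1 + d (facB i - 1) := by
    intro i hi
    have h1 := hG i hi
    rw [hr, hd, ← pow_add] at h1
    exact (Nat.pow_le_pow_iff_right hp.out.one_lt).1 h1
  have hNm : facB r ≤ m + 1 := by
    by_contra hcon
    have h1 := hcls r (by omega)
    have h2 := hanti (m + 1) (facB r - 1) (by omega)
    omega
  -- the exponent
  have hexp : ∀ x ∈ D, x ^ p ^ (m + 1) = 1 := by
    intro x hx
    by_contra hcon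
    obtain ⟨a, ha⟩ := hD ⟨x, hx⟩
    have ha' : x ^ p ^ a = 1 := by simpa using congrArg Subtype.val ha
    -- the last non-trivial power
    have hex2 : ∃ a, x ^ p ^ a = 1 := ⟨a, ha'⟩
    have h1 := Nat.find_spec hex2
    have h2 : m + 1 < Nat.find hex2 := by
      rw [Nat.lt_find_iff]
      intro c hc h3
      apply hcon
      obtain ⟨c', hc'⟩ := Nat.exists_eq_add_of_le hc
      rw [hc', pow_add, pow_mul, h3, one_pow]
    have h3 := Nat.find_min hex2 (m := Nat.find hex2 - 1) (by omega)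
    have h4 : Nat.find hex2 = Nat.find hex2 - 1 + 1 := by omega
    rw [h4, pow_succ, pow_mul] at h1
    have h5 : Nat.card {x // (∃ y ∈ D, y ^ p ^ (m + 1) = x) ∧ x ^ p = 1} = 1 := by
      rw [hd, hdm1, pow_zero]
    rw [Nat.card_eq_one_iff_unique] at h5
    have h6 := h5.1.elim ⟨1, ⟨1, one_mem _, one_pow _⟩, one_pow _⟩
      ⟨x ^ p ^ (Nat.find hex2 - 1), ⟨x ^ p ^ (Nat.find hex2 - 1 - (m + 1)), pow_mem hx _, by
        rw [← pow_mul, ← pow_add]
        congr 2
        omega⟩, h1⟩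
    exact h3 (congrArg Subtype.val h6).symm
  have hexm : ∃ x ∈ D, x ^ p ^ m ≠ 1 := hne m hdm
  have hr1m : r - 1 ≤ m := by
    have := le_facB r
    omega
  have hexpq : ∀ x ∈ D, (x ^ p ^ (r - 1)) ^ p ^ m = 1 := by
    intro x hx
    rw [← pow_mul, ← pow_add]
    have h1 : r - 1 + m = (m + 1) + (r - 1 + m - (m + 1)) := by omega
    rw [h1, pow_add, pow_mul, hexp x hx, one_pow]
  set j := facJ r with hj
  have hrj : r ≤ j := P179H666.le_facJ r
  have h4 : r * (r + 1) ≤ 4 * j := P179H666.mul_le_facJ r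
  have hjB : j ≤ facB r := facJ_le_facB hr3
  have hri : ∀ i < m + 1, d i ≤ d (i + 1) + (i + 1) := by
    intro i _
    by_contra hcon
    push Not at hcon
    have h1 := hanti 0 i (by omega)
    rw [hd0] at h1
    obtain ⟨q, hq⟩ : ∃ q, r = q + d (i + 1) := ⟨r - d (i + 1), by omega⟩
    have hq1 : 1 ≤ q := by omega
    have h2 := hcls q hq1
    have h3 := le_facB q
    by_cases h5 : facB q ≤ i + 1
    · omega
    · have h6 := hanti (i + 1) (facB q - 1) (by omega)
      omega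
  set e := (centralizer (D : Set G)).relIndex T with he
  -- the index
  have he' : e ≤ p ^ (m + 1) := by
    obtain ⟨c, hc1, hc2, hc3⟩ := prod_le p r (by omega)
    have hcB := tri_le_facB hr3 hc2
    refine (P179H843.relIndex_le_prod hD hab hTN hT hr).trans (hc3.trans ?_)
    calc (p - 1) * p ^ (c - 1) ≤ p * p ^ (c - 1) := Nat.mul_le_mul_right _ (Nat.sub_le _ _)
      _ = p ^ (c - 1 + 1) := by rw [pow_succ']
      _ ≤ p ^ (m + 1) := Nat.pow_le_pow_right hp.out.pos (by omega)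
  have hD0 : 0 < Nat.card D := Nat.card_pos
  have hp1 : 0 < (p - 1) ^ r := pow_pos (by omega) _
  rcases Nat.lt_or_ge (d m) r with hs | hs
  · -- not homocyclic
    have hcount := card_reg_ge hD hab hTN hT hd hdm1 hdm (by omega : 1 ≤ j) (by omega) hri
      (fun i _ => by
        have h1 := hanti 0 i (by omega)
        omega)
    have hcount1 := card_reg_ge hD hab hTN hT hd hdm1 hdm (by omega : 1 ≤ r - 1) (by omega) hri
      (fun i hi => by
        have h1 := hanti 0 i (by omega)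
        rcases Nat.lt_or_ge i m with h2 | h2
        · have h3 := hanti (i + 1) m (by omega)
          omega
        · have h3 : i = m := by omega
          rw [h3]
          omega)
    rw [hd0] at hcount hcount1
    set A := Nat.card {w : G // w ∈ D ∧ (∀ i : ℕ, (∃ d ∈ D, w ^ i = d ^ p ^ j) → p ^ j ∣ i) ∧
        (∀ t ∈ T, (∃ d ∈ D, t * w * t⁻¹ * w⁻¹ = d ^ p ^ j) → t ∈ centralizer (D : Set G))} with hA
    have hA0 : 0 < A := by
      by_contra hcon
      have h1 : A = 0 := by omega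
      rw [h1, mul_zero] at hcount
      have := Nat.mul_pos hp1 hD0
      omega
    have hA1 : 0 < Nat.card {w : G // w ∈ D ∧
        (∀ i : ℕ, (∃ d ∈ D, w ^ i = d ^ p ^ (r - 1)) → p ^ (r - 1) ∣ i) ∧
        (∀ t ∈ T, (∃ d ∈ D, t * w * t⁻¹ * w⁻¹ = d ^ p ^ (r - 1)) →
          t ∈ centralizer (D : Set G))} := by
      rw [Nat.pos_iff_ne_zero]
      intro h1
      rw [h1, mul_zero] at hcount1
      have := Nat.mul_pos hp1 hD0
      omega
    obtain ⟨⟨w, hw, -, hreg⟩⟩ := (Nat.card_pos_iff.1 hA1).1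
    obtain ⟨w', hw', hwm', hreg'⟩ := exists_fullq hD hab hTN hT hexpq hexm hw hreg
    refine hasRegCosetH_ofB hp hp2 hab hr hr3 hexp hNm hw' hwm' hreg' ?_ he'
    have hE := relIndex_le_two hD hab hTN hT hr (hd m)
    have h1 := P179H666.lemma_CQ hp2 hdm hs h4 hE
    have h2 : e * Nat.card D * (p - 1) ^ r < p ^ (2 * j) * A * (p - 1) ^ r := by
      calc e * Nat.card D * (p - 1) ^ r = e * ((p - 1) ^ r * Nat.card D) := by ring
        _ ≤ e * (p ^ r * A) := Nat.mul_le_mul_left _ hcount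
        _ = e * p ^ r * A := by ring
        _ < p ^ (2 * j) * (p - 1) ^ r * A := Nat.mul_lt_mul_of_pos_right h1 hA0
        _ = p ^ (2 * j) * A * (p - 1) ^ r := by ring
    have h3 := Nat.lt_of_mul_lt_mul_right h2
    exact h3.trans_le (Nat.mul_le_mul_left _ card_good_le)
  · -- homocyclic
    have hs' : d m = r := le_antisymm (hd0 ▸ hanti 0 m (Nat.zero_le m)) hs
    have hdiv : ∀ x ∈ D, x ^ p = 1 → ∃ y ∈ D, y ^ p ^ m = x := by
      have h1 : {x : G | (∃ y ∈ D, y ^ p ^ m = x) ∧ x ^ p = 1} = {x : G | x ∈ D ∧ x ^ p = 1} := by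
        refine Set.eq_of_subset_of_ncard_le ?_ ?_ (Set.toFinite _)
        · rintro x ⟨⟨y, hy, rfl⟩, hx⟩
          exact ⟨pow_mem hy _, hx⟩
        · have h2 := hd m
          rw [hs', ← hr] at h2
          exact h2.ge
      intro x hx hx1
      have h2 : x ∈ {x : G | (∃ y ∈ D, y ^ p ^ m = x) ∧ x ^ p = 1} := by
        rw [h1]
        exact ⟨hx, hx1⟩
      exact h2.1
    obtain ⟨w, hw, hreg⟩ := hhom m hdiv hexp (by omega)
    obtain ⟨w', hw', hwm', hreg'⟩ := exists_fullq hD hab hTN hT hexpq hexm hw hreg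
    refine hasRegCosetH_ofB hp hp2 hab hr hr3 hexp hNm hw' hwm' hreg' ?_ he'
    rcases Nat.eq_or_lt_of_le hr3 with h5 | h5
    · -- rank three
      subst h5
      have hB3 : facB 3 = 6 := by decide
      have hJ3 : facJ 3 = 3 := by decide
      rw [hB3] at hNm
      have hq : (3 : ℕ) - 1 = 2 := rfl
      rw [hq] at hreg'
      have hcnt := P179H450.orbit_count_lt hab hTN (q := p ^ 2) (M := p ^ (m - 1)) hw' hreg'
        (fun x hx => by
          rw [← pow_add]
          have h6 : 2 + (m - 1) = m + 1 := by omega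
          rw [h6]
          exact hexp x hx)
        (fun h => hwm' (by
          have h6 : m = (m - 1) + 1 := by omega
          rw [h6, pow_succ, pow_mul, h, one_pow]))
        (w' := w' ^ p ^ 2) (pow_mem hw' _)
        (fun t ht h => by
          have htw : t * w' * t⁻¹ ∈ D := (mem_normalizer_iff.1 (hTN ht) w').1 hw'
          have hx : t * w' * t⁻¹ * w'⁻¹ ∈ D := mul_mem htw (inv_mem hw')
          have hc : Commute (t * w' * t⁻¹) w'⁻¹ := hab _ htw _ (inv_mem hw')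
          have h6 : (t * w' * t⁻¹ * w'⁻¹) ^ p ^ 2 = 1 := by
            rw [hc.mul_pow, conj_pow, h, inv_pow, mul_inv_cancel]
          obtain ⟨y, hy, hyx⟩ := om_le_pw hab hdiv (i := 2) (by omega) hx h6
          have h7 : y ^ p ^ 3 = 1 := by
            rw [pow_succ', pow_mul, hyx]
            exact h6
          obtain ⟨z, hz, hzy⟩ := om_le_pw hab hdiv (i := 3) (by omega) hy h7
          refine hreg' t ht ⟨z, hz, ?_⟩
          rw [← hyx, ← hzy, ← pow_mul, sq])
        (by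
          rw [← pow_mul, ← pow_add]
          have h6 : 2 + (m - 1) = m + 1 := by omega
          rw [h6]
          exact hexp w' hw')
      have hDle := card_le_pw hab hr 2
      calc e * Nat.card D ≤ e * (Nat.card {y : G // ∃ d ∈ D, d ^ p ^ 2 = y} * p ^ (3 * 2)) :=
            Nat.mul_le_mul_left _ hDle
        _ = p ^ (3 * 2) * (e * Nat.card {y : G // ∃ d ∈ D, d ^ p ^ 2 = y}) := by ring
        _ < p ^ (3 * 2) * _ := Nat.mul_lt_mul_of_pos_left hcnt (pow_pos hp.out.pos _)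
        _ = _ := by rw [hJ3]
    · have hE := P179H843.relIndex_le_prod hD hab hTN hT hr
      have h6 := two_facJ_lt (r := r) h5
      exact regular_count hD hab hTN hT (pow_pos hp.out.pos _)
        (by rw [Nat.add_sub_cancel]; exact hdiv)
        (arith' hp.out.one_le (by omega) hrj h4 (n := m + 1) (by omega)
          (Or.inr (Or.inr (by omega))) hE)

end P179H12
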