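import Mathlib

/-!
# The data of a regular coset at a low level and a high level for the index
-/

namespace P179H12

open Subgroup

/-- the data of a regular coset at the level `j₀`, with the condition for the index at the
level `J` -/
def HasRegCosetH (p : ℕ) {G : Type*} [Group G] (D T : Subgroup G) : Prop :=
  ∃ (a j₀ J : ℕ) (o : ℕ → ℕ) (w : G), (∃ d ∈ D, d ^ p ^ a ≠ 1) ∧ j₀ ≤ J ∧ w ∈ D ∧
    (∀ j, j₀ ≤ j → ∀ i : ℕ, (∃ d ∈ D, w ^ i = d ^ p ^ j) → o j ∣ i) ∧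
    (∀ n ∈ T, (∃ d ∈ D, n * w * n⁻¹ * w⁻¹ = d ^ p ^ j₀) → n ∈ centralizer (D : Set G)) ∧
    (centralizer (D : Set G)).relIndex T * Nat.card D < p ^ (2 * J) *
      Nat.card {u : G // u ∈ D ∧ ∀ n ∈ T, n * u * n⁻¹ = u → n ∈ centralizer (D : Set G)} ∧
    Nat.card D * p / (Nat.card {y : G // ∃ d ∈ D, d ^ p ^ j₀ = y} * o j₀) +
      ∑ h ∈ Finset.Ico j₀ J, Nat.card D * p /
        (p ^ (2 * h) * (Nat.card {y : G // ∃ d ∈ D, d ^ p ^ (h + 1) = y} * o (h + 1))) ≤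
      p ^ (a + 1) ∧
    (centralizer (D : Set G)).relIndex T ≤ p ^ (a + 1)

end P179H12
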