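import Vale.Agent.P179.R2.H12.Cov

/-!
# The stabiliser of the block of `C_G(R)`, and the number of simple modules of nilpotent blocks
-/

namespace P179H12

open Subgroup Finset P179H524 P179C P179A P179P P179Y

open scoped Classical

universe u

section

variable {p : ℕ} [hp : Fact p.Prime] {k : Type u} [Field k] [IsAlgClosed k] [CharP k p]
  {G : Type} [Group G] [Fintype G] {D H : Subgroup G} {l : (G → k) → k}

/-- **one simple module** -/
theorem numSimple_eq_one (red : integralClosure ℤ ℂ →+* k) (hl : BP p D l) (hD : IsPGroup p D)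
    (hab : D ≤ centralizer (D : Set G)) (hT : stabT D l ≤ centralizer (D : Set G))
    {B : MonoidAlgebra k G} (hB : IsBlock B)
    (hlz : ∀ z : G → k, IsCF z → l z = centralChar B (mkF z)) : numSimpleIn B = 1 := by
  obtain ⟨φ, hφ⟩ := thmNT p red G D l hl hD hab hT
  exact le_antisymm (P179I.numSimple_le_one hφ hB (inL_iff red hB hlz)) (numSimpleIn_pos B hB)

theorem BP.mulH (hl : BP p D l) (hD : IsPGroup p D) (hab : D ≤ centralizer (D : Set G))
    (hCH : centralizer (D : Set G) ≤ H) : MulH H l where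
  add := hl.add
  smul := hl.smul
  one := hl.one
  mul a b ha hb := hl.mul' hD hab (fun c hc => ha.1 c (hCH hc)) fun c hc => hb.1 c (hCH hc)

/-- **one simple module**, for the block below a pair -/
theorem numSimple_low (red : integralClosure ℤ ℂ →+* k) (hl : BP p D l) (hD : IsPGroup p D)
    (hab : D ≤ centralizer (D : Set G)) (hDH : D ≤ H) (hCH : centralizer (D : Set G) ≤ H)
    (hnil : ∀ n ∈ stabT D l, n ∈ H → n ∈ centralizer (D : Set G))
    {b : MonoidAlgebra k H} (hb : IsBlock b) (hlb : Low H l b) : numSimpleIn b = 1 := by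
  have habH : D.subgroupOf H ≤ centralizer ((D.subgroupOf H : Subgroup H) : Set H) := by
    intro x hx
    rw [mem_cent_subgroupOf hDH]
    exact hab (by simpa [Subgroup.mem_subgroupOf] using hx)
  refine numSimple_eq_one red (hl.restrict hDH hCH) hD.comap_subtype habH ?_ hb ?_
  · intro n hn
    rw [mem_stabT_lres hDH hCH] at hn
    rw [mem_cent_subgroupOf hDH]
    exact hnil n hn n.2
  · intro z hz
    unfold lres
    rw [hlb _ (invOn_ext0 hz)]
    congr 2
    funext h
    exact ext_coe H z h

omit [IsAlgClosed k] [CharP k p] hp in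
/-- the stabiliser of the pair stabilises the block of `H` -/
theorem stabT_le_stH (hl : BP p D l) (hCH : centralizer (D : Set G) ≤ H) {n : G}
    (hn : n ∈ stabT D l) (hnH : n ∈ normalizer (H : Set G)) : n ∈ stH H l := by
  refine ⟨hnH, fun z hz => ?_⟩
  have hinv : InvOn (centralizer (D : Set G)) (cutC D z) :=
    invOn_cutC D fun c hc => hz.1 c (hCH hc)
  have h1 := hn.2 _ hinv
  rw [hl.cut z] at h1
  rw [← h1]
  refine hl.congr fun x hx => ?_
  unfold cj cutC
  rw [if_pos]
  have := (conj_mem_cent (inv_mem hn.1) x).2 hx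
  simpa using this

omit [IsAlgClosed k] [Fintype G] in
theorem le_stH : H ≤ stH H l := by
  intro h hh
  refine ⟨le_normalizer hh, fun z hz => ?_⟩
  rw [cj_eq_of_inv fun x => hz.1 h hh x]

/-- **(F2)** `T = C T_D` -/
theorem exists_stab (hl : BP p D l) (hD : IsPGroup p D) (hab : D ≤ centralizer (D : Set G))
    (hT : ¬ p ∣ (centralizer (D : Set G)).relIndex (stabT D l)) (hDH : D ≤ H)
    (hCH : centralizer (D : Set G) ≤ H) {g : G} (hg : g ∈ stH H l) :
    ∃ c ∈ H, c⁻¹ * g ∈ stabT D l := by
  refine fusionH hl hD hab hDH hCH (fun h => hT (h.trans (relIndex_stabT_lres_dvd hDH hCH)))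
    (fun d hd => (mem_normalizer_iff.1 hg.1 d).1 (hDH hd)) fun z hz => ?_
  exact (inv_mem hg : g⁻¹ ∈ stH H l).2 z hz

theorem stH_eq_sup [hHn : H.Normal] (hl : BP p D l) (hD : IsPGroup p D)
    (hab : D ≤ centralizer (D : Set G))
    (hT : ¬ p ∣ (centralizer (D : Set G)).relIndex (stabT D l)) (hDH : D ≤ H)
    (hCH : centralizer (D : Set G) ≤ H) : stH H l = stabT D l ⊔ H := by
  have hN : ∀ g : G, g ∈ normalizer (H : Set G) := by
    intro g
    rw [normalizer_eq_top]
    exact mem_top g
  apply le_antisymm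
  · intro g hg
    obtain ⟨c, hc, hn⟩ := exists_stab hl hD hab hT hDH hCH hg
    have h1 : g = c * (c⁻¹ * g) := by group
    rw [h1]
    exact mul_mem (mem_sup_right hc) (mem_sup_left hn)
  · exact sup_le (fun n hn => stabT_le_stH hl hCH hn (hN n)) le_stH

/-- **(F2)** the index -/
theorem relIndex_stH [hHn : H.Normal] (hl : BP p D l) (hD : IsPGroup p D)
    (hab : D ≤ centralizer (D : Set G))
    (hT : ¬ p ∣ (centralizer (D : Set G)).relIndex (stabT D l)) (hDH : D ≤ H)
    (hCH : centralizer (D : Set G) ≤ H)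
    (hnil : ∀ n ∈ stabT D l, n ∈ H → n ∈ centralizer (D : Set G)) :
    H.relIndex (stH H l) = (centralizer (D : Set G)).relIndex (stabT D l) := by
  rw [stH_eq_sup hl hD hab hT hDH hCH, relIndex_sup_right, ← inf_relIndex_right]
  congr 1
  apply le_antisymm
  · intro x hx
    exact hnil x hx.2 hx.1
  · exact le_inf hCH (cent_le_stabT D l)

end

end P179H12
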