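import Vale.Agent.P179.R2.H12.RegB
import Vale.Agent.P179.R2.H46.RegB3
import Vale.Agent.P179.R2.H450.Ab3

/-!
# The height-refined data for the thresholds `facB`, for all groups of automorphisms
-/

namespace P179H12

open P179B (facB)

/-- **the data of the height-refined bound for the thresholds `facB`** -/
theorem regHAll_facB {p : ℕ} [hp : Fact p.Prime] (hp2 : 2 < p) : P179H450.RegHAll facB p := by
  intro X _ _ D T r hG hab hD hTN hT hr hr3
  refine hasRegCosetH_of_growB hp2 hG hab hD hTN hT hr hr3 fun n hdiv hexp hn => ?_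
  obtain ⟨w, hw, -, h⟩ := P179H46.Base.exists_reg_homB hD hab hTN hT hr3 hr hdiv hexp hn
  exact ⟨w, hw, h⟩

end P179H12
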