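import Vale.Agent.P179.R2.H450.Ab4
import Vale.Agent.P179.R2.H364.ActT

/-!
# Groups of automorphisms of order less than `p`

If `e < p` and the `i`-th smallest cyclic factor of `D` is at least `p ^ i` then there is a regular
coset at the level one.
-/

namespace P179H12

open Subgroup P179H524 P179R P179Y MonoidAlgebra P179H292 P179H92 P179H351 P179H666

open P179B (GrowBy)

open scoped Classical

universe u

section

variable {p : ℕ} [hp : Fact p.Prime] {G : Type*} [Group G] [Finite G] {D T : Subgroup G}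

omit hp [Finite G] in
theorem rel_ne_zero [Finite G] (A B : Subgroup G) : A.relIndex B ≠ 0 := by
  unfold Subgroup.relIndex Subgroup.index
  exact Nat.card_pos.ne'

/-- the elements of `D` fixed by `t` modulo the `p`-th powers -/
def fixP (hab : ∀ a ∈ D, ∀ b ∈ D, a * b = b * a) (p : ℕ) {t : G}
    (ht : ∀ d ∈ D, t * d * t⁻¹ ∈ D) : Subgroup G where
  carrier := {x | x ∈ D ∧ t * x * t⁻¹ * x⁻¹ ∈ pwS hab p}
  one_mem' := ⟨one_mem _, by
    have : t * 1 * t⁻¹ * 1⁻¹ = 1 := by group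
    rw [this]
    exact one_mem _⟩
  mul_mem' := by
    rintro a b ⟨ha, ha'⟩ ⟨hb, hb'⟩
    refine ⟨mul_mem ha hb, ?_⟩
    have h1 : t * (a * b) * t⁻¹ * (a * b)⁻¹ = (t * a * t⁻¹) * (t * b * t⁻¹ * b⁻¹) * a⁻¹ := by group
    rw [h1, hab _ (ht a ha) _ (P179H92.pwS_le hab p hb'), mul_assoc]
    exact mul_mem hb' ha'
  inv_mem' := by
    rintro a ⟨ha, ha'⟩
    refine ⟨inv_mem ha, ?_⟩
    have h1 : t * a⁻¹ * t⁻¹ * a⁻¹⁻¹ = (t * a * t⁻¹)⁻¹ * a := by group
    rw [h1, hab _ (inv_mem (ht a ha)) _ ha]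
    have h2 := inv_mem ha'
    have h3 : (t * a * t⁻¹ * a⁻¹)⁻¹ = a * (t * a * t⁻¹)⁻¹ := by group
    rwa [h3] at h2

/-- **the regular elements modulo the `p`-th powers**, for `e < p` -/
theorem card_good_small (hD : IsPGroup p D) (hab : ∀ a ∈ D, ∀ b ∈ D, a * b = b * a)
    (hTN : T ≤ normalizer (D : Set G)) (hT : ¬ p ∣ (centralizer (D : Set G)).relIndex T)
    (he : (centralizer (D : Set G)).relIndex T < p) {r : ℕ} (hr1 : 1 ≤ r)
    (hr : Nat.card {x : G // x ∈ D ∧ x ^ p = 1} = p ^ r) :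
    Nat.card D ≤ p * Nat.card {w : G // w ∈ D ∧ w ∉ pwS hab p ∧
      ∀ t ∈ T, t * w * t⁻¹ * w⁻¹ ∈ pwS hab p → t ∈ centralizer (D : Set G)} := by
  have hTD : ∀ t ∈ T, ∀ d ∈ D, t * d * t⁻¹ ∈ D := fun t ht d hd =>
    (mem_normalizer_iff.1 (hTN ht) d).1 hd
  set C : Subgroup G := centralizer (D : Set G) with hC
  set A : Set G := {w | w ∈ D ∧ w ∉ pwS hab p ∧
      ∀ t ∈ T, t * w * t⁻¹ * w⁻¹ ∈ pwS hab p → t ∈ C} with hA
  let F : T ⧸ C.subgroupOf T → Subgroup G := fun q =>
    fixP hab p (hTD (q.out : T) (q.out : T).2)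
  have := Fintype.ofFinite (T ⧸ C.subgroupOf T)
  let s : Finset (T ⧸ C.subgroupOf T) := Finset.univ.erase ((1 : T) : T ⧸ C.subgroupOf T)
  -- the cover
  have hcov : (D : Set G) ⊆ (A ∪ (pwS hab p : Set G)) ∪ ⋃ q ∈ s, (F q : Set G) := by
    intro w hw
    by_cases h1 : w ∈ pwS hab p
    · exact Or.inl (Or.inr h1)
    by_cases h2 : ∀ t ∈ T, t * w * t⁻¹ * w⁻¹ ∈ pwS hab p → t ∈ C
    · exact Or.inl (Or.inl ⟨hw, h1, h2⟩)
    · push Not at h2
      obtain ⟨t, ht, htw, htC⟩ := h2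
      refine Or.inr ?_
      rw [Set.mem_iUnion₂]
      refine ⟨((⟨t, ht⟩ : T) : T ⧸ C.subgroupOf T), ?_, hw, ?_⟩
      · rw [Finset.mem_erase]
        refine ⟨fun h => htC ?_, Finset.mem_univ _⟩
        have h3 := QuotientGroup.eq.1 h
        rw [mem_subgroupOf] at h3
        simpa using h3
      · set u : T := (((⟨t, ht⟩ : T) : T ⧸ C.subgroupOf T)).out with hu
        have h3 : (u : G)⁻¹ * t ∈ C := by
          have h4 := QuotientGroup.eq.1 (Quotient.out_eq' ((⟨t, ht⟩ : T) : T ⧸ C.subgroupOf T))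
          rw [mem_subgroupOf] at h4
          exact h4
        have h5 : (u : G) * w * (u : G)⁻¹ = t * w * t⁻¹ := by
          have h6 := mem_centralizer_iff.1 h3 w hw
          have h7 : t * w * t⁻¹ = (u : G) * (((u : G)⁻¹ * t) * w) * ((u : G)⁻¹ * t)⁻¹ *
              (u : G)⁻¹ := by group
          rw [h7, ← h6]
          group
        change (u : G) * w * (u : G)⁻¹ * w⁻¹ ∈ pwS hab p
        rw [h5]
        exact htw
  -- the sizes
  have hp0 : 0 < p := hp.out.pos
  have hDc : Nat.card D = Nat.card (pwS hab p) * p ^ r := by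
    have h3 := card_eq_mul hab p
    have h4 : Nat.card (omS hab p) = Nat.card {x : G // x ∈ D ∧ x ^ p = 1} := rfl
    rw [h4, hr] at h3
    exact h3
  have hpw : p * Nat.card (pwS hab p) ≤ Nat.card D := by
    rw [hDc, mul_comm]
    refine Nat.mul_le_mul_left _ ?_
    calc p = p ^ 1 := (pow_one p).symm
      _ ≤ p ^ r := Nat.pow_le_pow_right hp0 hr1
  have hFle : ∀ q ∈ s, p * Nat.card (F q) ≤ Nat.card D := by
    intro q hq
    have h1 : ∃ v ∈ D, v ∉ F q := by
      by_contra hcon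
      push Not at hcon
      have h2 : ((q.out : T) : G) ∈ C :=
        centralises_of_frattini hD hab hTN hT (q.out : T).2 fun x hx => (hcon x hx).2
      apply Finset.ne_of_mem_erase hq
      rw [← q.out_eq']
      refine QuotientGroup.eq.2 ?_
      rw [mem_subgroupOf]
      have h3 : ((((q.out : T)⁻¹ * 1 : T)) : G) = ((q.out : T) : G)⁻¹ := by
        rw [mul_one]
        rfl
      rw [h3]
      exact inv_mem h2
    obtain ⟨v, hv, hvn⟩ := h1
    exact P179H92.mul_card_le hD (fun x hx => hx.1) hv hvn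
  have h1 : Nat.card D ≤ (Nat.card A + Nat.card (pwS hab p)) + ∑ q ∈ s, Nat.card (F q) := by
    calc Nat.card D = (D : Set G).ncard := rfl
      _ ≤ ((A ∪ (pwS hab p : Set G)) ∪ ⋃ q ∈ s, (F q : Set G)).ncard :=
          Set.ncard_le_ncard hcov (Set.toFinite _)
      _ ≤ (A ∪ (pwS hab p : Set G)).ncard + (⋃ q ∈ s, (F q : Set G)).ncard :=
          Set.ncard_union_le _ _
      _ ≤ (A.ncard + (pwS hab p : Set G).ncard) + ∑ q ∈ s, (F q : Set G).ncard :=
          Nat.add_le_add (Set.ncard_union_le _ _) (Finset.set_ncard_biUnion_le _ _)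
      _ = _ := rfl
  have hs : s.card + 1 = C.relIndex T := by
    have h2 : s.card = Fintype.card (T ⧸ C.subgroupOf T) - 1 := by
      rw [Finset.card_erase_of_mem (Finset.mem_univ _), Finset.card_univ]
    have h3 : 0 < Fintype.card (T ⧸ C.subgroupOf T) := Fintype.card_pos
    have h4 : C.relIndex T = Fintype.card (T ⧸ C.subgroupOf T) := by
      rw [← Nat.card_eq_fintype_card]
      rfl
    rw [h4, h2]
    omega
  have h2 : p * ∑ q ∈ s, Nat.card (F q) ≤ s.card * Nat.card D := by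
    rw [Finset.mul_sum]
    refine (Finset.sum_le_sum hFle).trans ?_
    rw [Finset.sum_const, smul_eq_mul]
  have h3 : p * Nat.card D ≤ p * Nat.card A + C.relIndex T * Nat.card D := by
    calc p * Nat.card D ≤ p * ((Nat.card A + Nat.card (pwS hab p)) +
          ∑ q ∈ s, Nat.card (F q)) := Nat.mul_le_mul_left _ h1
      _ = p * Nat.card A + p * Nat.card (pwS hab p) + p * ∑ q ∈ s, Nat.card (F q) := by ring
      _ ≤ p * Nat.card A + Nat.card D + s.card * Nat.card D :=
          Nat.add_le_add (Nat.add_le_add_left hpw _) h2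
      _ = p * Nat.card A + (s.card + 1) * Nat.card D := by ring
      _ = _ := by rw [hs]
  have h4 : (C.relIndex T + 1) * Nat.card D ≤ p * Nat.card D := Nat.mul_le_mul_right _ he
  have h5 : Nat.card A = Nat.card {w : G // w ∈ D ∧ w ∉ pwS hab p ∧
      ∀ t ∈ T, t * w * t⁻¹ * w⁻¹ ∈ pwS hab p → t ∈ C} := rfl
  rw [← h5]
  rw [add_mul, one_mul] at h4
  omega

omit [Finite G] in
/-- the order modulo the `p`-th powers -/
theorem dvd_of_not_mem (hD : IsPGroup p D) (hab : ∀ a ∈ D, ∀ b ∈ D, a * b = b * a) {w : G}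
    (hw : w ∈ D) (hwp : w ∉ pwS hab p) (m : ℕ) (hm : w ^ m ∈ pwS hab p) : p ∣ m := by
  by_contra hpm
  apply hwp
  obtain ⟨a, ha⟩ := hD ⟨w, hw⟩
  have ha' : w ^ p ^ a = 1 := by simpa using congrArg Subtype.val ha
  have hcop : m.Coprime (orderOf w) :=
    (((Nat.Prime.coprime_iff_not_dvd hp.out).2 hpm).symm.pow_right a).coprime_dvd_right
      (orderOf_dvd_of_pow_eq_one ha')
  obtain ⟨m', hm'⟩ := exists_pow_eq_self_of_coprime hcop
  rw [← hm']
  exact pow_mem hm _

/-- **the regular coset** for `e < p` -/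
theorem hasRegCoset_small (hD : IsPGroup p D) (hab : ∀ a ∈ D, ∀ b ∈ D, a * b = b * a)
    (hTN : T ≤ normalizer (D : Set G)) (hT : ¬ p ∣ (centralizer (D : Set G)).relIndex T)
    (he : (centralizer (D : Set G)).relIndex T < p) {r : ℕ} (hr1 : 1 ≤ r)
    (hr : Nat.card {x : G // x ∈ D ∧ x ^ p = 1} = p ^ r) (hex : ∃ x ∈ D, x ^ p ^ (r - 1) ≠ 1) :
    HasRegCoset p D T := by
  have hp0 : 0 < p := hp.out.pos
  have hcard := card_good_small hD hab hTN hT he hr1 hr
  have hD0 : 0 < Nat.card D := Nat.card_pos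
  set A := Nat.card {w : G // w ∈ D ∧ w ∉ pwS hab p ∧
      ∀ t ∈ T, t * w * t⁻¹ * w⁻¹ ∈ pwS hab p → t ∈ centralizer (D : Set G)} with hA
  have hA0 : 0 < A := by
    rw [Nat.pos_iff_ne_zero]
    intro h
    rw [h, mul_zero] at hcard
    omega
  obtain ⟨⟨w, hw, hwp, hreg⟩⟩ := (Nat.card_pos_iff.1 hA0).1
  have hDc : Nat.card D = Nat.card (pwS hab p) * p ^ r := by
    have h3 := card_eq_mul hab p
    have h4 : Nat.card (omS hab p) = Nat.card {x : G // x ∈ D ∧ x ^ p = 1} := rfl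
    rw [h4, hr] at h3
    exact h3
  have hAle : A ≤ Nat.card {u : G // u ∈ D ∧ ∀ n ∈ T, n * u * n⁻¹ = u →
      n ∈ centralizer (D : Set G)} := by
    refine Nat.card_mono (Set.toFinite {u : G | u ∈ D ∧ ∀ n ∈ T, n * u * n⁻¹ = u →
      n ∈ centralizer (D : Set G)}) ?_
    rintro u ⟨hu, -, h⟩
    refine ⟨hu, fun n hn hnu => h n hn ?_⟩
    rw [hnu, mul_inv_cancel]
    exact one_mem _
  refine ⟨r - 1, 1, p, w, hex, le_rfl, hw, hp0, ?_, ?_, ?_, ?_, ?_⟩
  · rintro i ⟨d, hd, e⟩
    rw [pow_one] at e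
    exact dvd_of_not_mem hD hab hw hwp i ⟨d, hd, e.symm⟩
  · rintro n hn ⟨d, hd, e⟩
    rw [pow_one] at e
    exact hreg n hn ⟨d, hd, e.symm⟩
  · calc (centralizer (D : Set G)).relIndex T * Nat.card D < p * Nat.card D :=
          Nat.mul_lt_mul_of_pos_right he hD0
      _ ≤ p * (p * A) := Nat.mul_le_mul_left _ hcard
      _ = p ^ (2 * 1) * A := by ring
      _ ≤ _ := Nat.mul_le_mul_left _ hAle
  · have h1 : r - 1 + 1 = r := by omega
    have h2 : Nat.card {y : G // ∃ d ∈ D, d ^ p ^ 1 = y} = Nat.card (pwS hab p) := by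
      rw [pow_one]
      rfl
    rw [h1, h2, hDc]
    exact le_of_eq (by ring)
  · refine he.le.trans ?_
    calc p = p ^ 1 := (pow_one p).symm
      _ ≤ p ^ (r - 1 + 1) := Nat.pow_le_pow_right hp0 (by omega)

end

/-- the index of the kernel of the action -/
theorem relIndex_act' {G X : Type*} [Group G] [Group X] {K T : Subgroup G} {D' T' : Subgroup X}
    (hK : ∀ t ∈ T, ∀ x ∈ K, t * x * t⁻¹ ∈ K) (h : ActSub K T D' T')
    (h0 : (centralizer (K : Set G)).relIndex T ≠ 0) :
    (centralizer (D' : Set X)).relIndex T' ≠ 0 ∧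
      (centralizer (D' : Set X)).relIndex T' ≤ (centralizer (K : Set G)).relIndex T := by
  obtain ⟨e, he⟩ := P179H364.act_spec hK h
  choose! φ hφ hφe hφc using he
  have hfin : Finite (T ⧸ (centralizer (K : Set G)).subgroupOf T) :=
    (Nat.card_ne_zero.1 h0).2
  let f : T' ⧸ (centralizer (D' : Set X)).subgroupOf T' →
      T ⧸ (centralizer (K : Set G)).subgroupOf T := fun q =>
    ((⟨φ q.out, hφ _ q.out.2⟩ : T) : T ⧸ (centralizer (K : Set G)).subgroupOf T)
  have hf : Function.Injective f := by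
    intro q r hqr
    have h0 : (⟨φ q.out, hφ _ q.out.2⟩ : T)⁻¹ * ⟨φ r.out, hφ _ r.out.2⟩ ∈
        (centralizer (K : Set G)).subgroupOf T := QuotientGroup.eq.1 hqr
    have h1 : (φ q.out)⁻¹ * φ r.out ∈ centralizer (K : Set G) := h0
    rw [mem_centralizer_iff] at h1
    rw [← q.out_eq', ← r.out_eq']
    refine QuotientGroup.eq.2 ?_
    rw [mem_subgroupOf, mem_centralizer_iff]
    intro y hy
    obtain ⟨x, hx⟩ := e.surjective ⟨y, hy⟩
    have h2 : φ (q.out : X) * (x : G) * (φ (q.out : X))⁻¹ =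
        φ (r.out : X) * (x : G) * (φ (r.out : X))⁻¹ := by
      have h3 := h1 x x.2
      calc φ (q.out : X) * (x : G) * (φ (q.out : X))⁻¹
          = φ (q.out : X) * ((x : G) * ((φ (q.out : X))⁻¹ * φ (r.out : X))) *
              (φ (r.out : X))⁻¹ := by group
        _ = φ (r.out : X) * (x : G) * (φ (r.out : X))⁻¹ := by rw [h3]; group
    have h4 := (hφe _ q.out.2 x ⟨φ (q.out : X) * x * (φ (q.out : X))⁻¹,
      hK _ (hφ _ q.out.2) x x.2⟩).1 rfl
    have h5 := (hφe _ r.out.2 x ⟨φ (q.out : X) * x * (φ (q.out : X))⁻¹,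
      hK _ (hφ _ q.out.2) x x.2⟩).1 h2
    rw [h4, hx] at h5
    change (q.out : X) * y * (q.out : X)⁻¹ = r.out * y * (r.out : X)⁻¹ at h5
    change y * ((q.out : X)⁻¹ * r.out) = (q.out : X)⁻¹ * r.out * y
    calc y * ((q.out : X)⁻¹ * r.out)
        = (q.out : X)⁻¹ * ((q.out : X) * y * (q.out : X)⁻¹) * r.out := by group
      _ = (q.out : X)⁻¹ * r.out * y := by rw [h5]; group
  have hfin' := Finite.of_injective f hf
  refine ⟨?_, Nat.card_le_card_of_injective f hf⟩
  exact Nat.card_ne_zero.2 ⟨⟨((1 : T') : T' ⧸ (centralizer (D' : Set X)).subgroupOf T')⟩, hfin'⟩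

/-- `T` induces a group of automorphisms of order less than `p` on `D`, and the `i`-th smallest
cyclic factor of `D` is at least `p ^ i` -/
def ClSmall (p : ℕ) {X : Type*} [Group X] (D T : Subgroup X) : Prop :=
  T ≤ normalizer (D : Set X) ∧ (centralizer (D : Set X)).relIndex T ≠ 0 ∧
    (centralizer (D : Set X)).relIndex T < p ∧ GrowBy (fun i => i) p D

section

variable {p : ℕ} [hp : Fact p.Prime] {k : Type u} [Field k] [IsAlgClosed k] [CharP k p]
  (red : integralClosure ℤ ℂ →+* k)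

/-- **the class satisfies the hypotheses of the induction** -/
theorem solvClassN_small (hp2 : p ≠ 2) :
    SolvClassN p red (fun (X : Type) [Group X] (D T : Subgroup X) => ClSmall p D T) := by
  constructor
  · rintro X Y _ _ K T D' T' h ⟨hN, h0, he, hG⟩
    have hK : ∀ t ∈ T, ∀ x ∈ K, t * x * t⁻¹ ∈ K := fun t ht x hx =>
      (mem_normalizer_iff.1 (hN ht) x).1 hx
    obtain ⟨h1, h2⟩ := relIndex_act' hK h h0
    refine ⟨?_, h1, h2.trans_lt he, ?_⟩
    · obtain ⟨e, hact⟩ := h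
      have hconj : ∀ t' ∈ T', ∀ d ∈ D', t' * d * t'⁻¹ ∈ D' := by
        intro t' ht' d hd
        obtain ⟨t, ht, h3⟩ := hact t' ht'
        have h4 := h3 (e.symm ⟨d, hd⟩) ⟨t * (e.symm ⟨d, hd⟩ : K) * t⁻¹, hK t ht _
          (e.symm ⟨d, hd⟩).2⟩ rfl
        rw [e.apply_symm_apply] at h4
        rw [← h4]
        exact (e _).2
      intro t ht
      rw [mem_normalizer_iff]
      intro x
      refine ⟨fun hx => hconj t ht x hx, fun hx => ?_⟩
      have h3 := hconj t⁻¹ (inv_mem ht) _ hx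
      have e1 : t⁻¹ * (t * x * t⁻¹) * t⁻¹⁻¹ = x := by group
      rwa [e1] at h3
    · obtain ⟨e, -⟩ := h
      exact P179H450.growBy_equiv e hG
  · rintro X _ _ D T ⟨hN, h0, he, hG⟩ hab hD hTN hCT hT
    obtain ⟨r, hr⟩ := exists_rank hab hD
    have hEq : EqFor p red D → EqForAct p red D T := fun h Y _ _ B D' β hB hD' _ _ _ hact =>
      h Y B D' hB hD' ⟨hact.choose⟩
    rcases Nat.lt_or_ge r 1 with h1 | h1
    · left
      exact hEq (eqFor_largeRank red hp2 hab (largeRank_of_le_one (by omega) hr))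
    · right
      have hreg : HasRegCosetH p D T := P179H450.hasRegCosetH_of_reg
        (hasRegCoset_small hD hab hTN hT he h1 hr (P179H450.exists_pow_of_growBy h1 hr hG))
      obtain ⟨a, j₀, J, o, w, hex, hjJ, hw, ho, hrg, hii, hcd, he'⟩ := hreg
      refine ⟨a, hex, he', boundHere_of_regH (m7hStmt red hp2) hab hjJ hw ho hrg hii hcd, ?_⟩
      intro F hFT hCF M hMD hM1 hMa hFM hFC
      have hfac := P179H450.isFactor_comm hD hab hTN hT hFT
      have hle : centralizer (D : Set X) ≤ centralizer ((⁅F, D⁆ : Subgroup X) : Set X) :=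
        centralizer_le fun x hx => hfac.1 hx
      have h2 : (centralizer (D : Set X)).relIndex
          (T ⊓ normalizer ((⁅F, D⁆ : Subgroup X) : Set X)) ≤
          (centralizer (D : Set X)).relIndex T :=
        Nat.le_of_dvd (Nat.pos_of_ne_zero h0) (P179H450.relIndex_dvd' hTN inf_le_left)
      have h3 : (centralizer (D : Set X)).relIndex
          (T ⊓ normalizer ((⁅F, D⁆ : Subgroup X) : Set X)) ≠ 0 := rel_ne_zero _ _
      have h4 := relIndex_le_of_le_left hle h3
      exact ⟨inf_le_right, (rel_ne_zero _ _), (h4.trans h2).trans_lt he,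
        P179H450.growBy_factor hab hG hfac⟩

/-- **the equality for `e < p` and growing cyclic factors** -/
theorem eqForAct_of_small (hE : P179H443.EqwStmt p k) (hp2 : p ≠ 2) {G : Type} [Group G]
    [Finite G] {K S : Subgroup G} (hS : S ≤ normalizer (K : Set G))
    (he : (centralizer (K : Set G)).relIndex S < p) (hK : GrowBy (fun i => i) p K) :
    EqForAct p red K S :=
  eqForAct_of_classN red hE (solvClassN_small red hp2) _ G K S rfl
    ⟨hS, (rel_ne_zero _ _), he, hK⟩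

end

end P179H12
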