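import Vale.Agent.P179.R2.H12.Small
import Vale.Agent.P179.R2.H450.RegB

/-!
# Groups of automorphisms of order at most `p ^ j`

If `e ≤ p ^ j`, all cyclic factors of `D` are at least `p ^ j` and the `i`-th smallest one is at
least `p ^ ((i - 1) j + 1)` then there is a regular coset at the level `j`.
-/

namespace P179H12

open Subgroup P179H524 P179R P179Y MonoidAlgebra P179H292 P179H92 P179H351 P179H666

open P179B (GrowBy)

open scoped Classical

universe u

section

variable {p : ℕ} [hp : Fact p.Prime] {G : Type*} [Group G] [Finite G] {D T : Subgroup G}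

omit [Finite G] in
/-- the elements whose `p`-th powers are in `X` -/
def rootS (hab : ∀ a ∈ D, ∀ b ∈ D, a * b = b * a) (p : ℕ) {X : Subgroup G} (_hX : X ≤ D) :
    Subgroup G where
  carrier := {x | x ∈ D ∧ x ^ p ∈ X}
  one_mem' := ⟨one_mem _, by rw [one_pow]; exact one_mem _⟩
  mul_mem' := by
    rintro a b ⟨ha, ha'⟩ ⟨hb, hb'⟩
    refine ⟨mul_mem ha hb, ?_⟩
    have hc : Commute a b := hab a ha b hb
    rw [hc.mul_pow]
    exact mul_mem ha' hb'
  inv_mem' := by
    rintro a ⟨ha, ha'⟩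
    exact ⟨inv_mem ha, by rw [inv_pow]; exact inv_mem ha'⟩

/-- the index of a subgroup which does not contain all `p ^ j`-th powers -/
theorem pow_mul_card_le (hD : IsPGroup p D) (hab : ∀ a ∈ D, ∀ b ∈ D, a * b = b * a) (j : ℕ) :
    ∀ X : Subgroup G, X ≤ D → (∃ x ∈ D, x ^ p ^ j ∉ X) →
      p ^ (j + 1) * Nat.card X ≤ Nat.card D := by
  induction j with
  | zero =>
    rintro X hX ⟨x, hx, hxX⟩
    rw [pow_zero, pow_one] at hxX
    rw [zero_add, pow_one]
    exact mul_card_le hD hX hx hxX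
  | succ j ih =>
    rintro X hX ⟨x, hx, hxX⟩
    have h1 : p ^ (j + 1) * Nat.card (rootS hab p hX) ≤ Nat.card D := by
      refine ih _ (fun y hy => hy.1) ⟨x, hx, fun h => hxX ?_⟩
      rw [pow_succ, pow_mul]
      exact h.2
    have h2 : X ≤ rootS hab p hX := fun y hy => ⟨hX hy, pow_mem hy p⟩
    have hex : ∃ m, x ^ p ^ m ∈ X := by
      obtain ⟨a, ha⟩ := hD ⟨x, hx⟩
      have ha' : x ^ p ^ a = 1 := by simpa using congrArg Subtype.val ha
      exact ⟨a, by rw [ha']; exact one_mem _⟩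
    have h3 := Nat.find_spec hex
    have h4 : Nat.find hex ≠ 0 := by
      intro h0
      rw [h0, pow_zero, pow_one] at h3
      exact hxX (pow_mem h3 _)
    obtain ⟨m, hm⟩ := Nat.exists_eq_succ_of_ne_zero h4
    have h5 : x ^ p ^ m ∉ X := Nat.find_min hex (by omega)
    rw [hm, Nat.succ_eq_add_one, pow_succ, pow_mul] at h3
    have h6 : p * Nat.card X ≤ Nat.card (rootS hab p hX) :=
      mul_card_le (hD.to_le fun y hy => hy.1) h2 (v := x ^ p ^ m) ⟨pow_mem hx _, h3⟩ h5
    calc p ^ (j + 1 + 1) * Nat.card X = p ^ (j + 1) * (p * Nat.card X) := by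
          rw [pow_succ]
          ring
      _ ≤ p ^ (j + 1) * Nat.card (rootS hab p hX) := Nat.mul_le_mul_left _ h6
      _ ≤ _ := h1

/-- **the regular elements modulo the `p ^ j`-th powers** -/
theorem card_good_level (hD : IsPGroup p D) (hab : ∀ a ∈ D, ∀ b ∈ D, a * b = b * a)
    (hTN : T ≤ normalizer (D : Set G)) (hT : ¬ p ∣ (centralizer (D : Set G)).relIndex T) {n : ℕ}
    (hdiv : ∀ x ∈ D, x ^ p = 1 → ∃ y ∈ D, y ^ p ^ n = x) :
    p ^ (n + 1) * Nat.card D + Nat.card D ≤ p ^ (n + 1) * Nat.card {w : G // w ∈ D ∧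
      ∀ t ∈ T, t * w * t⁻¹ * w⁻¹ ∈ pwS hab (p ^ (n + 1)) → t ∈ centralizer (D : Set G)} +
      (centralizer (D : Set G)).relIndex T * Nat.card D := by
  have hTD : ∀ t ∈ T, ∀ d ∈ D, t * d * t⁻¹ ∈ D := fun t ht d hd =>
    (mem_normalizer_iff.1 (hTN ht) d).1 hd
  set C : Subgroup G := centralizer (D : Set G) with hC
  set A : Set G := {w | w ∈ D ∧
      ∀ t ∈ T, t * w * t⁻¹ * w⁻¹ ∈ pwS hab (p ^ (n + 1)) → t ∈ C} with hA
  let F : T ⧸ C.subgroupOf T → Subgroup G := fun q =>
    fixP hab (p ^ (n + 1)) (hTD (q.out : T) (q.out : T).2)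
  have := Fintype.ofFinite (T ⧸ C.subgroupOf T)
  let s : Finset (T ⧸ C.subgroupOf T) := Finset.univ.erase ((1 : T) : T ⧸ C.subgroupOf T)
  -- the cover
  have hcov : (D : Set G) ⊆ A ∪ ⋃ q ∈ s, (F q : Set G) := by
    intro w hw
    by_cases h2 : ∀ t ∈ T, t * w * t⁻¹ * w⁻¹ ∈ pwS hab (p ^ (n + 1)) → t ∈ C
    · exact Or.inl ⟨hw, h2⟩
    · push Not at h2
      obtain ⟨t, ht, htw, htC⟩ := h2
      refine Or.inr ?_
      rw [Set.mem_iUnion₂]
      refine ⟨((⟨t, ht⟩ : T) : T ⧸ C.subgroupOf T), ?_, hw, ?_⟩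
      · rw [Finset.mem_erase]
        refine ⟨fun h => htC ?_, Finset.mem_univ _⟩
        have h3 := QuotientGroup.eq.1 h
        rw [mem_subgroupOf] at h3
        simpa using h3
      · set u : T := (((⟨t, ht⟩ : T) : T ⧸ C.subgroupOf T)).out with hu
        have h3 : (u : G)⁻¹ * t ∈ C := by
          have h4 := QuotientGroup.eq.1 (Quotient.out_eq' ((⟨t, ht⟩ : T) : T ⧸ C.subgroupOf T))
          rw [mem_subgroupOf] at h4
          exact h4
        have h5 : (u : G) * w * (u : G)⁻¹ = t * w * t⁻¹ := by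
          have h6 := mem_centralizer_iff.1 h3 w hw
          have h7 : t * w * t⁻¹ = (u : G) * (((u : G)⁻¹ * t) * w) * ((u : G)⁻¹ * t)⁻¹ *
              (u : G)⁻¹ := by group
          rw [h7, ← h6]
          group
        change (u : G) * w * (u : G)⁻¹ * w⁻¹ ∈ pwS hab (p ^ (n + 1))
        rw [h5]
        exact htw
  -- the sizes
  have hFle : ∀ q ∈ s, p ^ (n + 1) * Nat.card (F q) ≤ Nat.card D := by
    intro q hq
    refine pow_mul_card_le hD hab n (F q) (fun x hx => hx.1) ?_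
    by_contra hcon
    push Not at hcon
    have h2 : ((q.out : T) : G) ∈ C := by
      refine centralises_of_frattini hD hab hTN hT (q.out : T).2 fun x hx => ?_
      have htx : ((q.out : T) : G) * x * ((q.out : T) : G)⁻¹ ∈ D := hTD _ (q.out : T).2 x hx
      have h3 := (hcon x hx).2
      have hc : Commute (((q.out : T) : G) * x * ((q.out : T) : G)⁻¹) x⁻¹ :=
        hab _ htx _ (inv_mem hx)
      have h4 : ((q.out : T) : G) * x ^ p ^ n * ((q.out : T) : G)⁻¹ * (x ^ p ^ n)⁻¹ =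
          (((q.out : T) : G) * x * ((q.out : T) : G)⁻¹ * x⁻¹) ^ p ^ n := by
        rw [hc.mul_pow, conj_pow, inv_pow]
      rw [h4] at h3
      exact cancel_pow hab hdiv le_rfl (mul_mem htx (inv_mem hx)) h3
    apply Finset.ne_of_mem_erase hq
    rw [← q.out_eq']
    refine QuotientGroup.eq.2 ?_
    rw [mem_subgroupOf]
    have h3 : ((((q.out : T)⁻¹ * 1 : T)) : G) = ((q.out : T) : G)⁻¹ := by
      rw [mul_one]
      rfl
    rw [h3]
    exact inv_mem h2
  have h1 : Nat.card D ≤ Nat.card A + ∑ q ∈ s, Nat.card (F q) := by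
    calc Nat.card D = (D : Set G).ncard := rfl
      _ ≤ (A ∪ ⋃ q ∈ s, (F q : Set G)).ncard := Set.ncard_le_ncard hcov (Set.toFinite _)
      _ ≤ A.ncard + (⋃ q ∈ s, (F q : Set G)).ncard := Set.ncard_union_le _ _
      _ ≤ A.ncard + ∑ q ∈ s, (F q : Set G).ncard :=
          Nat.add_le_add_left (Finset.set_ncard_biUnion_le _ _) _
      _ = _ := rfl
  have hs : s.card + 1 = C.relIndex T := by
    have h2 : s.card = Fintype.card (T ⧸ C.subgroupOf T) - 1 := by
      rw [Finset.card_erase_of_mem (Finset.mem_univ _), Finset.card_univ]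
    have h3 : 0 < Fintype.card (T ⧸ C.subgroupOf T) := Fintype.card_pos
    have h4 : C.relIndex T = Fintype.card (T ⧸ C.subgroupOf T) := by
      rw [← Nat.card_eq_fintype_card]
      rfl
    rw [h4, h2]
    omega
  have h2 : p ^ (n + 1) * ∑ q ∈ s, Nat.card (F q) ≤ s.card * Nat.card D := by
    rw [Finset.mul_sum]
    refine (Finset.sum_le_sum hFle).trans ?_
    rw [Finset.sum_const, smul_eq_mul]
  have h5 : Nat.card A = Nat.card {w : G // w ∈ D ∧
      ∀ t ∈ T, t * w * t⁻¹ * w⁻¹ ∈ pwS hab (p ^ (n + 1)) → t ∈ C} := rfl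
  rw [← h5]
  calc p ^ (n + 1) * Nat.card D + Nat.card D ≤ p ^ (n + 1) * (Nat.card A +
        ∑ q ∈ s, Nat.card (F q)) + Nat.card D :=
        Nat.add_le_add_right (Nat.mul_le_mul_left _ h1) _
    _ = p ^ (n + 1) * Nat.card A + p ^ (n + 1) * ∑ q ∈ s, Nat.card (F q) + Nat.card D := by ring
    _ ≤ p ^ (n + 1) * Nat.card A + s.card * Nat.card D + Nat.card D :=
        Nat.add_le_add_right (Nat.add_le_add_left h2 _) _
    _ = p ^ (n + 1) * Nat.card A + (s.card + 1) * Nat.card D := by ring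
    _ = _ := by rw [hs]

/-- **the regular coset** for `e ≤ p ^ j`, `j = n + 1` -/
theorem hasRegCoset_level (hD : IsPGroup p D) (hab : ∀ a ∈ D, ∀ b ∈ D, a * b = b * a)
    (hTN : T ≤ normalizer (D : Set G)) (hT : ¬ p ∣ (centralizer (D : Set G)).relIndex T) {n : ℕ}
    (he : (centralizer (D : Set G)).relIndex T ≤ p ^ (n + 1))
    (hdiv : ∀ x ∈ D, x ^ p = 1 → ∃ y ∈ D, y ^ p ^ n = x) {r : ℕ} (hr2 : 2 ≤ r)
    (hr : Nat.card {x : G // x ∈ D ∧ x ^ p = 1} = p ^ r)
    (hex : ∃ x ∈ D, x ^ p ^ ((r - 1) * (n + 1)) ≠ 1) :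
    HasRegCoset p D T := by
  have hp0 : 0 < p := hp.out.pos
  have hcard := card_good_level hD hab hTN hT hdiv
  have hD0 : 0 < Nat.card D := Nat.card_pos
  set e := (centralizer (D : Set G)).relIndex T with hee
  have he' : e + 1 ≤ p ^ (n + 1) := by
    refine lt_of_le_of_ne he fun h => hT ?_
    rw [h, pow_succ]
    exact dvd_mul_left _ _
  set A := Nat.card {w : G // w ∈ D ∧
      ∀ t ∈ T, t * w * t⁻¹ * w⁻¹ ∈ pwS hab (p ^ (n + 1)) → t ∈ centralizer (D : Set G)} with hA
  have hA2 : 2 * Nat.card D ≤ p ^ (n + 1) * A := by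
    have h1 : (e + 1) * Nat.card D ≤ p ^ (n + 1) * Nat.card D := Nat.mul_le_mul_right _ he'
    rw [add_mul, one_mul] at h1
    omega
  have hA0 : 0 < A := by
    rw [Nat.pos_iff_ne_zero]
    intro h
    rw [h, mul_zero] at hA2
    omega
  obtain ⟨⟨w, hw, hreg⟩⟩ := (Nat.card_pos_iff.1 hA0).1
  -- the exponent
  obtain ⟨m, hmr, hexp, hm⟩ := P179H450.exists_exp hD hex
  obtain ⟨w', hw', hwm', hreg'⟩ := P179H450.exists_full_gen hD hab hTN hT
    (by omega : 1 ≤ n + 1) hexp hm hw (fun t ht ⟨d, hd, e⟩ => hreg t ht ⟨d, hd, e.symm⟩)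
  have hAle : A ≤ Nat.card {u : G // u ∈ D ∧ ∀ n ∈ T, n * u * n⁻¹ = u →
      n ∈ centralizer (D : Set G)} := by
    refine Nat.card_mono (Set.toFinite {u : G | u ∈ D ∧ ∀ n ∈ T, n * u * n⁻¹ = u →
      n ∈ centralizer (D : Set G)}) ?_
    rintro u ⟨hu, h⟩
    refine ⟨hu, fun n hn hnu => h n hn ?_⟩
    rw [hnu, mul_inv_cancel]
    exact one_mem _
  have hnm : n + 1 ≤ (r - 1) * (n + 1) := Nat.le_mul_of_pos_left _ (by omega)
  refine ⟨(r - 1) * (n + 1), n + 1, p ^ (n + 1), w', hex, by omega, hw', pow_pos hp0 _, ?_, hreg',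
    ?_, ?_, ?_⟩
  · intro i h
    have h1 := dvd_of_full hexp hw' hwm' (n + 1) i h
    rwa [min_eq_right (by omega)] at h1
  · calc e * Nat.card D < p ^ (n + 1) * (2 * Nat.card D) := by
          have h1 : e * Nat.card D ≤ p ^ (n + 1) * Nat.card D := Nat.mul_le_mul_right _ he
          have h2 : p ^ (n + 1) * (2 * Nat.card D) =
              p ^ (n + 1) * Nat.card D + p ^ (n + 1) * Nat.card D := by ring
          have h3 : 0 < p ^ (n + 1) * Nat.card D := Nat.mul_pos (pow_pos hp0 _) hD0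
          omega
      _ ≤ p ^ (n + 1) * (p ^ (n + 1) * A) := Nat.mul_le_mul_left _ hA2
      _ = p ^ (2 * (n + 1)) * A := by
          rw [two_mul, pow_add]
          ring
      _ ≤ _ := Nat.mul_le_mul_left _ hAle
  · have h1 := card_le_pw hab hr (n + 1)
    obtain ⟨s, rfl⟩ : ∃ s, r = s + 2 := ⟨r - 2, by omega⟩
    have h2 : s + 2 - 1 = s + 1 := by omega
    rw [h2]
    calc Nat.card D * p ≤ Nat.card {y : G // ∃ d ∈ D, d ^ p ^ (n + 1) = y} *
          p ^ ((s + 2) * (n + 1)) * p := Nat.mul_le_mul_right _ h1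
      _ = _ := by
          have h3 : (s + 2) * (n + 1) = (s + 1) * (n + 1) + (n + 1) := by ring
          rw [h3, pow_add, pow_succ p ((s + 1) * (n + 1))]
          ring
  · refine he.trans (Nat.pow_le_pow_right hp0 ?_)
    omega

end

/-- `T` induces a group of automorphisms of order at most `p ^ (n + 1)` on `D`, all cyclic factors
of `D` are at least `p ^ (n + 1)`, and the `i`-th smallest one is at least
`p ^ ((i - 1) (n + 1) + 1)` -/
def ClLevel (n p : ℕ) {X : Type*} [Group X] (D T : Subgroup X) : Prop :=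
  T ≤ normalizer (D : Set X) ∧ (centralizer (D : Set X)).relIndex T ≠ 0 ∧
    (centralizer (D : Set X)).relIndex T ≤ p ^ (n + 1) ∧
    GrowBy (fun i => max (n + 1) ((i - 1) * (n + 1) + 1)) p D

section

variable {p : ℕ} [hp : Fact p.Prime] {k : Type u} [Field k] [IsAlgClosed k] [CharP k p]
  (red : integralClosure ℤ ℂ →+* k)

/-- **the class satisfies the hypotheses of the induction** -/
theorem solvClassN_level (hp2 : p ≠ 2) (n : ℕ) :
    SolvClassN p red (fun (X : Type) [Group X] (D T : Subgroup X) => ClLevel n p D T) := by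
  constructor
  · rintro X Y _ _ K T D' T' h ⟨hN, h0, he, hG⟩
    have hK : ∀ t ∈ T, ∀ x ∈ K, t * x * t⁻¹ ∈ K := fun t ht x hx =>
      (mem_normalizer_iff.1 (hN ht) x).1 hx
    obtain ⟨h1, h2⟩ := relIndex_act' hK h h0
    refine ⟨?_, h1, h2.trans he, ?_⟩
    · obtain ⟨e, hact⟩ := h
      have hconj : ∀ t' ∈ T', ∀ d ∈ D', t' * d * t'⁻¹ ∈ D' := by
        intro t' ht' d hd
        obtain ⟨t, ht, h3⟩ := hact t' ht'
        have h4 := h3 (e.symm ⟨d, hd⟩) ⟨t * (e.symm ⟨d, hd⟩ : K) * t⁻¹, hK t ht _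
          (e.symm ⟨d, hd⟩).2⟩ rfl
        rw [e.apply_symm_apply] at h4
        rw [← h4]
        exact (e _).2
      intro t ht
      rw [mem_normalizer_iff]
      intro x
      refine ⟨fun hx => hconj t ht x hx, fun hx => ?_⟩
      have h3 := hconj t⁻¹ (inv_mem ht) _ hx
      have e1 : t⁻¹ * (t * x * t⁻¹) * t⁻¹⁻¹ = x := by group
      rwa [e1] at h3
    · obtain ⟨e, -⟩ := h
      exact P179H450.growBy_equiv e hG
  · rintro X _ _ D T ⟨hN, h0, he, hG⟩ hab hD hTN hCT hT
    obtain ⟨r, hr⟩ := exists_rank hab hD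
    have hEq : EqFor p red D → EqForAct p red D T := fun h Y _ _ B D' β hB hD' _ _ _ hact =>
      h Y B D' hB hD' ⟨hact.choose⟩
    rcases Nat.lt_or_ge r 2 with h1 | h1
    · left
      exact hEq (eqFor_largeRank red hp2 hab (largeRank_of_le_one (by omega) hr))
    · right
      have hdiv : ∀ x ∈ D, x ^ p = 1 → ∃ y ∈ D, y ^ p ^ n = x := by
        have h2 := hG 1 le_rfl
        have h3 : max (n + 1) ((1 - 1) * (n + 1) + 1) - 1 = n := by
          rw [Nat.sub_self, zero_mul, zero_add, max_eq_left (by omega), Nat.add_sub_cancel]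
        rw [Nat.sub_self, pow_zero, one_mul] at h2
        rw [h3] at h2
        have h4 : {x : X | (∃ y ∈ D, y ^ p ^ n = x) ∧ x ^ p = 1} = {x : X | x ∈ D ∧ x ^ p = 1} := by
          refine Set.eq_of_subset_of_ncard_le ?_ h2 (Set.toFinite _)
          rintro x ⟨⟨y, hy, rfl⟩, hx⟩
          exact ⟨pow_mem hy _, hx⟩
        intro x hx hx1
        have h5 : x ∈ {x : X | (∃ y ∈ D, y ^ p ^ n = x) ∧ x ^ p = 1} := by
          rw [h4]
          exact ⟨hx, hx1⟩
        exact h5.1
      have hex : ∃ x ∈ D, x ^ p ^ ((r - 1) * (n + 1)) ≠ 1 := by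
        have h2 := P179H450.exists_pow_of_growBy (by omega) hr hG
        have h3 : n + 1 ≤ (r - 1) * (n + 1) := Nat.le_mul_of_pos_left _ (by omega)
        have h4 : max (n + 1) ((r - 1) * (n + 1) + 1) - 1 = (r - 1) * (n + 1) := by
          rw [max_eq_right (by omega), Nat.add_sub_cancel]
        rw [h4] at h2
        exact h2
      have hreg : HasRegCosetH p D T := P179H450.hasRegCosetH_of_reg
        (hasRegCoset_level hD hab hTN hT he hdiv h1 hr hex)
      obtain ⟨a, j₀, J, o, w, hex', hjJ, hw, ho, hrg, hii, hcd, he'⟩ := hreg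
      refine ⟨a, hex', he', boundHere_of_regH (m7hStmt red hp2) hab hjJ hw ho hrg hii hcd, ?_⟩
      intro F hFT hCF M hMD hM1 hMa hFM hFC
      have hfac := P179H450.isFactor_comm hD hab hTN hT hFT
      have hle : centralizer (D : Set X) ≤ centralizer ((⁅F, D⁆ : Subgroup X) : Set X) :=
        centralizer_le fun x hx => hfac.1 hx
      have h2 : (centralizer (D : Set X)).relIndex
          (T ⊓ normalizer ((⁅F, D⁆ : Subgroup X) : Set X)) ≤
          (centralizer (D : Set X)).relIndex T :=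
        Nat.le_of_dvd (Nat.pos_of_ne_zero h0) (P179H450.relIndex_dvd' hTN inf_le_left)
      have h3 : (centralizer (D : Set X)).relIndex
          (T ⊓ normalizer ((⁅F, D⁆ : Subgroup X) : Set X)) ≠ 0 := rel_ne_zero _ _
      have h4 := relIndex_le_of_le_left hle h3
      exact ⟨inf_le_right, rel_ne_zero _ _, (h4.trans h2).trans he,
        P179H450.growBy_factor hab hG hfac⟩

/-- **the equality for `e ≤ p ^ j` and growing cyclic factors** -/
theorem eqForAct_of_smallJ (hE : P179H443.EqwStmt p k) (hp2 : p ≠ 2) {G : Type} [Group G]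
    [Finite G] {K S : Subgroup G} (hS : S ≤ normalizer (K : Set G)) {j : ℕ}
    (he : (centralizer (K : Set G)).relIndex S ≤ p ^ j)
    (hK : GrowBy (fun i => max j ((i - 1) * j + 1)) p K) :
    EqForAct p red K S := by
  rcases Nat.eq_zero_or_pos j with rfl | hj
  · -- `e ≤ 1`
    have hp3 : 2 < p := lt_of_le_of_ne hp.out.two_le (Ne.symm hp2)
    rw [pow_zero] at he
    intro X _ _ B D β hB hD hab hβ hβB hact
    have := Fintype.ofFinite X
    have hK' : ∀ t ∈ S, ∀ x ∈ K, t * x * t⁻¹ ∈ K := fun t ht x hx =>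
      (mem_normalizer_iff.1 (hS ht) x).1 hx
    have h1 := P179H364.relIndex_act hK' hact
    refine P179I.equality_half red hB hD hab hβ hβB ?_
    change 2 * (centralizer (D : Set X)).relIndex (P179B.inertialGroup D β) ≤ p
    omega
  · obtain ⟨n, rfl⟩ : ∃ n, j = n + 1 := ⟨j - 1, by omega⟩
    exact eqForAct_of_classN red hE (solvClassN_level red hp2 n) _ G K S rfl
      ⟨hS, rel_ne_zero _ _, he, hK⟩

end

end P179H12
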