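import Vale.Agent.P179.R2.H12.Tst
import Vale.Agent.P179.R2.H450.DQ3
import Vale.Agent.P179.R2.H725.Below

/-!
# The defect group of a block below a Brauer pair
-/

namespace P179H12

open Subgroup Finset P179H524 P179C P179A P179P P179Y

open scoped Classical

universe u

section Rel

variable {k : Type u} [Field k] {G : Type} [Group G] [Finite G]

/-- relative traces from conjugate subgroups -/
theorem isRelTrace_conj {z : MonoidAlgebra k G} {R D : Subgroup G} {g : G}
    (hg : ∀ x, x ∈ R ↔ g⁻¹ * x * g ∈ D) (h : IsRelTrace z R) : IsRelTrace z D := by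
  have := Fintype.ofFinite G
  obtain ⟨a, ha, hz⟩ := h
  have hgD : ∀ d ∈ D, g * d * g⁻¹ ∈ R := by
    intro d hd
    rw [hg]
    have e1 : g⁻¹ * (g * d * g⁻¹) * g = d := by group
    rwa [e1]
  have hf1 := Fintype.ofFinite (G ⧸ D)
  have hf2 := Fintype.ofFinite (G ⧸ R)
  refine ⟨conjBy g⁻¹ a, fun d hd => ?_, ?_⟩
  · rw [← P179H450.conjBy_comp]
    have e1 : d * g⁻¹ = g⁻¹ * (g * d * g⁻¹) := by group
    rw [e1, P179H450.conjBy_comp, ha _ (hgD d hd)]
  · rw [hz, finsum_eq_sum_of_fintype, finsum_eq_sum_of_fintype]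
    symm
    refine Fintype.sum_bijective
      (fun c : G ⧸ D => ((c.out * g⁻¹ : G) : G ⧸ R)) ⟨?_, ?_⟩ _ _ ?_
    · intro c c' h
      have h3 := QuotientGroup.eq.1 h
      rw [hg] at h3
      have e1 : g⁻¹ * ((c.out * g⁻¹)⁻¹ * (c'.out * g⁻¹)) * g = (c.out : G)⁻¹ * c'.out := by group
      rw [e1] at h3
      rw [← QuotientGroup.out_eq' c, ← QuotientGroup.out_eq' c']
      exact QuotientGroup.eq.2 h3
    · intro c
      obtain ⟨x, rfl⟩ := QuotientGroup.mk_surjective c
      refine ⟨((x * g : G) : G ⧸ D), ?_⟩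
      obtain ⟨d, hd⟩ := QuotientGroup.mk_out_eq_mul D (x * g)
      change (((((x * g : G) : G ⧸ D).out : G) * g⁻¹ : G) : G ⧸ R) = _
      rw [hd]
      refine QuotientGroup.eq.2 ?_
      rw [hg]
      have e1 : g⁻¹ * ((x * g * (d : G) * g⁻¹)⁻¹ * x) * g = (d : G)⁻¹ := by group
      rw [e1]
      exact inv_mem d.2
    · intro c
      obtain ⟨r, hr⟩ := QuotientGroup.mk_out_eq_mul R (c.out * g⁻¹)
      rw [hr, P179H450.conjBy_comp (c.out * g⁻¹), ha r r.2, P179H450.conjBy_comp]

/-- conjugates of defect groups are defect groups -/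
theorem isDefectGroup_conj {B : MonoidAlgebra k G} {R D : Subgroup G} {g : G}
    (hg : ∀ x, x ∈ R ↔ g⁻¹ * x * g ∈ D) (h : IsDefectGroup B R) : IsDefectGroup B D := by
  refine ⟨isRelTrace_conj hg h.1, fun E hE hED => ?_⟩
  -- the conjugate of `E`
  have hg' : ∀ x, x ∈ E ↔ (g⁻¹)⁻¹ * x * g⁻¹ ∈ E.map (MulAut.conj g).toMonoidHom := by
    intro x
    rw [inv_inv]
    constructor
    · intro hx
      exact ⟨x, hx, rfl⟩
    · rintro ⟨y, hy, hyx⟩
      have h1 : g * y * g⁻¹ = g * x * g⁻¹ := hyx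
      have h2 : y = x := mul_left_cancel (mul_right_cancel h1)
      rwa [← h2]
  have h1 := isRelTrace_conj hg' hE
  have h2 : E.map (MulAut.conj g).toMonoidHom ≤ R := by
    rintro _ ⟨y, hy, rfl⟩
    change g * y * g⁻¹ ∈ R
    rw [hg]
    have e1 : g⁻¹ * (g * y * g⁻¹) * g = y := by group
    rw [e1]
    exact hED hy
  have h3 := h.2 h1 h2
  intro d hd
  have h4 : g * d * g⁻¹ ∈ R := by
    rw [hg]
    have e1 : g⁻¹ * (g * d * g⁻¹) * g = d := by group
    rwa [e1]
  rw [hg', inv_inv]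
  exact h3 h4

end Rel

section Main

variable {p : ℕ} [hp : Fact p.Prime] {k : Type u} [Field k] [IsAlgClosed k] [CharP k p]
  {G : Type} [Group G] [Fintype G]

/-- the subgroup of a Brauer pair of the block `B` is a defect group of `B` -/
theorem isDefectGroup_of_BP {B : MonoidAlgebra k G} (hB : IsBlock B) {D : Subgroup G}
    {l : (G → k) → k} (hl : BP p D l) (hD : IsPGroup p D)
    (hab : ∀ a ∈ D, ∀ b ∈ D, a * b = b * a)
    (hT : ¬ p ∣ (centralizer (D : Set G)).relIndex (stabT D l))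
    (hlz : ∀ z : G → k, IsCF z → l z = centralChar B (mkF z)) : IsDefectGroup B D := by
  obtain ⟨R, hR⟩ := P179H725.exists_defect hB
  obtain ⟨hRp, l2, hl2, hl2z⟩ := exists_BP_of_block (p := p) B hB R hR
  obtain ⟨g, hg, -⟩ := FDc hl hD hab hT hl2 hRp fun z hz => by rw [hl2z z hz, hlz z hz]
  exact isDefectGroup_conj hg hR

/-- **(TR4)** the block of `H` below a pair has the defect group `D` -/
theorem isDefectGroup_low {H : Subgroup G} {D : Subgroup G} {l : (G → k) → k} (hl : BP p D l)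
    (hD : IsPGroup p D) (hab : ∀ a ∈ D, ∀ b ∈ D, a * b = b * a)
    (hT : ¬ p ∣ (centralizer (D : Set G)).relIndex (stabT D l))
    (hDH : D ≤ H) (hCH : centralizer (D : Set G) ≤ H)
    {b : MonoidAlgebra k H} (hb : IsBlock b) (hlb : Low H l b) :
    IsDefectGroup b (D.subgroupOf H) := by
  refine isDefectGroup_of_BP hb (hl.restrict hDH hCH) hD.comap_subtype ?_
    (fun h => hT (h.trans (relIndex_stabT_lres_dvd hDH hCH))) ?_
  · intro x hx y hy
    exact Subtype.ext (hab _ (mem_subgroupOf.1 hx) _ (mem_subgroupOf.1 hy))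
  · intro z hz
    change l (ext H z) = _
    rw [hlb _ (invOn_ext0 hz)]
    congr 1
    congr 1
    funext h
    exact ext_coe H z h

end Main

end P179H12
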