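import Vale.Agent.P179.R2.H12.Tr4

/-!
# Blocks of centralisers below a Brauer pair: idempotents, Brauer homomorphism, fusion
-/

namespace P179H12

open Subgroup Finset P179H524 P179C P179A P179P P179Y

open scoped Classical

universe u

section Gen

variable {k : Type u} [Field k] {G : Type} [Group G] [Fintype G] {H : Subgroup G}

/-- invariant functions commute with functions on `H` -/
theorem conv_comm_inv {a z : G → k} (ha : ∀ h ∈ H, ∀ x, a (h * x * h⁻¹) = a x)
    (hz : ∀ x, x ∉ H → z x = 0) : conv a z = conv z a := by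
  funext x
  unfold conv
  rw [← Equiv.sum_comp ((Equiv.inv G).trans (Equiv.mulLeft x)) fun h => a h * z (h⁻¹ * x)]
  refine Finset.sum_congr rfl fun y _ => ?_
  change a (x * y⁻¹) * z ((x * y⁻¹)⁻¹ * x) = z y * a (y⁻¹ * x)
  have e1 : (x * y⁻¹)⁻¹ * x = y := by group
  rw [e1]
  by_cases hy : y ∈ H
  · have h1 := ha y⁻¹ (inv_mem hy) (x * y⁻¹)
    have e2 : y⁻¹ * (x * y⁻¹) * y⁻¹⁻¹ = y⁻¹ * x := by group
    rw [e2] at h1
    rw [h1, mul_comm]
  · rw [hz y hy, mul_zero, zero_mul]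

theorem conv_assoc' (a b c : G → k) : conv (conv a b) c = conv a (conv b c) := by
  have h1 : mkF (conv (conv a b) c) = mkF (conv a (conv b c)) := by
    rw [mkF_conv, mkF_conv, mkF_conv, mkF_conv, mul_assoc]
  funext x
  rw [← coeff_mkF (conv (conv a b) c), h1, coeff_mkF]

omit [Fintype G] in
/-- the cut of an idempotent which is invariant under the `p`-group `Q` -/
theorem invOn_cutC' {Q : Subgroup G} {a : G → k}
    (ha : ∀ h ∈ centralizer (Q : Set G), ∀ x, a (h * x * h⁻¹) = a x) :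
    InvOn (centralizer (Q : Set G)) (cutC Q a) := by
  constructor
  · intro h hh x
    unfold cutC
    by_cases hx : x ∈ centralizer (Q : Set G)
    · rw [if_pos hx, if_pos (mul_mem (mul_mem hh hx) (inv_mem hh)), ha h hh]
    · rw [if_neg hx, if_neg]
      intro h1
      apply hx
      have := mul_mem (mul_mem (inv_mem hh) h1) hh
      have e1 : h⁻¹ * (h * x * h⁻¹) * h = x := by group
      rwa [e1] at this
  · intro x hx
    exact if_neg hx

theorem cutC_conv (p : ℕ) [hp : Fact p.Prime] [CharP k p] {Q : Subgroup G} (hQ : IsPGroup p Q)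
    {a b : G → k} (ha : ∀ d ∈ Q, ∀ x, a (d * x * d⁻¹) = a x)
    (hb : ∀ d ∈ Q, ∀ x, b (d * x * d⁻¹) = b x) :
    cutC Q (conv a b) = conv (cutC Q a) (cutC Q b) := by
  funext x
  by_cases hx : x ∈ centralizer (Q : Set G)
  · rw [← conv_cut p Q hQ ha hb hx]
    exact if_pos hx
  · have h1 : cutC Q (conv a b) x = 0 := if_neg hx
    rw [h1]
    unfold conv
    refine (Finset.sum_eq_zero fun y _ => ?_).symm
    by_cases hy : y ∈ centralizer (Q : Set G)
    · have h2 : y⁻¹ * x ∉ centralizer (Q : Set G) := fun h => hx (by simpa using mul_mem hy h)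
      have h3 : cutC Q b (y⁻¹ * x) = 0 := if_neg h2
      rw [h3, mul_zero]
    · have h3 : cutC Q a y = 0 := if_neg hy
      rw [h3, zero_mul]

omit [Fintype G] in
theorem cutC_of_supp {Q : Subgroup G} {a : G → k}
    (ha : ∀ x, x ∉ centralizer (Q : Set G) → a x = 0) : cutC Q a = a := by
  funext x
  unfold cutC
  by_cases hx : x ∈ centralizer (Q : Set G)
  · rw [if_pos hx]
  · rw [if_neg hx, ha x hx]

omit [Fintype G] in
theorem cutC_idem (Q : Subgroup G) (a : G → k) : cutC Q (cutC Q a) = cutC Q a :=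
  cutC_of_supp fun _ hx => if_neg hx

omit [Fintype G] in
theorem invOn_cj' {H H' : Subgroup G} {t : G} (ht : ∀ x, x ∈ H ↔ t⁻¹ * x * t ∈ H') {z : G → k}
    (hz : InvOn H' z) : InvOn H (cj t z) := by
  constructor
  · intro h hh x
    unfold cj
    have h1 := hz.1 _ ((ht h).1 hh) (t⁻¹ * x * t)
    rw [← h1]
    congr 1
    group
  · intro x hx
    exact hz.2 _ fun h => hx ((ht x).2 h)

omit [Fintype G] [Field k] in
theorem cj_cj_inv (t : G) (z : G → k) : cj t (cj t⁻¹ z) = z := by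
  rw [← cj_mul, mul_inv_cancel, cj_one]

omit [Fintype G] [Field k] in
theorem cj_inv_cj (t : G) (z : G → k) : cj t⁻¹ (cj t z) = z := by
  rw [← cj_mul, inv_mul_cancel, cj_one]

theorem MulH.cj' {H H' : Subgroup G} {t : G} (ht : ∀ x, x ∈ H ↔ t⁻¹ * x * t ∈ H')
    {m : (G → k) → k} (hm : MulH H' m) : MulH H fun z => m (P179Y.cj t⁻¹ z) := by
  have ht' : ∀ y, y ∈ H' ↔ t⁻¹⁻¹ * y * t⁻¹ ∈ H := by
    intro y
    rw [ht, inv_inv]
    have e1 : t⁻¹ * (t * y * t⁻¹) * t = y := by group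
    rw [e1]
  exact {
    add := fun a b => by rw [cj_add, hm.add]
    smul := fun r a => by rw [cj_smul, hm.smul]
    one := by rw [cj_delta, hm.one]
    mul := fun a b ha hb => by
      rw [cj_conv, hm.mul _ _ (invOn_cj' ht' ha) (invOn_cj' ht' hb)] }

end Gen

section Blocks

variable {k : Type u} [Field k] [IsAlgClosed k] {G : Type} [Group G] [Fintype G]
  {H : Subgroup G}

/-- central idempotents on which the functional does not vanish -/
theorem conv_bF_of_ne {m : (G → k) → k} {b : MonoidAlgebra k H} (hb : IsBlock b)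
    (h : Low H m b) {z : G → k} (hz : InvOn H z) (hzz : conv z z = z) (h1 : m z ≠ 0) :
    conv z (bF H b) = bF H b := by
  obtain ⟨ν, hν⟩ := blockHomStmt (k := k) (G := H) b hb
  set E : MonoidAlgebra k H := mkF fun h : H => z h with hE
  have hEm : E ∈ Subalgebra.center k (MonoidAlgebra k H) := mkF_mem (isCF_of_invOn hz)
  have hbE : bF H E = z := bF_mkF z hz.2
  have hEE : E * E = E := by
    apply bF_inj
    rw [bF_mul, hbE, hzz]
  have hc : E * b = b * E := (Subalgebra.mem_center_iff.1 hEm b).symm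
  have hid : E * b * (E * b) = E * b := by
    rw [mul_assoc, ← mul_assoc b E b, ← hc, mul_assoc E b b, hb.2.1, ← mul_assoc, hEE]
  rcases hb.2.2.2 _ (mul_mem hEm hb.1) hid (by rw [mul_assoc, hb.2.1]) with h0 | h0
  · exfalso
    apply h1
    rw [h z hz]
    have h2 : ν (⟨E, hEm⟩ * ⟨b, hb.1⟩) = 0 := by
      have : (⟨E, hEm⟩ * ⟨b, hb.1⟩ : Subalgebra.center k (MonoidAlgebra k H)) = 0 :=
        Subtype.ext h0
      rw [this, map_zero]
    rw [map_mul, hν, hν] at h2
    change centralChar b E * centralChar b b = 0 at h2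
    rwa [centralChar_self b hb, mul_one] at h2
  · rw [← hbE, ← bF_mul, h0]

/-- the block of `H` below `l`, as a function on `G` -/
noncomputable def eH (H : Subgroup G) (l : (G → k) → k) : G → k :=
  if h : ∃ b : MonoidAlgebra k H, IsBlock b ∧ Low H l b then bF H h.choose else 0

theorem eH_eq {m : (G → k) → k} {b : MonoidAlgebra k H} (hb : IsBlock b) (h : Low H m b) :
    eH H m = bF H b := by
  have hex : ∃ b : MonoidAlgebra k H, IsBlock b ∧ Low H m b := ⟨b, hb, h⟩
  unfold eH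
  rw [dif_pos hex]
  obtain ⟨h1, h2⟩ := hex.choose_spec
  rw [h.unique hb h1]
  rw [h2.one h1]
  exact one_ne_zero

theorem eH_spec {m : (G → k) → k} (hm : MulH H m) :
    ∃ b : MonoidAlgebra k H, IsBlock b ∧ Low H m b ∧ eH H m = bF H b := by
  obtain ⟨b, hb, h⟩ := exists_blk hm
  exact ⟨b, hb, h, eH_eq hb h⟩

theorem invOn_eH {m : (G → k) → k} (hm : MulH H m) : InvOn H (eH H m) := by
  obtain ⟨b, hb, -, h⟩ := eH_spec hm
  rw [h]
  exact invOn_bF hb.1

theorem eH_idem {m : (G → k) → k} (hm : MulH H m) : conv (eH H m) (eH H m) = eH H m := by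
  obtain ⟨b, hb, -, h⟩ := eH_spec hm
  rw [h, conv_bF_self hb]

theorem l_eH {m : (G → k) → k} (hm : MulH H m) : m (eH H m) = 1 := by
  obtain ⟨b, hb, hl, h⟩ := eH_spec hm
  rw [h, hl.one hb]

theorem conv_eH {m : (G → k) → k} (hm : MulH H m) {z : G → k} (hz : InvOn H z)
    (hzz : conv z z = z) (h1 : m z ≠ 0) : conv z (eH H m) = eH H m := by
  obtain ⟨b, hb, hl, h⟩ := eH_spec hm
  rw [h, conv_bF_of_ne hb hl hz hzz h1]

/-- **conjugates of blocks, orthogonality** -/
theorem eH_eq_or {H H' : Subgroup G} {t : G} (ht : ∀ x, x ∈ H ↔ t⁻¹ * x * t ∈ H')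
    {m m' : (G → k) → k} (hm : MulH H m) (hm' : MulH H' m') :
    (∀ z, InvOn H z → m' (cj t⁻¹ z) = m z) ∨ conv (eH H m) (cj t (eH H' m')) = 0 := by
  have ht' : ∀ y, y ∈ H' ↔ t⁻¹⁻¹ * y * t⁻¹ ∈ H := by
    intro y
    rw [ht, inv_inv]
    have e1 : t⁻¹ * (t * y * t⁻¹) * t = y := by group
    rw [e1]
  have hm2 : MulH H fun z => m' (cj t⁻¹ z) := hm'.cj' ht
  obtain ⟨b, hb, hlb, hbe⟩ := eH_spec hm
  obtain ⟨b', hb', hlb', hbe'⟩ := eH_spec hm'
  obtain ⟨b2, hb2, hlb2, -⟩ := eH_spec hm2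
  have hz1 : InvOn H (cj t (bF H' b')) := invOn_cj' ht (invOn_bF hb'.1)
  have h1 : conv (cj t (bF H' b')) (bF H b2) = bF H b2 := by
    refine conv_bF_of_ne hb2 hlb2 hz1 ?_ ?_
    · rw [← cj_conv, conv_bF_self hb']
    · change m' (cj t⁻¹ (cj t (bF H' b'))) ≠ 0
      rw [cj_inv_cj, hlb'.one hb']
      exact one_ne_zero
  have hz2 : InvOn H' (cj t⁻¹ (bF H b2)) := invOn_cj' ht' (invOn_bF hb2.1)
  have h2 : conv (cj t⁻¹ (bF H b2)) (bF H' b') = bF H' b' := by
    refine conv_bF_of_ne hb' hlb' hz2 ?_ ?_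
    · rw [← cj_conv, conv_bF_self hb2]
    · have := hlb2.one hb2
      rw [this]
      exact one_ne_zero
  have h3 : conv (bF H b2) (cj t (bF H' b')) = cj t (bF H' b') := by
    have := congrArg (cj t) h2
    rwa [cj_conv, cj_cj_inv] at this
  have h4 : cj t (bF H' b') = bF H b2 := by
    calc cj t (bF H' b') = conv (bF H b2) (cj t (bF H' b')) := h3.symm
      _ = conv (cj t (bF H' b')) (bF H b2) :=
        (conv_comm_inv (H := H) hz1.1 (invOn_bF hb2.1).2).symm
      _ = bF H b2 := h1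
  by_cases hbb : b = b2
  · left
    intro z hz
    have h5 := hlb2 z hz
    change m' (cj t⁻¹ z) = _ at h5
    rw [h5, hlb z hz, hbb]
  · right
    rw [hbe, hbe', h4, ← bF_mul, block_mul_eq_zero hb hb2 hbb, bF_zero]

end Blocks

end P179H12
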