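import Vale.Agent.P179.R2.H12.Wat1

/-!
# Blocks of centralisers below a Brauer pair: fusion, relative traces, units
-/

namespace P179H12

open Subgroup Finset P179H524 P179C P179A P179P P179Y

open scoped Classical

universe u

section Fus

variable {p : ℕ} [hp : Fact p.Prime] {k : Type u} [Field k] [IsAlgClosed k] [CharP k p]
  {G : Type} [Group G] [Fintype G] {D : Subgroup G} {l : (G → k) → k}

omit [IsAlgClosed k] [CharP k p] [Fintype G] [Field k] hp in
theorem cent_le_centS {D : Subgroup G} {S : Set G} (hS : ∀ s ∈ S, s ∈ D) :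
    centralizer (D : Set G) ≤ centralizer S := centralizer_le hS

omit [IsAlgClosed k] [CharP k p] [Fintype G] [Field k] hp in
theorem le_centS {D : Subgroup G} (hab : D ≤ centralizer (D : Set G)) {S : Set G}
    (hS : ∀ s ∈ S, s ∈ D) : D ≤ centralizer S := hab.trans (centralizer_le hS)

theorem mulH_centS (hl : BP p D l) (hD : IsPGroup p D) (hab : D ≤ centralizer (D : Set G))
    {S : Set G} (hS : ∀ s ∈ S, s ∈ D) : MulH (centralizer S) l :=
  BP.mulH hl hD hab (cent_le_centS hS)

/-- the Brauer homomorphism sends the block of `H` below the pair to an element containing the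
block of `C_G(Q)` below the pair -/
theorem cut_eH (hl : BP p D l) (hD : IsPGroup p D) (hab : D ≤ centralizer (D : Set G))
    {H Q : Subgroup G} (hQD : Q ≤ D) (hQH : Q ≤ H) (hCH : centralizer (Q : Set G) ≤ H) :
    conv (cutC Q (eH H l)) (eH (centralizer (Q : Set G)) l) =
      eH (centralizer (Q : Set G)) l := by
  have hDQ : centralizer (D : Set G) ≤ centralizer (Q : Set G) := centralizer_le hQD
  have hmH : MulH H l := BP.mulH hl hD hab (hDQ.trans hCH)
  have hmQ : MulH (centralizer (Q : Set G)) l := BP.mulH hl hD hab hDQ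
  have hinv := invOn_eH hmH
  refine conv_eH hmQ (invOn_cutC' fun h hh x => hinv.1 h (hCH hh) x) ?_ ?_
  · rw [← cutC_conv p (hD.to_le hQD) (fun d hd x => hinv.1 d (hQH hd) x)
      (fun d hd x => hinv.1 d (hQH hd) x), eH_idem hmH]
  · have h1 : cutC D (cutC Q (eH H l)) = cutC D (eH H l) := by
      funext x
      unfold cutC
      by_cases hx : x ∈ centralizer (D : Set G)
      · rw [if_pos hx, if_pos (hDQ hx), if_pos hx]
      · rw [if_neg hx, if_neg hx]
    rw [← hl.cut, h1, hl.cut, l_eH hmH]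
    exact one_ne_zero

/-- **fusion**, for subsets of `D` -/
theorem fusS (hl : BP p D l) (hD : IsPGroup p D) (hab : D ≤ centralizer (D : Set G))
    (hT : ¬ p ∣ (centralizer (D : Set G)).relIndex (stabT D l)) {S : Set G}
    (hS : ∀ s ∈ S, s ∈ D) {t : G} (hSt : ∀ s ∈ S, t⁻¹ * s * t ∈ D) :
    (∃ θ ∈ stabT D l, ∀ s ∈ S, t⁻¹ * s * t = θ⁻¹ * s * θ) ∨
      conv (eH (centralizer S) l)
        (cj t (eH (centralizer ((fun s => t⁻¹ * s * t) '' S)) l)) = 0 := by
  have hS' : ∀ s ∈ (fun s => t⁻¹ * s * t) '' S, s ∈ D := by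
    rintro _ ⟨s, hs, rfl⟩
    exact hSt s hs
  have ht : ∀ x, x ∈ centralizer S ↔
      t⁻¹ * x * t ∈ centralizer ((fun s => t⁻¹ * s * t) '' S) := by
    intro x
    rw [mem_centralizer_iff, mem_centralizer_iff]
    constructor
    · rintro h _ ⟨s, hs, rfl⟩
      have := h s hs
      change t⁻¹ * s * t * (t⁻¹ * x * t) = t⁻¹ * x * t * (t⁻¹ * s * t)
      calc t⁻¹ * s * t * (t⁻¹ * x * t) = t⁻¹ * (s * x) * t := by group
        _ = t⁻¹ * x * t * (t⁻¹ * s * t) := by rw [this]; group
    · intro h s hs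
      have := h _ ⟨s, hs, rfl⟩
      change t⁻¹ * s * t * (t⁻¹ * x * t) = t⁻¹ * x * t * (t⁻¹ * s * t) at this
      calc s * x = t * (t⁻¹ * s * t * (t⁻¹ * x * t)) * t⁻¹ := by group
        _ = x * s := by rw [this]; group
  rcases eH_eq_or ht (mulH_centS hl hD hab hS) (mulH_centS hl hD hab hS') with h | h
  · left
    have hDH := le_centS hab hS
    have hCH := cent_le_centS hS
    have hgD : ∀ d ∈ D, t * d * t⁻¹ ∈ centralizer S := by
      intro d hd
      rw [ht, mem_centralizer_iff]
      rintro _ ⟨s, hs, rfl⟩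
      have h1 := mem_centralizer_iff.1 (hab (hSt s hs)) d hd
      have e1 : t⁻¹ * (t * d * t⁻¹) * t = d := by group
      rw [e1]
      exact h1.symm
    obtain ⟨c, hc, hct⟩ := fusionH hl hD hab hDH hCH
      (fun h => hT (h.trans (relIndex_stabT_lres_dvd hDH hCH))) hgD h
    refine ⟨c⁻¹ * t, hct, fun s hs => ?_⟩
    have h1 := mem_centralizer_iff.1 hc s hs
    calc t⁻¹ * s * t = t⁻¹ * (s * c) * c⁻¹ * t := by group
      _ = (c⁻¹ * t)⁻¹ * s * (c⁻¹ * t) := by rw [h1]; group
  · exact Or.inr h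

/-- **fusion** for elements of `D` -/
theorem fus1 (hl : BP p D l) (hD : IsPGroup p D) (hab : D ≤ centralizer (D : Set G))
    (hT : ¬ p ∣ (centralizer (D : Set G)).relIndex (stabT D l)) {v t : G} (hv : v ∈ D)
    (hvt : t⁻¹ * v * t ∈ D) :
    (∃ θ ∈ stabT D l, t⁻¹ * v * t = θ⁻¹ * v * θ) ∨
      conv (eH (centralizer {v}) l) (cj t (eH (centralizer {t⁻¹ * v * t}) l)) = 0 := by
  rcases fusS hl hD hab hT (S := {v}) (by rintro s rfl; exact hv) (t := t)
    (by rintro s rfl; exact hvt) with ⟨θ, hθ, h⟩ | h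
  · exact Or.inl ⟨θ, hθ, h v rfl⟩
  · right
    rwa [Set.image_singleton] at h

/-- conjugates of the block of `C_G(D)` -/
theorem conv_cj_eD (hl : BP p D l) (hD : IsPGroup p D) (hab : D ≤ centralizer (D : Set G))
    {n : G} (hn : n ∈ normalizer (D : Set G)) (hnT : n ∉ stabT D l) :
    conv (eH (centralizer (D : Set G)) l) (cj n (eH (centralizer (D : Set G)) l)) = 0 := by
  have ht : ∀ x, x ∈ centralizer (D : Set G) ↔ n⁻¹ * x * n ∈ centralizer (D : Set G) := by
    intro x
    have h1 := conj_mem_cent (inv_mem hn) x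
    rw [inv_inv] at h1
    exact h1.symm
  have hm : MulH (centralizer (D : Set G)) l := BP.mulH hl hD hab le_rfl
  rcases eH_eq_or ht hm hm with h | h
  · exfalso
    apply hnT
    rw [← inv_inv n]
    refine inv_mem ⟨inv_mem hn, fun z hz => ?_⟩
    exact h z hz
  · exact h

theorem cj_eD (hl : BP p D l) (hD : IsPGroup p D) (hab : D ≤ centralizer (D : Set G))
    {n : G} (hnT : n ∈ stabT D l) :
    cj n (eH (centralizer (D : Set G)) l) = eH (centralizer (D : Set G)) l := by
  have hm : MulH (centralizer (D : Set G)) l := BP.mulH hl hD hab le_rfl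
  obtain ⟨b, hb, hlb, he⟩ := eH_spec hm
  rw [he]
  have hN : n ∈ normalizer ((centralizer (D : Set G) : Subgroup G) : Set G) := by
    rw [mem_normalizer_iff]
    intro x
    exact (conj_mem_cent hnT.1 x).symm
  exact (mem_stH_iff hm hb hlb hN).1 ⟨hN, fun z hz => hnT.2 z hz⟩

end Fus

end P179H12
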