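import Vale.Agent.P179.R2.H12.Wat2
import Vale.Agent.P179.H905.Zab

/-!
# The block data for the core lemma
-/

namespace P179H12

open Subgroup Finset P179H524 P179C P179A P179P P179Y

open scoped Classical

universe u

/-- sums over cosets inside a subgroup -/
theorem sum_coset_sub {G : Type*} [Group G] [Fintype G] {M : Type*} [AddCommMonoid M]
    {D C : Subgroup G} (hDC : D ≤ C) (f : G → M) (hf : ∀ g, ∀ d ∈ D, f (g * d) = f g)
    [Fintype (C ⧸ D.subgroupOf C)] :
    (∑ c : G ⧸ D, if c.out ∈ C then f c.out else 0) =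
      ∑ s : C ⧸ D.subgroupOf C, f (s.out : G) := by
  rw [← Finset.sum_filter]
  symm
  refine Finset.sum_bij (fun s _ => (((s.out : C) : G) : G ⧸ D)) ?_ ?_ ?_ ?_
  · intro s _
    rw [Finset.mem_filter]
    refine ⟨Finset.mem_univ _, ?_⟩
    obtain ⟨d, hd⟩ := QuotientGroup.mk_out_eq_mul D ((s.out : C) : G)
    rw [hd]
    exact mul_mem s.out.2 (hDC d.2)
  · intro s _ s' _ h
    have h1 := QuotientGroup.eq.1 h
    rw [← QuotientGroup.out_eq' s, ← QuotientGroup.out_eq' s']
    refine QuotientGroup.eq.2 ?_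
    rw [Subgroup.mem_subgroupOf]
    exact h1
  · intro c hc
    have hcC := (Finset.mem_filter.1 hc).2
    refine ⟨((⟨c.out, hcC⟩ : C) : C ⧸ D.subgroupOf C), Finset.mem_univ _, ?_⟩
    obtain ⟨d, hd⟩ := QuotientGroup.mk_out_eq_mul (D.subgroupOf C) (⟨c.out, hcC⟩ : C)
    rw [hd]
    conv_rhs => rw [← QuotientGroup.out_eq' c]
    refine QuotientGroup.eq.2 ?_
    have h1 := Subgroup.mem_subgroupOf.1 d.2
    change (c.out * ((d : C) : G))⁻¹ * c.out ∈ D
    have e1 : (c.out * ((d : C) : G))⁻¹ * c.out = (((d : C) : G))⁻¹ := by group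
    rw [e1]
    exact inv_mem h1
  · intro s _
    obtain ⟨d, hd⟩ := QuotientGroup.mk_out_eq_mul D ((s.out : C) : G)
    rw [hd, hf _ _ d.2]

section C3

variable {p : ℕ} [hp : Fact p.Prime] {k : Type u} [Field k] [IsAlgClosed k] [CharP k p]
  {G : Type} [Group G] [Fintype G] {D : Subgroup G} {l : (G → k) → k}

/-- the block of `C_G(D)` is a relative trace from `D` -/
theorem exists_y0 (hl : BP p D l) (hD : IsPGroup p D) (hab : D ≤ centralizer (D : Set G))
    (hT : ¬ p ∣ (centralizer (D : Set G)).relIndex (stabT D l)) :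
    ∃ y0 : G → k, (∀ x, x ∉ centralizer (D : Set G) → y0 x = 0) ∧
      ∀ x, (∑ c : G ⧸ D, if c.out ∈ centralizer (D : Set G) then y0 (c.out⁻¹ * x * c.out)
        else 0) = eH (centralizer (D : Set G)) l x := by
  have hm : MulH (centralizer (D : Set G)) l := BP.mulH hl hD hab le_rfl
  obtain ⟨b, hb, hlb, he⟩ := eH_spec hm
  have hcom : ∀ a ∈ D, ∀ c ∈ D, a * c = c * a := fun a ha c hc =>
    mem_centralizer_iff.1 (hab hc) a ha
  obtain ⟨a, ha, hba⟩ := (isDefectGroup_low hl hD hcom hT hab le_rfl hb hlb).1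
  have := Fintype.ofFinite (centralizer (D : Set G) ⧸ D.subgroupOf (centralizer (D : Set G)))
  refine ⟨bF (centralizer (D : Set G)) a, fun x hx => ext_of_not_mem _ _ hx, fun x => ?_⟩
  rw [sum_coset_sub hab (fun c => bF (centralizer (D : Set G)) a (c⁻¹ * x * c)), he]
  · by_cases hx : x ∈ centralizer (D : Set G)
    · unfold bF
      rw [ext_of_mem _ _ hx, hba, finsum_eq_sum_of_fintype, MonoidAlgebra.coeff_sum,
        Finsupp.finsetSum_apply]
      refine Finset.sum_congr rfl fun s _ => ?_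
      rw [H905.coeff_conjBy]
      have h1 : ((s.out : centralizer (D : Set G)) : G)⁻¹ * x * (s.out : centralizer (D : Set G))
          = ((s.out⁻¹ * ⟨x, hx⟩ * s.out : centralizer (D : Set G)) : G) := rfl
      rw [h1, P179Y.ext_coe]
    · unfold bF
      rw [ext_of_not_mem _ _ hx]
      refine Finset.sum_eq_zero fun s _ => ext_of_not_mem _ _ fun h => hx ?_
      have := mul_mem (mul_mem s.out.2 h) (inv_mem s.out.2)
      have e1 : (s.out : G) * ((s.out : G)⁻¹ * x * (s.out : G)) * (s.out : G)⁻¹ = x := by group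
      rwa [e1] at this
  · intro g d hd
    change bF _ a ((g * d)⁻¹ * x * (g * d)) = bF _ a (g⁻¹ * x * g)
    have e1 : (g * d)⁻¹ * x * (g * d) = d⁻¹ * (g⁻¹ * x * g) * d := by group
    rw [e1]
    set y := g⁻¹ * x * g
    unfold bF
    by_cases hy : y ∈ centralizer (D : Set G)
    · have e2 : d⁻¹ * y * d = y := by
        have h1 := mem_centralizer_iff.1 hy d hd
        calc d⁻¹ * y * d = d⁻¹ * (d * y) := by rw [h1]; group
          _ = y := by group
      rw [e2]
    · rw [ext_of_not_mem _ _ hy, ext_of_not_mem]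
      intro h
      apply hy
      have hdC := hab hd
      have := mul_mem (mul_mem hdC h) (inv_mem hdC)
      have e1 : d * (d⁻¹ * y * d) * d⁻¹ = y := by group
      rwa [e1] at this

/-- **(C3)** -/
theorem c3 (hl : BP p D l) (hD : IsPGroup p D) (hab : D ≤ centralizer (D : Set G))
    (hT : ¬ p ∣ (centralizer (D : Set G)).relIndex (stabT D l)) :
    ∃ (bD y0 : G → k) (e : G → G → k),
      (InvOn (centralizer (D : Set G)) bD ∧ conv bD bD = bD ∧ l bD = 1) ∧
      ((∀ t ∈ stabT D l, cj t bD = bD) ∧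
        ∀ t ∈ normalizer (D : Set G), t ∉ stabT D l → conv bD (cj t bD) = 0) ∧
      ((∀ x ∉ centralizer (D : Set G), y0 x = 0) ∧
        ∀ x, (∑ c : G ⧸ D, if c.out ∈ centralizer (D : Set G) then y0 (c.out⁻¹ * x * c.out)
          else 0) = bD x) ∧
      (∀ v ∈ D, InvOn (centralizer {v}) (e v) ∧ conv (e v) (e v) = e v ∧
        ∀ x ∈ centralizer (D : Set G), conv (e v) bD x = bD x) ∧
      ∀ v ∈ D, ∀ t : G, t⁻¹ * v * t ∈ D →
        (∃ θ ∈ stabT D l, t⁻¹ * v * t = θ⁻¹ * v * θ) ∨
          conv (e v) (cj t (e (t⁻¹ * v * t))) = 0 := by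
  obtain ⟨y0, hy0, hy⟩ := exists_y0 hl hD hab hT
  have hm : MulH (centralizer (D : Set G)) l := BP.mulH hl hD hab le_rfl
  refine ⟨eH (centralizer (D : Set G)) l, y0, fun v => eH (centralizer {v}) l,
    ⟨invOn_eH hm, eH_idem hm, l_eH hm⟩, ⟨fun t ht => cj_eD hl hD hab ht,
      fun t ht htT => conv_cj_eD hl hD hab ht htT⟩, ⟨hy0, hy⟩, fun v hv => ?_,
    fun v hv t ht => fus1 hl hD hab hT hv ht⟩
  have hCv : centralizer (D : Set G) ≤ centralizer {v} := cent_le_of_mem hv
  have hDv : D ≤ centralizer {v} := le_cent_of_mem hv hab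
  have hmv : MulH (centralizer {v}) l := BP.mulH hl hD hab hCv
  have hinv := invOn_eH hmv
  refine ⟨hinv, eH_idem hmv, fun x hx => ?_⟩
  rw [conv_cut p D hD (fun d hd x => hinv.1 d (hDv hd) x)
    (fun d hd x => (invOn_eH hm).1 d (hab hd) x) hx,
    cutC_of_supp (invOn_eH hm).2, cut_eH hl hD hab le_rfl hDv hCv]

/-- the block elements at `v`, with an explicit name -/
theorem conv_ev_bD (hl : BP p D l) (hD : IsPGroup p D) (hab : D ≤ centralizer (D : Set G))
    {v : G} (hv : v ∈ D) {x : G} (hx : x ∈ centralizer (D : Set G)) :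
    conv (eH (centralizer {v}) l) (eH (centralizer (D : Set G)) l) x =
      eH (centralizer (D : Set G)) l x := by
  have hm : MulH (centralizer (D : Set G)) l := BP.mulH hl hD hab le_rfl
  have hCv : centralizer (D : Set G) ≤ centralizer {v} := cent_le_of_mem hv
  have hDv : D ≤ centralizer {v} := le_cent_of_mem hv hab
  have hinv := invOn_eH (BP.mulH hl hD hab hCv)
  rw [conv_cut p D hD (fun d hd x => hinv.1 d (hDv hd) x)
    (fun d hd x => (invOn_eH hm).1 d (hab hd) x) hx,
    cutC_of_supp (invOn_eH hm).2, cut_eH hl hD hab le_rfl hDv hCv]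

end C3

end P179H12
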