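import Vale.Agent.P179.R2.H12.Wat2

/-!
# Transport of blocks below a functional between a group and its subgroups
-/

namespace P179H12

open Subgroup Finset P179H524 P179C P179A P179P P179Y

open scoped Classical

universe u

section

variable {k : Type u} [Field k] {G : Type} [Group G] [Fintype G] {K : Subgroup G}
  {l : (G → k) → k}

omit [Fintype G] in
theorem invOn_ext {H' : Subgroup K} {a : K → k} (ha : InvOn H' a) :
    InvOn (H'.map K.subtype) (P179Y.ext K a) := by
  constructor
  · rintro _ ⟨h, hh, rfl⟩ x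
    change P179Y.ext K a ((h : G) * x * (h : G)⁻¹) = _
    by_cases hx : x ∈ K
    · rw [P179Y.ext_of_mem K a hx,
        P179Y.ext_of_mem K a (mul_mem (mul_mem h.2 hx) (inv_mem h.2))]
      exact ha.1 h hh ⟨x, hx⟩
    · rw [P179Y.ext_of_not_mem K a hx, P179Y.ext_of_not_mem K a]
      intro h1
      apply hx
      have := mul_mem (mul_mem (inv_mem h.2) h1) h.2
      have e1 : (h : G)⁻¹ * ((h : G) * x * (h : G)⁻¹) * (h : G) = x := by group
      rwa [e1] at this
  · intro x hx
    by_cases hxK : x ∈ K
    · rw [P179Y.ext_of_mem K a hxK]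
      exact ha.2 _ fun h => hx ⟨⟨x, hxK⟩, h, rfl⟩
    · exact P179Y.ext_of_not_mem K a hxK

omit [Fintype G] in
theorem invOn_res {H' : Subgroup K} {a : G → k} (ha : InvOn (H'.map K.subtype) a) :
    InvOn H' fun x : K => a x := by
  constructor
  · intro h hh x
    exact ha.1 (h : G) ⟨h, hh, rfl⟩ x
  · intro x hx
    refine ha.2 _ ?_
    rintro ⟨y, hy, hyx⟩
    apply hx
    have : y = x := Subtype.ext hyx
    rwa [← this]

omit [Fintype G] in
theorem ext_res {H' : Subgroup K} {a : G → k} (ha : ∀ x, x ∉ H'.map K.subtype → a x = 0) :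
    P179Y.ext K (fun x : K => a x) = a := by
  funext x
  by_cases hx : x ∈ K
  · rw [P179Y.ext_of_mem K _ hx]
  · rw [P179Y.ext_of_not_mem K _ hx, ha]
    rintro ⟨y, _, hyx⟩
    apply hx
    rw [← hyx]
    exact y.2

theorem mulH_lres {H' : Subgroup K} (hm : MulH (H'.map K.subtype) l) :
    MulH H' (lres K l) where
  add a b := by
    change l (P179Y.ext K (a + b)) = l (P179Y.ext K a) + l (P179Y.ext K b)
    rw [P179Y.ext_add, hm.add]
  smul c a := by
    change l (P179Y.ext K (c • a)) = c * l (P179Y.ext K a)
    rw [P179Y.ext_smul, hm.smul]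
  one := by
    have h1 := P179Y.ext_one (k := k) K (fun g => if g = 1 then 1 else 0) (if_pos rfl)
      (fun g hg => if_neg hg)
    have h2 := hm.one
    rw [← h1] at h2
    unfold lres
    convert h2 using 3
    funext g
    congr
  mul a b ha hb := by
    change l (P179Y.ext K (conv a b)) = l (P179Y.ext K a) * l (P179Y.ext K b)
    rw [P179Y.ext_conv, hm.mul _ _ (invOn_ext ha) (invOn_ext hb)]

/-- **transport** of the block of a subgroup below `l` -/
theorem ext_eH [IsAlgClosed k] {H' : Subgroup K} (hm : MulH (H'.map K.subtype) l) :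
    P179Y.ext K (eH H' (lres K l)) = eH (H'.map K.subtype) l := by
  have hm' := mulH_lres hm
  set a := eH H' (lres K l) with ha
  set c := eH (H'.map K.subtype) l with hc
  have ha1 : InvOn H' a := invOn_eH hm'
  have hc1 : InvOn (H'.map K.subtype) c := invOn_eH hm
  have hcc : conv c c = c := eH_idem hm
  have hre : P179Y.ext K (fun x : K => c x) = c := ext_res hc1.2
  -- `res c * a = a`
  have h1 : conv (fun x : K => c x) a = a := by
    refine conv_eH hm' (invOn_res hc1) ?_ ?_
    · have h2 : P179Y.ext K (conv (fun x : K => c x) fun x : K => c x) =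
          P179Y.ext K (fun x : K => c x) := by
        rw [P179Y.ext_conv, hre, hcc]
      funext x
      have h3 := congrFun h2 (x : G)
      rwa [P179Y.ext_coe, P179Y.ext_coe] at h3
    · change l (P179Y.ext K (fun x : K => c x)) ≠ 0
      rw [hre, hc, l_eH hm]
      exact one_ne_zero
  -- `ext a * c = c`
  have h2 : conv (P179Y.ext K a) c = c := by
    refine conv_eH hm (invOn_ext ha1) ?_ ?_
    · rw [← P179Y.ext_conv, ha, eH_idem hm']
    · change lres K l a ≠ 0
      rw [ha, l_eH hm']
      exact one_ne_zero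
  have h3 : conv c (P179Y.ext K a) = P179Y.ext K a := by
    conv_lhs => rw [← hre]
    rw [← P179Y.ext_conv, h1]
  calc P179Y.ext K a = conv c (P179Y.ext K a) := h3.symm
    _ = conv (P179Y.ext K a) c := conv_comm_inv (H := H'.map K.subtype) hc1.1 (invOn_ext ha1).2
    _ = c := h2

end

end P179H12
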