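import Vale.Agent.P179.R2.H12.Free

/-!
# The number of weights when the inertial quotient is cyclic
-/

namespace P179H12

open Subgroup Finset P179H524 P179C P179A P179P P179Y P179H872

open P179B (inertialGroup inertialIndex regularElements)

open scoped Classical

universe u

section Grp

/-- the conjugacy classes of a cyclic quotient -/
theorem card_conj_cyclic {S : Type*} [Group S] (C : Subgroup S) [C.Normal] (z : S)
    (hz : ∀ x : S, x ∈ C ⊔ zpowers z) : Nat.card (ConjClasses (S ⧸ C)) = C.index := by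
  have hgen : ∀ x : S, ∃ i : ℤ, (x : S ⧸ C) = (z : S ⧸ C) ^ i := by
    intro x
    have h1 : x ∈ ((C ⊔ zpowers z : Subgroup S) : Set S) := hz x
    rw [normal_mul] at h1
    obtain ⟨c, hc, y, hy, hcy⟩ := Set.mem_mul.1 h1
    obtain ⟨i, rfl⟩ := mem_zpowers_iff.1 hy
    refine ⟨i, ?_⟩
    rw [← hcy, QuotientGroup.mk_mul, (QuotientGroup.eq_one_iff c).2 hc, one_mul,
      QuotientGroup.mk_zpow]
  have hcomm : ∀ a b : S ⧸ C, a * b = b * a := by
    intro a b
    obtain ⟨x, rfl⟩ := QuotientGroup.mk_surjective a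
    obtain ⟨y, rfl⟩ := QuotientGroup.mk_surjective b
    obtain ⟨i, hi⟩ := hgen x
    obtain ⟨j, hj⟩ := hgen y
    rw [hi, hj, ← zpow_add, ← zpow_add, add_comm]
  rw [← Nat.card_congr (Equiv.ofBijective (ConjClasses.mk (α := S ⧸ C)) ⟨fun a b h => ?_,
    ConjClasses.mk_surjective⟩)]
  · rfl
  · rw [ConjClasses.mk_eq_mk_iff_isConj, isConj_iff] at h
    obtain ⟨c, hc⟩ := h
    rw [← hc, hcomm c a, mul_assoc, mul_inv_cancel, mul_one]

end Grp

section

variable {p : ℕ} [hp : Fact p.Prime] {k : Type u} [Field k] [IsAlgClosed k] [CharP k p]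
  {G : Type} [Group G] [Fintype G] {D : Subgroup G} {l : (G → k) → k}

omit hp [IsAlgClosed k] [CharP k p] [Fintype G] in
theorem cent_normal_stabT : ((centralizer (D : Set G)).subgroupOf (stabT D l)).Normal := by
  refine ⟨fun c hc n => ?_⟩
  rw [mem_subgroupOf] at hc ⊢
  exact P179B.conj_mem_centralizer_of_mem_normalizer (stabT_le_norm D l n.2) hc

/-- **the number of weights** as a number of conjugacy classes, cyclic form -/
theorem numWeightsIn_eq_conj (red : integralClosure ℤ ℂ →+* k) {B : MonoidAlgebra k G}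
    (hB : IsBlock B) (hDB : IsDefectGroup B D)
    (hab : ∀ a ∈ D, ∀ b ∈ D, a * b = b * a) (hl : BP p D l)
    (hlB : ∀ z, IsCF z → l z = centralChar B (mkF z))
    (hcyc : ∀ x ∈ stabT D l, ∀ t ∈ stabT D l, t * x * t⁻¹ * x⁻¹ ∈ centralizer (D : Set G) →
      ∃ z ∈ stabT D l, x ∈ centralizer (D : Set G) ⊔ zpowers z ∧
        t ∈ centralizer (D : Set G) ⊔ zpowers z)
    [hn : ((centralizer (D : Set G)).subgroupOf (stabT D l)).Normal] :
    numWeightsIn p red B =
      Nat.card (ConjClasses (stabT D l ⧸ (centralizer (D : Set G)).subgroupOf (stabT D l))) := by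
  have hD : IsPGroup p D := (exists_BP_of_block (p := p) B hB D hDB).1
  have hab' : D ≤ centralizer (D : Set G) := by
    intro x hx
    rw [mem_centralizer_iff]
    intro y hy
    exact hab y hy x hx
  have hT := hT_of_block hB hDB hD hab hl hlB
  have hcf : ∀ {K : Type} [Group K] [Fintype K] {b : MonoidAlgebra k K}, IsBlock b →
      IsCF (fun g => b.coeff g) ∧ conv (fun g => b.coeff g) (fun g => b.coeff g) =
        fun g => b.coeff g := by
    intro K _ _ b hb
    refine ⟨(P179C.mem_center_iff _).1 hb.1, ?_⟩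
    funext g
    rw [← coeff_mul_eq_conv, hb.2.1]
  have hDN : D ≤ normalizer (D : Set G) := le_normalizer
  have hCN : centralizer (D : Set G) ≤ normalizer (D : Set G) := cent_le_norm D
  obtain ⟨b, hb, hbz, hbB, huniq⟩ := P179H450.exists_corr hl hD hab hT hlB
  obtain ⟨b', hb', hbB', -, hw, -⟩ := P179H450.W1_corr p red hB hDB hab
  have hbb := huniq b' hb' hbB'
  subst hbb
  rw [← hw]
  set N : Subgroup G := normalizer (D : Set G) with hN
  have hDn : (D.subgroupOf N).Normal := ⟨fun x hx g => by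
    rw [mem_subgroupOf] at hx ⊢
    exact (mem_normalizer_iff.1 g.2 _).1 hx⟩
  have hl' := hl.restrict hDN hCN
  have hD' : IsPGroup p (D.subgroupOf N) := hD.comap_subtype
  have hab'' : D.subgroupOf N ≤ centralizer ((D.subgroupOf N : Subgroup N) : Set N) := by
    intro x hx
    rw [mem_cent_subgroupOf hDN]
    exact hab' (by simpa [Subgroup.mem_subgroupOf] using hx)
  have hT' : ¬ p ∣ (centralizer ((D.subgroupOf N : Subgroup N) : Set N)).relIndex
      (stabT (D.subgroupOf N) (lres N l)) :=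
    fun h => hT (h.trans (relIndex_stabT_lres_dvd hDN hCN))
  have h2 := numSimple_cover (p := p) (H := centralizer ((D.subgroupOf N : Subgroup N) : Set N))
    red hb' (fun x hx => idem_supp (p := p) (D.subgroupOf N) hD' (hcf hb').1 (hcf hb').2 hx) hl' hD'
    hab'' (fun z hz => (hbz z hz).symm) hT' hab'' le_rfl (fun n _ h => h) (by
      intro x hx t ht hxt
      obtain ⟨z, hz, hz1, hz2⟩ := hcyc x ((mem_stabT_lres hDN hCN x).1 hx) t
        ((mem_stabT_lres hDN hCN t).1 ht) ((mem_cent_subgroupOf hDN _).1 hxt)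
      have hzN : z ∈ N := hz.1
      refine ⟨⟨z, hzN⟩, (mem_stabT_lres hDN hCN ⟨z, hzN⟩).2 hz, ?_, ?_⟩
      · rw [cent_subgroupOf_eq hDN]
        exact mem_sup_aux hCN le_rfl hzN x.2 (one_mem _) (by group) hz1
      · rw [cent_subgroupOf_eq hDN]
        exact mem_sup_aux hCN le_rfl hzN t.2 (one_mem _) (by group) hz2)
  rw [h2]
  refine card_conj_quot N.subtype N.subtype_injective _ _ _ _
    (fun x => mem_stabT_lres hDN hCN x) (fun y hy => ⟨⟨y, hy.1⟩, rfl⟩) fun x _ => ?_
  rw [mem_cent_subgroupOf hDN]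
  rfl

/-- **(WE)** `w = e` if the inertial quotient is cyclic -/
theorem numWeightsIn_eq_index (red : integralClosure ℤ ℂ →+* k) {B : MonoidAlgebra k G}
    (hB : IsBlock B) (hDB : IsDefectGroup B D)
    (hab : ∀ a ∈ D, ∀ b ∈ D, a * b = b * a) (hl : BP p D l)
    (hlB : ∀ z, IsCF z → l z = centralChar B (mkF z))
    (hcyc : ∃ z ∈ stabT D l, ∀ x ∈ stabT D l, x ∈ centralizer (D : Set G) ⊔ zpowers z) :
    numWeightsIn p red B = (centralizer (D : Set G)).relIndex (stabT D l) := by
  obtain ⟨z, hz, hz1⟩ := hcyc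
  have hn := cent_normal_stabT (D := D) (l := l)
  rw [numWeightsIn_eq_conj red hB hDB hab hl hlB fun x hx t ht _ => ⟨z, hz, hz1 x hx, hz1 t ht⟩]
  refine card_conj_cyclic _ (⟨z, hz⟩ : stabT D l) fun x => ?_
  exact mem_sup_aux (cent_le_stabT D l) le_rfl hz x.2 (one_mem _)
    (show (x : G) = (1 : G)⁻¹ * x by group) (hz1 x x.2)

end

end P179H12
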